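import Vale.Agent.Lib.P154N.D4.Main
import Vale.Agent.Lib.P154N.D4.HP
import Vale.Agent.Lib.P154Anti.Cert.D4.Final

/-!
# Nonreconstruction for three colours on the tree with 4 children, negative eigenvalue
-/

open Filter Topology

namespace Vale.Agent.Lib.P154N.D4

open Vale.Agent.Lib.P154 Vale.Agent.Lib.P154GW Vale.Agent.Lib.P154K Vale.Agent.Lib.P154Neg Tp

noncomputable section

/-- The merge inequalities in one family. -/
def Xf : ℕ → Ctx
  | 0 => X2
  | 1 => X3
  | _ => X4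

lemma hCc : ∀ j, 0 ≤ (Xf j).C := by
  intro j
  match j with
  | 0 => simp only [Xf, X2]; norm_num
  | 1 => simp only [Xf, X3]; norm_num
  | _ + 2 => simp only [Xf, X4]; norm_num

lemma hXj : ∀ j, 1 ≤ j → j ≤ 2 → (Xf j).La = (Xf (j - 1)).Lc ∧ (Xf j).Lb = Ly ∧ (Xf j).t = 0 := by
  intro j h1 h2
  interval_cases j <;> exact ⟨rfl, rfl, rfl⟩

lemma hj : ∀ j, 1 ≤ j → j ≤ 2 → ∀ a c, InSx 1 a → InSx 1 c →
    KT (potL (Xf j).Lc) a (sc ss c) ≤ (Xf j).rhs a (sc ss c) := by
  intro j h1 h2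
  interval_cases j
  · exact merge3
  · exact merge4

lemma hY (c : Tp) : potL Ly (sc ss c) = ss ^ 2 * potL L4 c - ((17826639234 : ℤ) : ℝ) * p2T (sc ss c) ^ 3 := by
  simp only [potL, Ly, L4, T4, List.map_cons, List.map_nil, List.sum_cons, List.sum_nil, sc, p2T_scale',
    p3T_scale', ss]
  push_cast
  ring

theorem hray : ∀ c, InSx 1 c → ∀ μ : ℝ, 0 ≤ μ → μ ≤ 1 → potL L4 (scale μ c) ≤ μ ^ 2 * potL L4 c :=
  ray_of_chk (n := 8) (m := 8) (by decide +kernel) (by decide +kernel)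


lemma hP (a c : Tp) (ha : InSx 1 a) (hc : InSx 1 c) : KT p2T a (sc ss c) ≤
    p2T a + (1 + 190 / 1000) * p2T (sc ss c) + (3500 / 1000) * p2T (sc ss c) ^ 2 := by
  have := hP_of_roots (X := XP) (dn := 1190) (mn := 3500) rfl rfl rfl rfl rfl (p := 1) (q := 2) (by norm_num) (by norm_num) rootP0 rootP1 a c ha hc
  have e1 : (1 : ℝ) + 190 / 1000 = ((1190 : ℤ) : ℝ) / 1000 := by norm_num
  have e2 : (3500 : ℝ) / 1000 = ((3500 : ℤ) : ℝ) / 1000 := by norm_num
  rw [e1, e2]
  exact this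

lemma hge (c : Tp) (hc : InSx 1 c) : p2T c ≤ (2 / 1073741824) * potL L4 c := by
  have := lb4 c hc
  push_cast at this
  have h2 := p2T_nonneg c
  linarith

/-- **Nonreconstruction** on the tree with 4 children, for every negative eigenvalue at the bound of Kesten and Stigum
or below it. -/
theorem tendsto {lam : ℝ} (hlam : lam < 0) (hd : 4 * lam ^ 2 ≤ 1) :
    Tendsto (reconDist 3 4 lam) atTop (𝓝 0) := by
  have hl0 : -5000 / 10000 ≤ lam := by
    by_contra hn
    push Not at hn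
    nlinarith
  have hl1 : -ss ≤ lam := by
    by_contra hn
    push Not at hn
    simp only [ss] at hn
    norm_num at hn
    nlinarith
  have hl2 : (-1 : ℝ) / 2 ≤ lam := by
    by_contra hn
    push Not at hn
    nlinarith
  have hF : Vale.Agent.Lib.P154Anti.lamOf Vale.Agent.Lib.P154Anti.Cert.D4.cfg ≤ lam := by
    rw [Vale.Agent.Lib.P154Anti.Cert.D4.lamOf_cfg]
    linarith
  exact assemble (k := 2) (X := Xf) (Ly := Ly) (Lf := L4) (s := ss) (δ := 190 / 1000) (M := 3500 / 1000)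
    (y₀ := Vale.Agent.Lib.P154Anti.Cert.D4.y0) (m₀ := Vale.Agent.Lib.P154Anti.Cert.D4.m0) (K₀ := 2 / 1073741824)
    (U := 1463259 / 100000000) (lam := lam) (t := 3145530) (B := 17826639234) (N := Vale.Agent.Lib.P154Anti.Cert.D4.depth)
    (by simp only [ss]; norm_num) (by norm_num) (by norm_num) (by norm_num) (by norm_num) hCc hl2 hl1 hlam
    (by push_cast; linarith) ⟨rfl, rfl, rfl⟩ hXj rfl merge2 hj hY hray hP hge
    (fun n hn => Vale.Agent.Lib.P154Anti.Cert.D4.moments hF hlam.le n hn)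
    (by simp only [Vale.Agent.Lib.P154Anti.Cert.D4.y0]; norm_num)
    (by simp only [Vale.Agent.Lib.P154Anti.Cert.D4.m0]; norm_num)
    (by simp only [Vale.Agent.Lib.P154Anti.Cert.D4.y0, Vale.Agent.Lib.P154Anti.Cert.D4.m0]; norm_num)
    (by
      simp only [Finset.sum_range_succ, Finset.sum_range_zero, Xf]
      simp only [X2, X3, X4]
      norm_num)

end

end Vale.Agent.Lib.P154N.D4
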