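import Vale.Agent.Lib.P154N.D4.Data
import Vale.Agent.Lib.P154N.Red

/-!
# Leaves of the tree of triangles
-/

namespace Vale.Agent.Lib.P154N.D4

open Vale.Agent.Lib.P154K Vale.Agent.Lib.P154Neg

theorem l0 : HoldsN X2 (Trg.left (Trg.left (Trg.left (chamberN 1 2)))) (Trg.left (Trg.left (Trg.left (chamberN 1 2)))) :=
  HoldsN.of_red (k := 16) (m := 16) (leaf ok2 (G664 _ rfl) (G351 _ rfl) (G351 _ rfl) (by decide +kernel))
theorem l1 : HoldsN X2 (Trg.left (Trg.left (Trg.left (chamberN 1 2)))) (Trg.right (Trg.left (Trg.left (chamberN 1 2)))) :=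
  HoldsN.of_red (k := 16) (m := 16) (leaf ok2 (G606 _ rfl) (G466 _ rfl) (G406 _ rfl) (by decide +kernel))
theorem l2 : HoldsN X2 (Trg.left (Trg.left (Trg.left (chamberN 1 2)))) (Trg.right (Trg.left (chamberN 1 2))) :=
  HoldsN.of_red (k := 16) (m := 16) (leaf ok2 (G664 _ rfl) (G353 _ rfl) (G267 _ rfl) (by decide +kernel))
theorem l3 : HoldsN X2 (Trg.right (Trg.left (Trg.left (chamberN 1 2)))) (Trg.left (Trg.left (Trg.left (chamberN 1 2)))) :=
  HoldsN.of_red (k := 16) (m := 16) (leaf ok2 (G606 _ rfl) (G406 _ rfl) (G466 _ rfl) (by decide +kernel))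
theorem l4 : HoldsN X2 (Trg.left (Trg.left (Trg.right (Trg.left (Trg.left (chamberN 1 2)))))) (Trg.right (Trg.left (Trg.left (chamberN 1 2)))) :=
  HoldsN.of_red (k := 16) (m := 16) (leaf ok2 (G592 _ rfl) (G504 _ rfl) (G493 _ rfl) (by decide +kernel))
theorem l5 : HoldsN X2 (Trg.right (Trg.left (Trg.right (Trg.left (Trg.left (chamberN 1 2)))))) (Trg.left (Trg.left (Trg.right (Trg.left (Trg.left (chamberN 1 2)))))) :=
  HoldsN.of_red (k := 16) (m := 16) (leaf ok2 (G587 _ rfl) (G534 _ rfl) (G545 _ rfl) (by decide +kernel))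
theorem l6 : HoldsN X2 (Trg.right (Trg.left (Trg.right (Trg.left (Trg.left (chamberN 1 2)))))) (Trg.right (Trg.left (Trg.right (Trg.left (Trg.left (chamberN 1 2)))))) :=
  HoldsN.of_red (k := 16) (m := 16) (leaf ok2 (G584 _ rfl) (G545 _ rfl) (G545 _ rfl) (by decide +kernel))
theorem l7 : HoldsN X2 (Trg.right (Trg.left (Trg.right (Trg.left (Trg.left (chamberN 1 2)))))) (Trg.right (Trg.right (Trg.left (Trg.left (chamberN 1 2))))) :=
  HoldsN.of_red (k := 16) (m := 16) (leaf ok2 (G587 _ rfl) (G534 _ rfl) (G534 _ rfl) (by decide +kernel))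
theorem l8 : HoldsN X2 (Trg.right (Trg.right (Trg.left (Trg.left (chamberN 1 2))))) (Trg.right (Trg.left (Trg.left (chamberN 1 2)))) :=
  HoldsN.of_red (k := 16) (m := 16) (leaf ok2 (G592 _ rfl) (G493 _ rfl) (G493 _ rfl) (by decide +kernel))
theorem l9 : HoldsN X2 (Trg.right (Trg.left (Trg.left (chamberN 1 2)))) (Trg.right (Trg.left (chamberN 1 2))) :=
  HoldsN.of_red (k := 16) (m := 16) (leaf ok2 (G606 _ rfl) (G408 _ rfl) (G408 _ rfl) (by decide +kernel))

end Vale.Agent.Lib.P154N.D4
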