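import Vale.Agent.Lib.P154N.D4.Data
import Vale.Agent.Lib.P154N.Red

/-!
# Leaves of the tree of triangles
-/

namespace Vale.Agent.Lib.P154N.D4

open Vale.Agent.Lib.P154K Vale.Agent.Lib.P154Neg

theorem l10 : HoldsN X2 (Trg.left (Trg.right (Trg.left (chamberN 1 2)))) (Trg.left (Trg.left (Trg.left (Trg.left (chamberN 1 2))))) :=
  HoldsN.of_red (k := 16) (m := 16) (leaf ok2 (G656 _ rfl) (G374 _ rfl) (G465 _ rfl) (by decide +kernel))
theorem l11 : HoldsN X2 (Trg.left (Trg.right (Trg.left (chamberN 1 2)))) (Trg.right (Trg.left (Trg.left (Trg.left (chamberN 1 2))))) :=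
  HoldsN.of_red (k := 16) (m := 16) (leaf ok2 (G661 _ rfl) (G261 _ rfl) (G478 _ rfl) (by decide +kernel))
theorem l12 : HoldsN X2 (Trg.right (Trg.right (Trg.left (chamberN 1 2)))) (Trg.left (Trg.left (Trg.left (chamberN 1 2)))) :=
  HoldsN.of_red (k := 16) (m := 16) (leaf ok2 (G664 _ rfl) (G305 _ rfl) (G351 _ rfl) (by decide +kernel))
theorem l13 : HoldsN X2 (Trg.right (Trg.left (chamberN 1 2))) (Trg.right (Trg.left (Trg.left (chamberN 1 2)))) :=
  HoldsN.of_red (k := 16) (m := 16) (leaf ok2 (G606 _ rfl) (G408 _ rfl) (G408 _ rfl) (by decide +kernel))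
theorem l14 : HoldsN X2 (Trg.left (Trg.left (Trg.right (Trg.left (chamberN 1 2))))) (Trg.left (Trg.right (Trg.left (chamberN 1 2)))) :=
  HoldsN.of_red (k := 16) (m := 16) (leaf ok2 (G659 _ rfl) (G392 _ rfl) (G349 _ rfl) (by decide +kernel))
theorem l15 : HoldsN X2 (Trg.right (Trg.left (Trg.right (Trg.left (chamberN 1 2))))) (Trg.left (Trg.left (Trg.left (Trg.right (Trg.left (chamberN 1 2)))))) :=
  HoldsN.of_red (k := 16) (m := 16) (leaf ok2 (G732 _ rfl) (G349 _ rfl) (G392 _ rfl) (by decide +kernel))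
theorem l16 : HoldsN X2 (Trg.left (Trg.left (Trg.right (Trg.left (Trg.right (Trg.left (chamberN 1 2))))))) (Trg.right (Trg.left (Trg.left (Trg.right (Trg.left (chamberN 1 2)))))) :=
  HoldsN.of_red (k := 16) (m := 16) (leaf ok2 (G684 _ rfl) (G432 _ rfl) (G421 _ rfl) (by decide +kernel))
theorem l17 : HoldsN X2 (Trg.right (Trg.left (Trg.right (Trg.left (Trg.right (Trg.left (chamberN 1 2))))))) (Trg.left (Trg.right (Trg.left (Trg.left (Trg.right (Trg.left (chamberN 1 2))))))) :=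
  HoldsN.of_red (k := 16) (m := 16) (leaf ok2 (G701 _ rfl) (G421 _ rfl) (G460 _ rfl) (by decide +kernel))
theorem l18 : HoldsN X2 (Trg.left (Trg.left (Trg.right (Trg.left (Trg.right (Trg.left (Trg.right (Trg.left (chamberN 1 2))))))))) (Trg.left (Trg.right (Trg.right (Trg.left (Trg.left (Trg.right (Trg.left (chamberN 1 2)))))))) :=
  HoldsN.of_red (k := 16) (m := 16) (leaf ok2 (G713 _ rfl) (G430 _ rfl) (G431 _ rfl) (by decide +kernel))
theorem l19 : HoldsN X2 (Trg.right (Trg.left (Trg.right (Trg.left (Trg.right (Trg.left (Trg.right (Trg.left (chamberN 1 2))))))))) (Trg.left (Trg.left (Trg.right (Trg.right (Trg.left (Trg.left (Trg.right (Trg.left (chamberN 1 2))))))))) :=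
  HoldsN.of_red (k := 16) (m := 16) (leaf ok2 (G728 _ rfl) (G430 _ rfl) (G458 _ rfl) (by decide +kernel))

end Vale.Agent.Lib.P154N.D4
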