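import Vale.Agent.Lib.P154N.D4.Data
import Vale.Agent.Lib.P154N.Red

/-!
# Leaves of the tree of triangles
-/

namespace Vale.Agent.Lib.P154N.D4

open Vale.Agent.Lib.P154K Vale.Agent.Lib.P154Neg

theorem l100 : HoldsN X2 (Trg.right (Trg.right (Trg.left (Trg.right (Trg.left (Trg.right (chamberN 1 2))))))) (Trg.left (Trg.left (Trg.left (Trg.right (Trg.right (chamberN 1 2)))))) :=
  HoldsN.of_red (k := 16) (m := 16) (leaf ok2 (G772 _ rfl) (G390 _ rfl) (G345 _ rfl) (by decide +kernel))
theorem l101 : HoldsN X2 (Trg.right (Trg.right (Trg.left (Trg.right (Trg.left (Trg.right (chamberN 1 2))))))) (Trg.left (Trg.right (Trg.left (Trg.left (Trg.right (Trg.right (chamberN 1 2))))))) :=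
  HoldsN.of_red (k := 16) (m := 16) (leaf ok2 (G835 _ rfl) (G308 _ rfl) (G343 _ rfl) (by decide +kernel))
theorem l102 : HoldsN X2 (Trg.right (Trg.right (Trg.left (Trg.right (Trg.left (Trg.right (chamberN 1 2))))))) (Trg.right (Trg.right (Trg.left (Trg.left (Trg.right (Trg.right (chamberN 1 2))))))) :=
  HoldsN.of_red (k := 16) (m := 16) (leaf ok2 (G772 _ rfl) (G369 _ rfl) (G345 _ rfl) (by decide +kernel))
theorem l103 : HoldsN X2 (Trg.left (Trg.right (Trg.left (Trg.right (chamberN 1 2))))) (Trg.right (Trg.left (Trg.right (Trg.right (chamberN 1 2))))) :=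
  HoldsN.of_red (k := 16) (m := 16) (leaf ok2 (G614 _ rfl) (G435 _ rfl) (G316 _ rfl) (by decide +kernel))
theorem l104 : HoldsN X2 (Trg.left (Trg.left (Trg.right (Trg.right (Trg.left (Trg.right (chamberN 1 2))))))) (Trg.left (Trg.left (Trg.left (Trg.right (Trg.right (chamberN 1 2)))))) :=
  HoldsN.of_red (k := 16) (m := 16) (leaf ok2 (G746 _ rfl) (G432 _ rfl) (G371 _ rfl) (by decide +kernel))
theorem l105 : HoldsN X2 (Trg.left (Trg.left (Trg.right (Trg.right (Trg.left (Trg.right (chamberN 1 2))))))) (Trg.left (Trg.right (Trg.left (Trg.left (Trg.right (Trg.right (chamberN 1 2))))))) :=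
  HoldsN.of_red (k := 16) (m := 16) (leaf ok2 (G806 _ rfl) (G369 _ rfl) (G369 _ rfl) (by decide +kernel))
theorem l106 : HoldsN X2 (Trg.left (Trg.left (Trg.right (Trg.right (Trg.left (Trg.right (chamberN 1 2))))))) (Trg.right (Trg.right (Trg.left (Trg.left (Trg.right (Trg.right (chamberN 1 2))))))) :=
  HoldsN.of_red (k := 16) (m := 16) (leaf ok2 (G746 _ rfl) (G418 _ rfl) (G371 _ rfl) (by decide +kernel))
theorem l107 : HoldsN X2 (Trg.right (Trg.left (Trg.right (Trg.right (Trg.left (Trg.right (chamberN 1 2))))))) (Trg.left (Trg.left (Trg.left (Trg.right (Trg.right (chamberN 1 2)))))) :=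
  HoldsN.of_red (k := 16) (m := 16) (leaf ok2 (G716 _ rfl) (G432 _ rfl) (G400 _ rfl) (by decide +kernel))
theorem l108 : HoldsN X2 (Trg.right (Trg.left (Trg.right (Trg.right (Trg.left (Trg.right (chamberN 1 2))))))) (Trg.left (Trg.right (Trg.left (Trg.left (Trg.right (Trg.right (chamberN 1 2))))))) :=
  HoldsN.of_red (k := 16) (m := 16) (leaf ok2 (G770 _ rfl) (G370 _ rfl) (G398 _ rfl) (by decide +kernel))
theorem l109 : HoldsN X2 (Trg.right (Trg.left (Trg.right (Trg.right (Trg.left (Trg.right (chamberN 1 2))))))) (Trg.right (Trg.right (Trg.left (Trg.left (Trg.right (Trg.right (chamberN 1 2))))))) :=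
  HoldsN.of_red (k := 16) (m := 16) (leaf ok2 (G716 _ rfl) (G419 _ rfl) (G400 _ rfl) (by decide +kernel))

end Vale.Agent.Lib.P154N.D4
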