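import Vale.Agent.Lib.P154N.D4.Data
import Vale.Agent.Lib.P154N.Red

/-!
# Leaves of the tree of triangles
-/

namespace Vale.Agent.Lib.P154N.D4

open Vale.Agent.Lib.P154K Vale.Agent.Lib.P154Neg

theorem l1000 : HoldsN X4 (Trg.left (Trg.right (Trg.left (Trg.right (Trg.left (Trg.right (chamber 1 1))))))) (Trg.right (Trg.left (Trg.left (Trg.left (Trg.left (Trg.right (chamberN 1 2))))))) :=
  HoldsN.of_red (k := 16) (m := 16) (leaf ok4 (G8 _ rfl) (G898 _ rfl) (G952 _ rfl) (by decide +kernel))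
theorem l1001 : HoldsN X4 (Trg.right (Trg.right (Trg.left (Trg.right (Trg.left (Trg.right (chamber 1 1))))))) (Trg.left (Trg.left (Trg.left (Trg.left (Trg.right (chamberN 1 2)))))) :=
  HoldsN.of_red (k := 16) (m := 16) (leaf ok4 (G13 _ rfl) (G842 _ rfl) (G940 _ rfl) (by decide +kernel))
theorem l1002 : HoldsN X4 (Trg.left (Trg.right (Trg.left (Trg.right (chamber 1 1))))) (Trg.right (Trg.left (Trg.left (Trg.left (Trg.right (chamberN 1 2)))))) :=
  HoldsN.of_red (k := 16) (m := 16) (leaf ok4 (G22 _ rfl) (G841 _ rfl) (G854 _ rfl) (by decide +kernel))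
theorem l1003 : HoldsN X4 (Trg.left (Trg.left (Trg.right (Trg.left (Trg.right (chamber 1 1)))))) (Trg.right (Trg.left (Trg.left (Trg.right (chamberN 1 2))))) :=
  HoldsN.of_red (k := 16) (m := 16) (leaf ok4 (G13 _ rfl) (G786 _ rfl) (G922 _ rfl) (by decide +kernel))
theorem l1004 : HoldsN X4 (Trg.left (Trg.right (Trg.left (Trg.right (Trg.left (Trg.right (chamber 1 1))))))) (Trg.right (Trg.left (Trg.left (Trg.right (chamberN 1 2))))) :=
  HoldsN.of_red (k := 16) (m := 16) (leaf ok4 (G9 _ rfl) (G802 _ rfl) (G955 _ rfl) (by decide +kernel))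
theorem l1005 : HoldsN X4 (Trg.right (Trg.right (Trg.left (Trg.right (Trg.left (Trg.right (chamber 1 1))))))) (Trg.right (Trg.left (Trg.left (Trg.right (chamberN 1 2))))) :=
  HoldsN.of_red (k := 16) (m := 16) (leaf ok4 (G13 _ rfl) (G785 _ rfl) (G940 _ rfl) (by decide +kernel))
theorem l1006 : HoldsN X4 (Trg.left (Trg.left (Trg.right (Trg.left (Trg.right (chamber 1 1)))))) (Trg.left (Trg.left (Trg.right (Trg.left (Trg.right (chamberN 1 2)))))) :=
  HoldsN.of_red (k := 16) (m := 16) (leaf ok4 (G5 _ rfl) (G909 _ rfl) (G909 _ rfl) (by decide +kernel))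
theorem l1007 : HoldsN X4 (Trg.left (Trg.left (Trg.left (Trg.left (Trg.left (Trg.right (Trg.left (Trg.right (chamber 1 1))))))))) (Trg.left (Trg.right (Trg.left (Trg.right (Trg.left (Trg.right (chamberN 1 2))))))) :=
  HoldsN.of_red (k := 16) (m := 16) (leaf ok4 (G3 _ rfl) (G965 _ rfl) (G947 _ rfl) (by decide +kernel))
theorem l1008 : HoldsN X4 (Trg.right (Trg.left (Trg.left (Trg.left (Trg.left (Trg.right (Trg.left (Trg.right (chamber 1 1))))))))) (Trg.left (Trg.right (Trg.left (Trg.right (Trg.left (Trg.right (chamberN 1 2))))))) :=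
  HoldsN.of_red (k := 16) (m := 16) (leaf ok4 top4 (G966 _ rfl) (G959 _ rfl) (by decide +kernel))
theorem l1009 : HoldsN X4 (Trg.right (Trg.left (Trg.left (Trg.left (Trg.right (Trg.left (Trg.right (chamber 1 1)))))))) (Trg.left (Trg.right (Trg.left (Trg.right (Trg.left (Trg.right (chamberN 1 2))))))) :=
  HoldsN.of_red (k := 16) (m := 16) (leaf ok4 (G4 _ rfl) (G951 _ rfl) (G947 _ rfl) (by decide +kernel))

end Vale.Agent.Lib.P154N.D4
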