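import Vale.Agent.Lib.P154N.D4.Data
import Vale.Agent.Lib.P154N.Red

/-!
# Leaves of the tree of triangles
-/

namespace Vale.Agent.Lib.P154N.D4

open Vale.Agent.Lib.P154K Vale.Agent.Lib.P154Neg

theorem l1020 : HoldsN X4 (Trg.right (Trg.right (Trg.left (Trg.right (Trg.left (Trg.right (Trg.left (Trg.right (chamber 1 1))))))))) (Trg.right (Trg.left (Trg.left (Trg.right (Trg.left (Trg.right (chamberN 1 2))))))) :=
  HoldsN.of_red (k := 16) (m := 16) (leaf ok4 (G1 _ rfl) (G936 _ rfl) (G969 _ rfl) (by decide +kernel))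
theorem l1021 : HoldsN X4 (Trg.left (Trg.right (Trg.left (Trg.right (Trg.left (Trg.right (chamber 1 1))))))) (Trg.left (Trg.right (Trg.left (Trg.right (Trg.left (Trg.right (chamberN 1 2))))))) :=
  HoldsN.of_red (k := 16) (m := 16) (leaf ok4 top4 (G966 _ rfl) (G966 _ rfl) (by decide +kernel))
theorem l1022 : HoldsN X4 (Trg.left (Trg.right (Trg.left (Trg.right (Trg.left (Trg.right (chamber 1 1))))))) (Trg.left (Trg.right (Trg.right (Trg.left (Trg.right (Trg.left (Trg.right (chamberN 1 2)))))))) :=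
  HoldsN.of_red (k := 16) (m := 16) (leaf ok4 (G0 _ rfl) (G960 _ rfl) (G951 _ rfl) (by decide +kernel))
theorem l1023 : HoldsN X4 (Trg.left (Trg.right (Trg.left (Trg.right (Trg.left (Trg.right (chamber 1 1))))))) (Trg.right (Trg.right (Trg.right (Trg.left (Trg.right (Trg.left (Trg.right (chamberN 1 2)))))))) :=
  HoldsN.of_red (k := 16) (m := 16) (leaf ok4 top4 (G963 _ rfl) (G966 _ rfl) (by decide +kernel))
theorem l1024 : HoldsN X4 (Trg.right (Trg.right (Trg.left (Trg.right (Trg.left (Trg.right (chamber 1 1))))))) (Trg.left (Trg.left (Trg.right (Trg.left (Trg.right (chamberN 1 2)))))) :=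
  HoldsN.of_red (k := 16) (m := 16) (leaf ok4 (G5 _ rfl) (G908 _ rfl) (G940 _ rfl) (by decide +kernel))
theorem l1025 : HoldsN X4 (Trg.left (Trg.right (Trg.right (Trg.left (Trg.right (Trg.left (Trg.right (chamber 1 1)))))))) (Trg.left (Trg.right (Trg.left (Trg.right (Trg.left (Trg.right (chamberN 1 2))))))) :=
  HoldsN.of_red (k := 16) (m := 16) (leaf ok4 (G0 _ rfl) (G951 _ rfl) (G960 _ rfl) (by decide +kernel))
theorem l1026 : HoldsN X4 (Trg.right (Trg.right (Trg.right (Trg.left (Trg.right (Trg.left (Trg.right (chamber 1 1)))))))) (Trg.left (Trg.right (Trg.left (Trg.right (Trg.left (Trg.right (chamberN 1 2))))))) :=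
  HoldsN.of_red (k := 16) (m := 16) (leaf ok4 top4 (G966 _ rfl) (G963 _ rfl) (by decide +kernel))
theorem l1027 : HoldsN X4 (Trg.right (Trg.right (Trg.left (Trg.right (Trg.left (Trg.right (chamber 1 1))))))) (Trg.right (Trg.right (Trg.left (Trg.right (Trg.left (Trg.right (chamberN 1 2))))))) :=
  HoldsN.of_red (k := 16) (m := 16) (leaf ok4 (G5 _ rfl) (G940 _ rfl) (G940 _ rfl) (by decide +kernel))
theorem l1028 : HoldsN X4 (Trg.left (Trg.left (Trg.right (Trg.left (Trg.right (chamber 1 1)))))) (Trg.left (Trg.right (Trg.right (Trg.left (Trg.right (chamberN 1 2)))))) :=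
  HoldsN.of_red (k := 16) (m := 16) (leaf ok4 (G17 _ rfl) (G883 _ rfl) (G853 _ rfl) (by decide +kernel))
theorem l1029 : HoldsN X4 (Trg.right (Trg.left (Trg.right (Trg.left (Trg.right (chamber 1 1)))))) (Trg.left (Trg.right (Trg.right (Trg.left (Trg.right (chamberN 1 2)))))) :=
  HoldsN.of_red (k := 16) (m := 16) (leaf ok4 (G12 _ rfl) (G883 _ rfl) (G883 _ rfl) (by decide +kernel))

end Vale.Agent.Lib.P154N.D4
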