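import Vale.Agent.Lib.P154N.D4.Data
import Vale.Agent.Lib.P154N.Red

/-!
# Leaves of the tree of triangles
-/

namespace Vale.Agent.Lib.P154N.D4

open Vale.Agent.Lib.P154K Vale.Agent.Lib.P154Neg

theorem l1030 : HoldsN X4 (Trg.left (Trg.right (Trg.left (Trg.right (chamber 1 1))))) (Trg.right (Trg.right (Trg.right (Trg.left (Trg.right (chamberN 1 2)))))) :=
  HoldsN.of_red (k := 16) (m := 16) (leaf ok4 (G9 _ rfl) (G890 _ rfl) (G911 _ rfl) (by decide +kernel))
theorem l1031 : HoldsN X4 (Trg.right (Trg.right (Trg.left (Trg.right (chamber 1 1))))) (Trg.left (Trg.left (Trg.right (chamberN 1 2)))) :=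
  HoldsN.of_red (k := 16) (m := 16) (leaf ok4 (G21 _ rfl) (G724 _ rfl) (G827 _ rfl) (by decide +kernel))
theorem l1032 : HoldsN X4 (Trg.right (Trg.right (Trg.left (Trg.right (chamber 1 1))))) (Trg.left (Trg.right (Trg.left (Trg.right (chamberN 1 2))))) :=
  HoldsN.of_red (k := 16) (m := 16) (leaf ok4 (G11 _ rfl) (G855 _ rfl) (G883 _ rfl) (by decide +kernel))
theorem l1033 : HoldsN X4 (Trg.right (Trg.right (Trg.left (Trg.right (chamber 1 1))))) (Trg.right (Trg.right (Trg.left (Trg.right (chamberN 1 2))))) :=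
  HoldsN.of_red (k := 16) (m := 16) (leaf ok4 (G21 _ rfl) (G827 _ rfl) (G827 _ rfl) (by decide +kernel))
theorem l1034 : HoldsN X4 (Trg.left (Trg.left (Trg.right (chamber 1 1)))) (Trg.left (Trg.left (Trg.right (Trg.right (chamberN 1 2))))) :=
  HoldsN.of_red (k := 16) (m := 16) (leaf ok4 (G63 _ rfl) (G667 _ rfl) (G662 _ rfl) (by decide +kernel))
theorem l1035 : HoldsN X4 (Trg.left (Trg.left (Trg.right (chamber 1 1)))) (Trg.right (Trg.left (Trg.right (Trg.right (chamberN 1 2))))) :=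
  HoldsN.of_red (k := 16) (m := 16) (leaf ok4 (G129 _ rfl) (G608 _ rfl) (G618 _ rfl) (by decide +kernel))
theorem l1036 : HoldsN X4 (Trg.left (Trg.right (Trg.left (Trg.right (chamber 1 1))))) (Trg.left (Trg.left (Trg.right (Trg.right (chamberN 1 2))))) :=
  HoldsN.of_red (k := 16) (m := 16) (leaf ok4 (G41 _ rfl) (G697 _ rfl) (G758 _ rfl) (by decide +kernel))
theorem l1037 : HoldsN X4 (Trg.left (Trg.right (Trg.left (Trg.right (chamber 1 1))))) (Trg.right (Trg.left (Trg.right (Trg.right (chamberN 1 2))))) :=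
  HoldsN.of_red (k := 16) (m := 16) (leaf ok4 (G107 _ rfl) (G608 _ rfl) (G623 _ rfl) (by decide +kernel))
theorem l1038 : HoldsN X4 (Trg.right (Trg.right (Trg.left (Trg.right (chamber 1 1))))) (Trg.left (Trg.left (Trg.right (Trg.right (chamberN 1 2))))) :=
  HoldsN.of_red (k := 16) (m := 16) (leaf ok4 (G63 _ rfl) (G667 _ rfl) (G720 _ rfl) (by decide +kernel))
theorem l1039 : HoldsN X4 (Trg.right (Trg.right (Trg.left (Trg.right (chamber 1 1))))) (Trg.right (Trg.left (Trg.right (Trg.right (chamberN 1 2))))) :=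
  HoldsN.of_red (k := 16) (m := 16) (leaf ok4 (G129 _ rfl) (G608 _ rfl) (G619 _ rfl) (by decide +kernel))

end Vale.Agent.Lib.P154N.D4
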