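import Vale.Agent.Lib.P154N.D4.Data
import Vale.Agent.Lib.P154N.Red

/-!
# Leaves of the tree of triangles
-/

namespace Vale.Agent.Lib.P154N.D4

open Vale.Agent.Lib.P154K Vale.Agent.Lib.P154Neg

theorem l1040 : HoldsN X4 (Trg.left (Trg.left (Trg.left (Trg.left (Trg.right (chamber 1 1)))))) (Trg.left (Trg.left (Trg.right (Trg.right (Trg.right (chamberN 1 2)))))) :=
  HoldsN.of_red (k := 16) (m := 16) (leaf ok4 (G50 _ rfl) (G707 _ rfl) (G812 _ rfl) (by decide +kernel))
theorem l1041 : HoldsN X4 (Trg.left (Trg.left (Trg.left (Trg.left (Trg.right (chamber 1 1)))))) (Trg.right (Trg.left (Trg.right (Trg.right (Trg.right (chamberN 1 2)))))) :=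
  HoldsN.of_red (k := 16) (m := 16) (leaf ok4 (G35 _ rfl) (G768 _ rfl) (G860 _ rfl) (by decide +kernel))
theorem l1042 : HoldsN X4 (Trg.left (Trg.left (Trg.left (Trg.left (Trg.right (chamber 1 1)))))) (Trg.right (Trg.right (Trg.right (Trg.right (chamberN 1 2))))) :=
  HoldsN.of_red (k := 16) (m := 16) (leaf ok4 (G50 _ rfl) (G710 _ rfl) (G779 _ rfl) (by decide +kernel))
theorem l1043 : HoldsN X4 (Trg.right (Trg.left (Trg.left (Trg.left (Trg.right (chamber 1 1)))))) (Trg.right (Trg.right (Trg.right (chamberN 1 2)))) :=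
  HoldsN.of_red (k := 16) (m := 16) (leaf ok4 (G62 _ rfl) (G663 _ rfl) (G783 _ rfl) (by decide +kernel))
theorem l1044 : HoldsN X4 (Trg.right (Trg.left (Trg.left (Trg.right (chamber 1 1))))) (Trg.left (Trg.left (Trg.right (Trg.right (Trg.right (chamberN 1 2)))))) :=
  HoldsN.of_red (k := 16) (m := 16) (leaf ok4 (G50 _ rfl) (G739 _ rfl) (G800 _ rfl) (by decide +kernel))
theorem l1045 : HoldsN X4 (Trg.right (Trg.left (Trg.left (Trg.right (chamber 1 1))))) (Trg.right (Trg.left (Trg.right (Trg.right (Trg.right (chamberN 1 2)))))) :=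
  HoldsN.of_red (k := 16) (m := 16) (leaf ok4 (G35 _ rfl) (G793 _ rfl) (G844 _ rfl) (by decide +kernel))
theorem l1046 : HoldsN X4 (Trg.left (Trg.right (Trg.left (Trg.left (Trg.right (chamber 1 1)))))) (Trg.right (Trg.right (Trg.right (Trg.right (chamberN 1 2))))) :=
  HoldsN.of_red (k := 16) (m := 16) (leaf ok4 (G61 _ rfl) (G740 _ rfl) (G721 _ rfl) (by decide +kernel))
theorem l1047 : HoldsN X4 (Trg.right (Trg.right (Trg.left (Trg.left (Trg.right (chamber 1 1)))))) (Trg.right (Trg.right (Trg.right (Trg.right (chamberN 1 2))))) :=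
  HoldsN.of_red (k := 16) (m := 16) (leaf ok4 (G50 _ rfl) (G740 _ rfl) (G779 _ rfl) (by decide +kernel))
theorem l1048 : HoldsN X4 (Trg.left (Trg.right (Trg.left (Trg.right (chamber 1 1))))) (Trg.left (Trg.left (Trg.right (Trg.right (Trg.right (chamberN 1 2)))))) :=
  HoldsN.of_red (k := 16) (m := 16) (leaf ok4 (G32 _ rfl) (G694 _ rfl) (G870 _ rfl) (by decide +kernel))
theorem l1049 : HoldsN X4 (Trg.left (Trg.right (Trg.left (Trg.right (chamber 1 1))))) (Trg.right (Trg.left (Trg.right (Trg.right (Trg.right (chamberN 1 2)))))) :=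
  HoldsN.of_red (k := 16) (m := 16) (leaf ok4 (G26 _ rfl) (G737 _ rfl) (G925 _ rfl) (by decide +kernel))

end Vale.Agent.Lib.P154N.D4
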