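import Vale.Agent.Lib.P154N.D4.Data
import Vale.Agent.Lib.P154N.Red

/-!
# Leaves of the tree of triangles
-/

namespace Vale.Agent.Lib.P154N.D4

open Vale.Agent.Lib.P154K Vale.Agent.Lib.P154Neg

theorem l1050 : HoldsN X4 (Trg.left (Trg.right (Trg.left (Trg.right (chamber 1 1))))) (Trg.right (Trg.right (Trg.right (Trg.right (chamberN 1 2))))) :=
  HoldsN.of_red (k := 16) (m := 16) (leaf ok4 (G32 _ rfl) (G697 _ rfl) (G854 _ rfl) (by decide +kernel))
theorem l1051 : HoldsN X4 (Trg.left (Trg.right (Trg.right (Trg.left (Trg.right (chamber 1 1)))))) (Trg.right (Trg.right (Trg.right (chamberN 1 2)))) :=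
  HoldsN.of_red (k := 16) (m := 16) (leaf ok4 (G51 _ rfl) (G663 _ rfl) (G827 _ rfl) (by decide +kernel))
theorem l1052 : HoldsN X4 (Trg.right (Trg.right (Trg.right (Trg.left (Trg.right (chamber 1 1)))))) (Trg.right (Trg.right (Trg.right (chamberN 1 2)))) :=
  HoldsN.of_red (k := 16) (m := 16) (leaf ok4 (G38 _ rfl) (G697 _ rfl) (G845 _ rfl) (by decide +kernel))
theorem l1053 : HoldsN X4 (Trg.left (Trg.left (Trg.right (Trg.right (chamber 1 1))))) (Trg.left (Trg.left (Trg.left (Trg.left (chamberN 1 2))))) :=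
  HoldsN.of_red (k := 16) (m := 16) (leaf ok4 (G215 _ rfl) (G445 _ rfl) (G706 _ rfl) (by decide +kernel))
theorem l1054 : HoldsN X4 (Trg.left (Trg.left (Trg.right (Trg.right (chamber 1 1))))) (Trg.right (Trg.left (Trg.left (Trg.left (chamberN 1 2))))) :=
  HoldsN.of_red (k := 16) (m := 16) (leaf ok4 (G106 _ rfl) (G605 _ rfl) (G710 _ rfl) (by decide +kernel))
theorem l1055 : HoldsN X4 (Trg.right (Trg.left (Trg.right (Trg.right (chamber 1 1))))) (Trg.left (Trg.left (Trg.left (chamberN 1 2)))) :=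
  HoldsN.of_red (k := 16) (m := 16) (leaf ok4 (G179 _ rfl) (G522 _ rfl) (G608 _ rfl) (by decide +kernel))
theorem l1056 : HoldsN X4 (Trg.left (Trg.left (Trg.right (Trg.right (chamber 1 1))))) (Trg.right (Trg.left (Trg.left (chamberN 1 2)))) :=
  HoldsN.of_red (k := 16) (m := 16) (leaf ok4 (G266 _ rfl) (G446 _ rfl) (G608 _ rfl) (by decide +kernel))
theorem l1057 : HoldsN X4 (Trg.left (Trg.right (Trg.left (Trg.right (Trg.right (chamber 1 1)))))) (Trg.right (Trg.left (Trg.left (chamberN 1 2)))) :=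
  HoldsN.of_red (k := 16) (m := 16) (leaf ok4 (G404 _ rfl) (G509 _ rfl) (G594 _ rfl) (by decide +kernel))
theorem l1058 : HoldsN X4 (Trg.right (Trg.right (Trg.left (Trg.right (Trg.right (chamber 1 1)))))) (Trg.right (Trg.left (Trg.left (chamberN 1 2)))) :=
  HoldsN.of_red (k := 16) (m := 16) (leaf ok4 (G350 _ rfl) (G514 _ rfl) (G598 _ rfl) (by decide +kernel))
theorem l1059 : HoldsN X4 (Trg.left (Trg.left (Trg.right (Trg.right (chamber 1 1))))) (Trg.left (Trg.right (Trg.left (chamberN 1 2)))) :=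
  HoldsN.of_red (k := 16) (m := 16) (leaf ok4 (G176 _ rfl) (G322 _ rfl) (G722 _ rfl) (by decide +kernel))

end Vale.Agent.Lib.P154N.D4
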