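import Vale.Agent.Lib.P154N.D4.Data
import Vale.Agent.Lib.P154N.Red

/-!
# Leaves of the tree of triangles
-/

namespace Vale.Agent.Lib.P154N.D4

open Vale.Agent.Lib.P154K Vale.Agent.Lib.P154Neg

theorem l1060 : HoldsN X4 (Trg.left (Trg.left (Trg.right (Trg.right (chamber 1 1))))) (Trg.left (Trg.right (Trg.right (Trg.left (chamberN 1 2))))) :=
  HoldsN.of_red (k := 16) (m := 16) (leaf ok4 (G105 _ rfl) (G521 _ rfl) (G778 _ rfl) (by decide +kernel))
theorem l1061 : HoldsN X4 (Trg.left (Trg.left (Trg.right (Trg.right (chamber 1 1))))) (Trg.right (Trg.right (Trg.right (Trg.left (chamberN 1 2))))) :=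
  HoldsN.of_red (k := 16) (m := 16) (leaf ok4 (G176 _ rfl) (G444 _ rfl) (G722 _ rfl) (by decide +kernel))
theorem l1062 : HoldsN X4 (Trg.right (Trg.left (Trg.right (Trg.right (chamber 1 1))))) (Trg.right (Trg.left (chamberN 1 2))) :=
  HoldsN.of_red (k := 16) (m := 16) (leaf ok4 (G179 _ rfl) (G450 _ rfl) (G614 _ rfl) (by decide +kernel))
theorem l1063 : HoldsN X4 (Trg.right (Trg.right (Trg.right (chamber 1 1)))) (Trg.left (Trg.left (Trg.left (Trg.left (chamberN 1 2))))) :=
  HoldsN.of_red (k := 16) (m := 16) (leaf ok4 (G122 _ rfl) (G449 _ rfl) (G706 _ rfl) (by decide +kernel))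
theorem l1064 : HoldsN X4 (Trg.left (Trg.left (Trg.right (Trg.right (Trg.right (chamber 1 1)))))) (Trg.right (Trg.left (Trg.left (Trg.left (chamberN 1 2))))) :=
  HoldsN.of_red (k := 16) (m := 16) (leaf ok4 (G77 _ rfl) (G691 _ rfl) (G709 _ rfl) (by decide +kernel))
theorem l1065 : HoldsN X4 (Trg.right (Trg.left (Trg.right (Trg.right (Trg.right (chamber 1 1)))))) (Trg.left (Trg.right (Trg.left (Trg.left (Trg.left (chamberN 1 2)))))) :=
  HoldsN.of_red (k := 16) (m := 16) (leaf ok4 (G55 _ rfl) (G695 _ rfl) (G809 _ rfl) (by decide +kernel))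
theorem l1066 : HoldsN X4 (Trg.right (Trg.left (Trg.right (Trg.right (Trg.right (chamber 1 1)))))) (Trg.right (Trg.right (Trg.left (Trg.left (Trg.left (chamberN 1 2)))))) :=
  HoldsN.of_red (k := 16) (m := 16) (leaf ok4 (G95 _ rfl) (G691 _ rfl) (G750 _ rfl) (by decide +kernel))
theorem l1067 : HoldsN X4 (Trg.right (Trg.right (Trg.right (Trg.right (chamber 1 1))))) (Trg.right (Trg.left (Trg.left (Trg.left (chamberN 1 2))))) :=
  HoldsN.of_red (k := 16) (m := 16) (leaf ok4 (G77 _ rfl) (G611 _ rfl) (G710 _ rfl) (by decide +kernel))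
theorem l1068 : HoldsN X4 (Trg.right (Trg.right (Trg.right (chamber 1 1)))) (Trg.right (Trg.left (Trg.left (chamberN 1 2)))) :=
  HoldsN.of_red (k := 16) (m := 16) (leaf ok4 (G179 _ rfl) (G450 _ rfl) (G614 _ rfl) (by decide +kernel))
theorem l1069 : HoldsN X4 (Trg.left (Trg.right (Trg.right (Trg.right (chamber 1 1))))) (Trg.left (Trg.right (Trg.left (chamberN 1 2)))) :=
  HoldsN.of_red (k := 16) (m := 16) (leaf ok4 (G89 _ rfl) (G385 _ rfl) (G763 _ rfl) (by decide +kernel))

end Vale.Agent.Lib.P154N.D4
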