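import Vale.Agent.Lib.P154N.D4.Data
import Vale.Agent.Lib.P154N.Red

/-!
# Leaves of the tree of triangles
-/

namespace Vale.Agent.Lib.P154N.D4

open Vale.Agent.Lib.P154K Vale.Agent.Lib.P154Neg

theorem l1070 : HoldsN X4 (Trg.right (Trg.right (Trg.right (Trg.right (chamber 1 1))))) (Trg.left (Trg.right (Trg.left (chamberN 1 2)))) :=
  HoldsN.of_red (k := 16) (m := 16) (leaf ok4 (G122 _ rfl) (G322 _ rfl) (G762 _ rfl) (by decide +kernel))
theorem l1071 : HoldsN X4 (Trg.right (Trg.right (Trg.right (chamber 1 1)))) (Trg.left (Trg.right (Trg.right (Trg.left (chamberN 1 2))))) :=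
  HoldsN.of_red (k := 16) (m := 16) (leaf ok4 (G58 _ rfl) (G530 _ rfl) (G780 _ rfl) (by decide +kernel))
theorem l1072 : HoldsN X4 (Trg.right (Trg.right (Trg.right (chamber 1 1)))) (Trg.right (Trg.right (Trg.right (Trg.left (chamberN 1 2))))) :=
  HoldsN.of_red (k := 16) (m := 16) (leaf ok4 (G89 _ rfl) (G448 _ rfl) (G760 _ rfl) (by decide +kernel))
theorem l1073 : HoldsN X4 (Trg.left (Trg.left (Trg.right (Trg.right (chamber 1 1))))) (Trg.left (Trg.right (chamberN 1 2))) :=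
  HoldsN.of_red (k := 16) (m := 16) (leaf ok4 (G42 _ rfl) (G667 _ rfl) (G667 _ rfl) (by decide +kernel))
theorem l1074 : HoldsN X4 (Trg.right (Trg.left (Trg.right (Trg.right (chamber 1 1))))) (Trg.left (Trg.right (chamberN 1 2))) :=
  HoldsN.of_red (k := 16) (m := 16) (leaf ok4 (G107 _ rfl) (G623 _ rfl) (G608 _ rfl) (by decide +kernel))
theorem l1075 : HoldsN X4 (Trg.right (Trg.right (Trg.right (chamber 1 1)))) (Trg.left (Trg.left (Trg.right (chamberN 1 2)))) :=
  HoldsN.of_red (k := 16) (m := 16) (leaf ok4 (G40 _ rfl) (G725 _ rfl) (G667 _ rfl) (by decide +kernel))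
theorem l1076 : HoldsN X4 (Trg.right (Trg.right (Trg.right (chamber 1 1)))) (Trg.left (Trg.right (Trg.left (Trg.right (chamberN 1 2))))) :=
  HoldsN.of_red (k := 16) (m := 16) (leaf ok4 (G28 _ rfl) (G855 _ rfl) (G697 _ rfl) (by decide +kernel))
theorem l1077 : HoldsN X4 (Trg.right (Trg.right (Trg.right (chamber 1 1)))) (Trg.right (Trg.right (Trg.left (Trg.right (chamberN 1 2))))) :=
  HoldsN.of_red (k := 16) (m := 16) (leaf ok4 (G40 _ rfl) (G827 _ rfl) (G667 _ rfl) (by decide +kernel))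
theorem l1078 : HoldsN X4 (Trg.left (Trg.left (Trg.right (Trg.right (chamber 1 1))))) (Trg.left (Trg.right (Trg.right (chamberN 1 2)))) :=
  HoldsN.of_red (k := 16) (m := 16) (leaf ok4 (G149 _ rfl) (G608 _ rfl) (G608 _ rfl) (by decide +kernel))
theorem l1079 : HoldsN X4 (Trg.right (Trg.left (Trg.right (Trg.right (chamber 1 1))))) (Trg.left (Trg.right (Trg.right (chamberN 1 2)))) :=
  HoldsN.of_red (k := 16) (m := 16) (leaf ok4 (G266 _ rfl) (G608 _ rfl) (G594 _ rfl) (by decide +kernel))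

end Vale.Agent.Lib.P154N.D4
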