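import Vale.Agent.Lib.P154N.D4.Data
import Vale.Agent.Lib.P154N.Red

/-!
# Leaves of the tree of triangles
-/

namespace Vale.Agent.Lib.P154N.D4

open Vale.Agent.Lib.P154K Vale.Agent.Lib.P154Neg

theorem l1080 : HoldsN X4 (Trg.left (Trg.right (Trg.right (chamber 1 1)))) (Trg.right (Trg.right (Trg.right (chamberN 1 2)))) :=
  HoldsN.of_red (k := 16) (m := 16) (leaf ok4 (G107 _ rfl) (G608 _ rfl) (G623 _ rfl) (by decide +kernel))
theorem l1081 : HoldsN X4 (Trg.right (Trg.right (Trg.right (chamber 1 1)))) (Trg.left (Trg.left (Trg.right (Trg.right (chamberN 1 2))))) :=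
  HoldsN.of_red (k := 16) (m := 16) (leaf ok4 (G106 _ rfl) (G667 _ rfl) (G638 _ rfl) (by decide +kernel))
theorem l1082 : HoldsN X4 (Trg.right (Trg.right (Trg.right (chamber 1 1)))) (Trg.right (Trg.left (Trg.right (Trg.right (chamberN 1 2))))) :=
  HoldsN.of_red (k := 16) (m := 16) (leaf ok4 (G179 _ rfl) (G608 _ rfl) (G608 _ rfl) (by decide +kernel))
theorem l1083 : HoldsN X4 (Trg.left (Trg.left (Trg.right (Trg.right (Trg.right (chamber 1 1)))))) (Trg.right (Trg.right (Trg.right (chamberN 1 2)))) :=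
  HoldsN.of_red (k := 16) (m := 16) (leaf ok4 (G77 _ rfl) (G706 _ rfl) (G665 _ rfl) (by decide +kernel))
theorem l1084 : HoldsN X4 (Trg.right (Trg.left (Trg.right (Trg.right (Trg.right (chamber 1 1)))))) (Trg.left (Trg.left (Trg.right (Trg.right (Trg.right (chamberN 1 2)))))) :=
  HoldsN.of_red (k := 16) (m := 16) (leaf ok4 (G75 _ rfl) (G739 _ rfl) (G749 _ rfl) (by decide +kernel))
theorem l1085 : HoldsN X4 (Trg.right (Trg.left (Trg.right (Trg.right (Trg.right (chamber 1 1)))))) (Trg.right (Trg.left (Trg.right (Trg.right (Trg.right (chamberN 1 2)))))) :=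
  HoldsN.of_red (k := 16) (m := 16) (leaf ok4 (G54 _ rfl) (G793 _ rfl) (G793 _ rfl) (by decide +kernel))
theorem l1086 : HoldsN X4 (Trg.right (Trg.left (Trg.right (Trg.right (Trg.right (chamber 1 1)))))) (Trg.right (Trg.right (Trg.right (Trg.right (chamberN 1 2))))) :=
  HoldsN.of_red (k := 16) (m := 16) (leaf ok4 (G75 _ rfl) (G740 _ rfl) (G691 _ rfl) (by decide +kernel))
theorem l1087 : HoldsN X4 (Trg.right (Trg.right (Trg.right (Trg.right (chamber 1 1))))) (Trg.right (Trg.right (Trg.right (chamberN 1 2)))) :=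
  HoldsN.of_red (k := 16) (m := 16) (leaf ok4 (G77 _ rfl) (G663 _ rfl) (G667 _ rfl) (by decide +kernel))
theorem l1088 : HoldsN X4 (Trg.left (Trg.left (Trg.left (Trg.left (chamber 1 1))))) (Trg.left (Trg.left (Trg.left (chamberNR 1 2)))) :=
  HoldsN.of_red (k := 16) (m := 16) (leaf ok4 (G220 _ rfl) (G669 _ rfl) (G313 _ rfl) (by decide +kernel))
theorem l1089 : HoldsN X4 (Trg.right (Trg.left (Trg.left (Trg.left (chamber 1 1))))) (Trg.left (Trg.left (Trg.left (Trg.left (chamberNR 1 2))))) :=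
  HoldsN.of_red (k := 16) (m := 16) (leaf ok4 (G218 _ rfl) (G762 _ rfl) (G313 _ rfl) (by decide +kernel))

end Vale.Agent.Lib.P154N.D4
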