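import Vale.Agent.Lib.P154N.D4.Data
import Vale.Agent.Lib.P154N.Red

/-!
# Leaves of the tree of triangles
-/

namespace Vale.Agent.Lib.P154N.D4

open Vale.Agent.Lib.P154K Vale.Agent.Lib.P154Neg

theorem l1090 : HoldsN X4 (Trg.right (Trg.left (Trg.left (Trg.left (chamber 1 1))))) (Trg.right (Trg.left (Trg.left (Trg.left (chamberNR 1 2))))) :=
  HoldsN.of_red (k := 16) (m := 16) (leaf ok4 (G88 _ rfl) (G797 _ rfl) (G373 _ rfl) (by decide +kernel))
theorem l1091 : HoldsN X4 (Trg.left (Trg.left (Trg.left (chamber 1 1)))) (Trg.right (Trg.left (Trg.left (chamberNR 1 2)))) :=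
  HoldsN.of_red (k := 16) (m := 16) (leaf ok4 (G242 _ rfl) (G620 _ rfl) (G316 _ rfl) (by decide +kernel))
theorem l1092 : HoldsN X4 (Trg.left (Trg.left (Trg.left (Trg.left (chamber 1 1))))) (Trg.right (Trg.left (chamberNR 1 2))) :=
  HoldsN.of_red (k := 16) (m := 16) (leaf ok4 (G221 _ rfl) (G669 _ rfl) (G215 _ rfl) (by decide +kernel))
theorem l1093 : HoldsN X4 (Trg.right (Trg.left (Trg.left (Trg.left (chamber 1 1))))) (Trg.left (Trg.right (Trg.left (chamberNR 1 2)))) :=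
  HoldsN.of_red (k := 16) (m := 16) (leaf ok4 (G195 _ rfl) (G764 _ rfl) (G146 _ rfl) (by decide +kernel))
theorem l1094 : HoldsN X4 (Trg.right (Trg.left (Trg.left (Trg.left (chamber 1 1))))) (Trg.left (Trg.right (Trg.right (Trg.left (chamberNR 1 2))))) :=
  HoldsN.of_red (k := 16) (m := 16) (leaf ok4 (G87 _ rfl) (G847 _ rfl) (G262 _ rfl) (by decide +kernel))
theorem l1095 : HoldsN X4 (Trg.right (Trg.left (Trg.left (Trg.left (chamber 1 1))))) (Trg.right (Trg.right (Trg.right (Trg.left (chamberNR 1 2))))) :=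
  HoldsN.of_red (k := 16) (m := 16) (leaf ok4 (G195 _ rfl) (G764 _ rfl) (G260 _ rfl) (by decide +kernel))
theorem l1096 : HoldsN X4 (Trg.right (Trg.left (Trg.left (chamber 1 1)))) (Trg.left (chamberNR 1 2)) :=
  HoldsN.of_red (k := 16) (m := 16) (leaf ok4 (G243 _ rfl) (G620 _ rfl) (G316 _ rfl) (by decide +kernel))
theorem l1097 : HoldsN X4 (Trg.left (Trg.right (Trg.left (chamber 1 1)))) (Trg.left (Trg.left (Trg.left (chamberNR 1 2)))) :=
  HoldsN.of_red (k := 16) (m := 16) (leaf ok4 (G198 _ rfl) (G671 _ rfl) (G146 _ rfl) (by decide +kernel))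
theorem l1098 : HoldsN X4 (Trg.left (Trg.right (Trg.right (Trg.left (chamber 1 1))))) (Trg.left (Trg.left (Trg.left (chamberNR 1 2)))) :=
  HoldsN.of_red (k := 16) (m := 16) (leaf ok4 (G90 _ rfl) (G788 _ rfl) (G262 _ rfl) (by decide +kernel))
theorem l1099 : HoldsN X4 (Trg.right (Trg.right (Trg.right (Trg.left (chamber 1 1))))) (Trg.left (Trg.left (Trg.left (chamberNR 1 2)))) :=
  HoldsN.of_red (k := 16) (m := 16) (leaf ok4 (G197 _ rfl) (G671 _ rfl) (G260 _ rfl) (by decide +kernel))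

end Vale.Agent.Lib.P154N.D4
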