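import Vale.Agent.Lib.P154N.D4.Data
import Vale.Agent.Lib.P154N.Red

/-!
# Leaves of the tree of triangles
-/

namespace Vale.Agent.Lib.P154N.D4

open Vale.Agent.Lib.P154K Vale.Agent.Lib.P154Neg

theorem l110 : HoldsN X2 (Trg.right (Trg.right (Trg.right (Trg.left (Trg.right (chamberN 1 2)))))) (Trg.left (Trg.left (Trg.left (Trg.right (Trg.right (chamberN 1 2)))))) :=
  HoldsN.of_red (k := 16) (m := 16) (leaf ok2 (G748 _ rfl) (G390 _ rfl) (G371 _ rfl) (by decide +kernel))
theorem l111 : HoldsN X2 (Trg.right (Trg.right (Trg.right (Trg.left (Trg.right (chamberN 1 2)))))) (Trg.left (Trg.right (Trg.left (Trg.left (Trg.right (Trg.right (chamberN 1 2))))))) :=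
  HoldsN.of_red (k := 16) (m := 16) (leaf ok2 (G808 _ rfl) (G308 _ rfl) (G369 _ rfl) (by decide +kernel))
theorem l112 : HoldsN X2 (Trg.right (Trg.right (Trg.right (Trg.left (Trg.right (chamberN 1 2)))))) (Trg.right (Trg.right (Trg.left (Trg.left (Trg.right (Trg.right (chamberN 1 2))))))) :=
  HoldsN.of_red (k := 16) (m := 16) (leaf ok2 (G748 _ rfl) (G369 _ rfl) (G371 _ rfl) (by decide +kernel))
theorem l113 : HoldsN X2 (Trg.right (Trg.right (Trg.left (Trg.right (chamberN 1 2))))) (Trg.right (Trg.left (Trg.right (Trg.right (chamberN 1 2))))) :=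
  HoldsN.of_red (k := 16) (m := 16) (leaf ok2 (G610 _ rfl) (G435 _ rfl) (G375 _ rfl) (by decide +kernel))
theorem l114 : HoldsN X2 (Trg.left (Trg.left (Trg.right (chamberN 1 2)))) (Trg.right (Trg.right (Trg.right (chamberN 1 2)))) :=
  HoldsN.of_red (k := 16) (m := 16) (leaf ok2 (G760 _ rfl) (G313 _ rfl) (G231 _ rfl) (by decide +kernel))
theorem l115 : HoldsN X2 (Trg.left (Trg.right (Trg.left (Trg.right (chamberN 1 2))))) (Trg.left (Trg.right (Trg.right (Trg.right (chamberN 1 2))))) :=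
  HoldsN.of_red (k := 16) (m := 16) (leaf ok2 (G815 _ rfl) (G348 _ rfl) (G143 _ rfl) (by decide +kernel))
theorem l116 : HoldsN X2 (Trg.left (Trg.right (Trg.left (Trg.right (chamberN 1 2))))) (Trg.right (Trg.right (Trg.right (Trg.right (chamberN 1 2))))) :=
  HoldsN.of_red (k := 16) (m := 16) (leaf ok2 (G813 _ rfl) (G312 _ rfl) (G210 _ rfl) (by decide +kernel))
theorem l117 : HoldsN X2 (Trg.right (Trg.right (Trg.left (Trg.right (chamberN 1 2))))) (Trg.right (Trg.right (Trg.right (chamberN 1 2)))) :=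
  HoldsN.of_red (k := 16) (m := 16) (leaf ok2 (G760 _ rfl) (G313 _ rfl) (G212 _ rfl) (by decide +kernel))
theorem l118 : HoldsN X2 (Trg.left (Trg.right (Trg.right (chamberN 1 2)))) (Trg.left (Trg.left (Trg.left (chamberN 1 2)))) :=
  HoldsN.of_red (k := 16) (m := 16) (leaf ok2 (G614 _ rfl) (G467 _ rfl) (G316 _ rfl) (by decide +kernel))
theorem l119 : HoldsN X2 (Trg.left (Trg.left (Trg.right (Trg.right (chamberN 1 2))))) (Trg.right (Trg.left (Trg.left (chamberN 1 2)))) :=
  HoldsN.of_red (k := 16) (m := 16) (leaf ok2 (G598 _ rfl) (G509 _ rfl) (G435 _ rfl) (by decide +kernel))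

end Vale.Agent.Lib.P154N.D4
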