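import Vale.Agent.Lib.P154N.D4.Data
import Vale.Agent.Lib.P154N.Red

/-!
# Leaves of the tree of triangles
-/

namespace Vale.Agent.Lib.P154N.D4

open Vale.Agent.Lib.P154K Vale.Agent.Lib.P154Neg

theorem l1100 : HoldsN X4 (Trg.right (Trg.left (chamber 1 1))) (Trg.right (Trg.left (Trg.left (chamberNR 1 2)))) :=
  HoldsN.of_red (k := 16) (m := 16) (leaf ok4 (G243 _ rfl) (G620 _ rfl) (G316 _ rfl) (by decide +kernel))
theorem l1101 : HoldsN X4 (Trg.left (Trg.right (Trg.left (chamber 1 1)))) (Trg.right (Trg.left (chamberNR 1 2))) :=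
  HoldsN.of_red (k := 16) (m := 16) (leaf ok4 (G199 _ rfl) (G671 _ rfl) (G146 _ rfl) (by decide +kernel))
theorem l1102 : HoldsN X4 (Trg.left (Trg.right (Trg.right (Trg.left (chamber 1 1))))) (Trg.right (Trg.left (chamberNR 1 2))) :=
  HoldsN.of_red (k := 16) (m := 16) (leaf ok4 (G91 _ rfl) (G788 _ rfl) (G146 _ rfl) (by decide +kernel))
theorem l1103 : HoldsN X4 (Trg.right (Trg.right (Trg.right (Trg.left (chamber 1 1))))) (Trg.right (Trg.left (chamberNR 1 2))) :=
  HoldsN.of_red (k := 16) (m := 16) (leaf ok4 (G198 _ rfl) (G671 _ rfl) (G146 _ rfl) (by decide +kernel))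
theorem l1104 : HoldsN X4 (Trg.left (Trg.left (Trg.left (Trg.left (chamber 1 1))))) (Trg.left (Trg.right (chamberNR 1 2))) :=
  HoldsN.of_red (k := 16) (m := 16) (leaf ok4 (G81 _ rfl) (G827 _ rfl) (G325 _ rfl) (by decide +kernel))
theorem l1105 : HoldsN X4 (Trg.right (Trg.left (Trg.left (Trg.left (chamber 1 1))))) (Trg.left (Trg.left (Trg.right (chamberNR 1 2)))) :=
  HoldsN.of_red (k := 16) (m := 16) (leaf ok4 (G47 _ rfl) (G831 _ rfl) (G383 _ rfl) (by decide +kernel))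
theorem l1106 : HoldsN X4 (Trg.right (Trg.left (Trg.left (Trg.left (chamber 1 1))))) (Trg.left (Trg.right (Trg.left (Trg.right (chamberNR 1 2))))) :=
  HoldsN.of_red (k := 16) (m := 16) (leaf ok4 (G28 _ rfl) (G887 _ rfl) (G486 _ rfl) (by decide +kernel))
theorem l1107 : HoldsN X4 (Trg.right (Trg.left (Trg.left (Trg.left (chamber 1 1))))) (Trg.right (Trg.right (Trg.left (Trg.right (chamberNR 1 2))))) :=
  HoldsN.of_red (k := 16) (m := 16) (leaf ok4 (G47 _ rfl) (G831 _ rfl) (G484 _ rfl) (by decide +kernel))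
theorem l1108 : HoldsN X4 (Trg.right (Trg.left (Trg.left (chamber 1 1)))) (Trg.left (Trg.right (chamberNR 1 2))) :=
  HoldsN.of_red (k := 16) (m := 16) (leaf ok4 (G107 _ rfl) (G623 _ rfl) (G326 _ rfl) (by decide +kernel))
theorem l1109 : HoldsN X4 (Trg.left (Trg.left (Trg.left (Trg.right (Trg.left (chamber 1 1)))))) (Trg.left (Trg.left (Trg.left (Trg.right (chamberNR 1 2))))) :=
  HoldsN.of_red (k := 16) (m := 16) (leaf ok4 (G101 _ rfl) (G885 _ rfl) (G215 _ rfl) (by decide +kernel))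

end Vale.Agent.Lib.P154N.D4
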