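import Vale.Agent.Lib.P154N.D4.Data
import Vale.Agent.Lib.P154N.Red

/-!
# Leaves of the tree of triangles
-/

namespace Vale.Agent.Lib.P154N.D4

open Vale.Agent.Lib.P154K Vale.Agent.Lib.P154Neg

theorem l1110 : HoldsN X4 (Trg.left (Trg.left (Trg.left (Trg.right (Trg.left (chamber 1 1)))))) (Trg.right (Trg.left (Trg.left (Trg.right (chamberNR 1 2))))) :=
  HoldsN.of_red (k := 16) (m := 16) (leaf ok4 (G102 _ rfl) (G892 _ rfl) (G209 _ rfl) (by decide +kernel))
theorem l1111 : HoldsN X4 (Trg.right (Trg.left (Trg.left (Trg.right (Trg.left (chamber 1 1)))))) (Trg.left (Trg.left (Trg.right (chamberNR 1 2)))) :=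
  HoldsN.of_red (k := 16) (m := 16) (leaf ok4 (G194 _ rfl) (G824 _ rfl) (G214 _ rfl) (by decide +kernel))
theorem l1112 : HoldsN X4 (Trg.right (Trg.left (Trg.right (Trg.left (chamber 1 1))))) (Trg.left (Trg.left (Trg.left (Trg.left (Trg.right (chamberNR 1 2)))))) :=
  HoldsN.of_red (k := 16) (m := 16) (leaf ok4 (G101 _ rfl) (G892 _ rfl) (G145 _ rfl) (by decide +kernel))
theorem l1113 : HoldsN X4 (Trg.left (Trg.right (Trg.left (Trg.right (Trg.left (chamber 1 1)))))) (Trg.right (Trg.left (Trg.left (Trg.left (Trg.right (chamberNR 1 2)))))) :=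
  HoldsN.of_red (k := 16) (m := 16) (leaf ok4 (G184 _ rfl) (G879 _ rfl) (G210 _ rfl) (by decide +kernel))
theorem l1114 : HoldsN X4 (Trg.right (Trg.right (Trg.left (Trg.right (Trg.left (chamber 1 1)))))) (Trg.right (Trg.left (Trg.left (Trg.left (Trg.right (chamberNR 1 2)))))) :=
  HoldsN.of_red (k := 16) (m := 16) (leaf ok4 (G125 _ rfl) (G880 _ rfl) (G292 _ rfl) (by decide +kernel))
theorem l1115 : HoldsN X4 (Trg.right (Trg.left (Trg.right (Trg.left (chamber 1 1))))) (Trg.right (Trg.left (Trg.left (Trg.right (chamberNR 1 2))))) :=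
  HoldsN.of_red (k := 16) (m := 16) (leaf ok4 (G102 _ rfl) (G892 _ rfl) (G142 _ rfl) (by decide +kernel))
theorem l1116 : HoldsN X4 (Trg.left (Trg.right (Trg.left (chamber 1 1)))) (Trg.left (Trg.right (Trg.left (Trg.right (chamberNR 1 2))))) :=
  HoldsN.of_red (k := 16) (m := 16) (leaf ok4 (G60 _ rfl) (G887 _ rfl) (G147 _ rfl) (by decide +kernel))
theorem l1117 : HoldsN X4 (Trg.left (Trg.left (Trg.left (Trg.right (Trg.left (chamber 1 1)))))) (Trg.right (Trg.right (Trg.left (Trg.right (chamberNR 1 2))))) :=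
  HoldsN.of_red (k := 16) (m := 16) (leaf ok4 (G99 _ rfl) (G885 _ rfl) (G215 _ rfl) (by decide +kernel))
theorem l1118 : HoldsN X4 (Trg.right (Trg.left (Trg.left (Trg.right (Trg.left (chamber 1 1)))))) (Trg.right (Trg.right (Trg.left (Trg.right (chamberNR 1 2))))) :=
  HoldsN.of_red (k := 16) (m := 16) (leaf ok4 (G185 _ rfl) (G824 _ rfl) (G214 _ rfl) (by decide +kernel))
theorem l1119 : HoldsN X4 (Trg.left (Trg.right (Trg.left (Trg.right (Trg.left (chamber 1 1)))))) (Trg.left (Trg.left (Trg.right (Trg.right (Trg.left (Trg.right (chamberNR 1 2))))))) :=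
  HoldsN.of_red (k := 16) (m := 16) (leaf ok4 (G132 _ rfl) (G906 _ rfl) (G209 _ rfl) (by decide +kernel))

end Vale.Agent.Lib.P154N.D4
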