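import Vale.Agent.Lib.P154N.D4.Data
import Vale.Agent.Lib.P154N.Red

/-!
# Leaves of the tree of triangles
-/

namespace Vale.Agent.Lib.P154N.D4

open Vale.Agent.Lib.P154K Vale.Agent.Lib.P154Neg

theorem l1130 : HoldsN X4 (Trg.left (Trg.right (Trg.right (Trg.left (chamber 1 1))))) (Trg.left (Trg.left (Trg.left (Trg.left (Trg.right (chamberNR 1 2)))))) :=
  HoldsN.of_red (k := 16) (m := 16) (leaf ok4 (G45 _ rfl) (G910 _ rfl) (G355 _ rfl) (by decide +kernel))
theorem l1131 : HoldsN X4 (Trg.left (Trg.right (Trg.right (Trg.left (chamber 1 1))))) (Trg.right (Trg.left (Trg.left (Trg.left (Trg.right (chamberNR 1 2)))))) :=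
  HoldsN.of_red (k := 16) (m := 16) (leaf ok4 (G66 _ rfl) (G881 _ rfl) (G383 _ rfl) (by decide +kernel))
theorem l1132 : HoldsN X4 (Trg.left (Trg.right (Trg.right (Trg.left (chamber 1 1))))) (Trg.right (Trg.left (Trg.left (Trg.right (chamberNR 1 2))))) :=
  HoldsN.of_red (k := 16) (m := 16) (leaf ok4 (G45 _ rfl) (G910 _ rfl) (G269 _ rfl) (by decide +kernel))
theorem l1133 : HoldsN X4 (Trg.left (Trg.right (Trg.right (Trg.left (chamber 1 1))))) (Trg.left (Trg.right (Trg.left (Trg.right (chamberNR 1 2))))) :=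
  HoldsN.of_red (k := 16) (m := 16) (leaf ok4 (G27 _ rfl) (G943 _ rfl) (G359 _ rfl) (by decide +kernel))
theorem l1134 : HoldsN X4 (Trg.left (Trg.left (Trg.right (Trg.right (Trg.left (chamber 1 1)))))) (Trg.left (Trg.right (Trg.right (Trg.left (Trg.right (chamberNR 1 2)))))) :=
  HoldsN.of_red (k := 16) (m := 16) (leaf ok4 (G66 _ rfl) (G883 _ rfl) (G426 _ rfl) (by decide +kernel))
theorem l1135 : HoldsN X4 (Trg.left (Trg.right (Trg.left (Trg.right (Trg.right (Trg.left (chamber 1 1))))))) (Trg.left (Trg.right (Trg.right (Trg.left (Trg.right (chamberNR 1 2)))))) :=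
  HoldsN.of_red (k := 16) (m := 16) (leaf ok4 (G48 _ rfl) (G900 _ rfl) (G561 _ rfl) (by decide +kernel))
theorem l1136 : HoldsN X4 (Trg.right (Trg.right (Trg.left (Trg.right (Trg.right (Trg.left (chamber 1 1))))))) (Trg.left (Trg.right (Trg.right (Trg.left (Trg.right (chamberNR 1 2)))))) :=
  HoldsN.of_red (k := 16) (m := 16) (leaf ok4 (G66 _ rfl) (G883 _ rfl) (G540 _ rfl) (by decide +kernel))
theorem l1137 : HoldsN X4 (Trg.left (Trg.right (Trg.right (Trg.left (chamber 1 1))))) (Trg.right (Trg.right (Trg.right (Trg.left (Trg.right (chamberNR 1 2)))))) :=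
  HoldsN.of_red (k := 16) (m := 16) (leaf ok4 (G44 _ rfl) (G923 _ rfl) (G358 _ rfl) (by decide +kernel))
theorem l1138 : HoldsN X4 (Trg.right (Trg.right (Trg.right (Trg.left (chamber 1 1))))) (Trg.left (Trg.left (Trg.right (chamberNR 1 2)))) :=
  HoldsN.of_red (k := 16) (m := 16) (leaf ok4 (G103 _ rfl) (G830 _ rfl) (G265 _ rfl) (by decide +kernel))
theorem l1139 : HoldsN X4 (Trg.right (Trg.right (Trg.right (Trg.left (chamber 1 1))))) (Trg.left (Trg.right (Trg.left (Trg.right (chamberNR 1 2))))) :=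
  HoldsN.of_red (k := 16) (m := 16) (leaf ok4 (G60 _ rfl) (G887 _ rfl) (G315 _ rfl) (by decide +kernel))

end Vale.Agent.Lib.P154N.D4
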