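import Vale.Agent.Lib.P154N.D4.Data
import Vale.Agent.Lib.P154N.Red

/-!
# Leaves of the tree of triangles
-/

namespace Vale.Agent.Lib.P154N.D4

open Vale.Agent.Lib.P154K Vale.Agent.Lib.P154Neg

theorem l1140 : HoldsN X4 (Trg.right (Trg.right (Trg.right (Trg.left (chamber 1 1))))) (Trg.right (Trg.right (Trg.left (Trg.right (chamberNR 1 2))))) :=
  HoldsN.of_red (k := 16) (m := 16) (leaf ok4 (G100 _ rfl) (G830 _ rfl) (G315 _ rfl) (by decide +kernel))
theorem l1141 : HoldsN X4 (Trg.left (Trg.left (Trg.left (Trg.left (chamber 1 1))))) (Trg.left (Trg.left (Trg.right (Trg.right (chamberNR 1 2))))) :=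
  HoldsN.of_red (k := 16) (m := 16) (leaf ok4 (G216 _ rfl) (G720 _ rfl) (G440 _ rfl) (by decide +kernel))
theorem l1142 : HoldsN X4 (Trg.left (Trg.left (Trg.left (Trg.left (chamber 1 1))))) (Trg.right (Trg.left (Trg.right (Trg.right (chamberNR 1 2))))) :=
  HoldsN.of_red (k := 16) (m := 16) (leaf ok4 (G375 _ rfl) (G612 _ rfl) (G438 _ rfl) (by decide +kernel))
theorem l1143 : HoldsN X4 (Trg.right (Trg.left (Trg.left (Trg.left (chamber 1 1))))) (Trg.left (Trg.left (Trg.right (Trg.right (chamberNR 1 2))))) :=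
  HoldsN.of_red (k := 16) (m := 16) (leaf ok4 (G106 _ rfl) (G722 _ rfl) (G483 _ rfl) (by decide +kernel))
theorem l1144 : HoldsN X4 (Trg.right (Trg.left (Trg.left (Trg.left (chamber 1 1))))) (Trg.right (Trg.left (Trg.right (Trg.right (chamberNR 1 2))))) :=
  HoldsN.of_red (k := 16) (m := 16) (leaf ok4 (G241 _ rfl) (G620 _ rfl) (G479 _ rfl) (by decide +kernel))
theorem l1145 : HoldsN X4 (Trg.left (Trg.left (Trg.left (Trg.left (chamber 1 1))))) (Trg.right (Trg.right (Trg.right (chamberNR 1 2)))) :=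
  HoldsN.of_red (k := 16) (m := 16) (leaf ok4 (G216 _ rfl) (G762 _ rfl) (G320 _ rfl) (by decide +kernel))
theorem l1146 : HoldsN X4 (Trg.right (Trg.left (Trg.left (Trg.left (chamber 1 1))))) (Trg.right (Trg.right (Trg.right (chamberNR 1 2)))) :=
  HoldsN.of_red (k := 16) (m := 16) (leaf ok4 (G88 _ rfl) (G797 _ rfl) (G383 _ rfl) (by decide +kernel))
theorem l1147 : HoldsN X4 (Trg.right (Trg.left (Trg.left (chamber 1 1)))) (Trg.left (Trg.right (Trg.right (chamberNR 1 2)))) :=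
  HoldsN.of_red (k := 16) (m := 16) (leaf ok4 (G266 _ rfl) (G608 _ rfl) (G441 _ rfl) (by decide +kernel))
theorem l1148 : HoldsN X4 (Trg.right (Trg.left (Trg.left (chamber 1 1)))) (Trg.right (Trg.right (Trg.right (chamberNR 1 2)))) :=
  HoldsN.of_red (k := 16) (m := 16) (leaf ok4 (G241 _ rfl) (G620 _ rfl) (G321 _ rfl) (by decide +kernel))
theorem l1149 : HoldsN X4 (Trg.left (Trg.left (Trg.left (Trg.left (Trg.right (Trg.left (chamber 1 1))))))) (Trg.left (Trg.left (Trg.right (Trg.right (chamberNR 1 2))))) :=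
  HoldsN.of_red (k := 16) (m := 16) (leaf ok4 (G263 _ rfl) (G774 _ rfl) (G372 _ rfl) (by decide +kernel))

end Vale.Agent.Lib.P154N.D4
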