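import Vale.Agent.Lib.P154N.D4.Data
import Vale.Agent.Lib.P154N.Red

/-!
# Leaves of the tree of triangles
-/

namespace Vale.Agent.Lib.P154N.D4

open Vale.Agent.Lib.P154K Vale.Agent.Lib.P154Neg

theorem l1150 : HoldsN X4 (Trg.right (Trg.left (Trg.left (Trg.left (Trg.right (Trg.left (chamber 1 1))))))) (Trg.left (Trg.left (Trg.right (Trg.right (chamberNR 1 2))))) :=
  HoldsN.of_red (k := 16) (m := 16) (leaf ok4 (G174 _ rfl) (G778 _ rfl) (G391 _ rfl) (by decide +kernel))
theorem l1151 : HoldsN X4 (Trg.right (Trg.left (Trg.left (Trg.right (Trg.left (chamber 1 1)))))) (Trg.left (Trg.left (Trg.left (Trg.right (Trg.right (chamberNR 1 2)))))) :=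
  HoldsN.of_red (k := 16) (m := 16) (leaf ok4 (G365 _ rfl) (G719 _ rfl) (G372 _ rfl) (by decide +kernel))
theorem l1152 : HoldsN X4 (Trg.right (Trg.left (Trg.left (Trg.right (Trg.left (chamber 1 1)))))) (Trg.left (Trg.right (Trg.left (Trg.left (Trg.right (Trg.right (chamberNR 1 2))))))) :=
  HoldsN.of_red (k := 16) (m := 16) (leaf ok4 (G291 _ rfl) (G772 _ rfl) (G371 _ rfl) (by decide +kernel))
theorem l1153 : HoldsN X4 (Trg.right (Trg.left (Trg.left (Trg.right (Trg.left (chamber 1 1)))))) (Trg.right (Trg.right (Trg.left (Trg.left (Trg.right (Trg.right (chamberNR 1 2))))))) :=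
  HoldsN.of_red (k := 16) (m := 16) (leaf ok4 (G347 _ rfl) (G719 _ rfl) (G372 _ rfl) (by decide +kernel))
theorem l1154 : HoldsN X4 (Trg.left (Trg.right (Trg.left (Trg.right (Trg.left (chamber 1 1)))))) (Trg.left (Trg.left (Trg.right (Trg.right (chamberNR 1 2))))) :=
  HoldsN.of_red (k := 16) (m := 16) (leaf ok4 (G240 _ rfl) (G778 _ rfl) (G310 _ rfl) (by decide +kernel))
theorem l1155 : HoldsN X4 (Trg.left (Trg.right (Trg.right (Trg.left (Trg.right (Trg.left (chamber 1 1))))))) (Trg.left (Trg.left (Trg.right (Trg.right (chamberNR 1 2))))) :=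
  HoldsN.of_red (k := 16) (m := 16) (leaf ok4 (G173 _ rfl) (G799 _ rfl) (G365 _ rfl) (by decide +kernel))
theorem l1156 : HoldsN X4 (Trg.right (Trg.right (Trg.right (Trg.left (Trg.right (Trg.left (chamber 1 1))))))) (Trg.left (Trg.left (Trg.right (Trg.right (chamberNR 1 2))))) :=
  HoldsN.of_red (k := 16) (m := 16) (leaf ok4 (G240 _ rfl) (G778 _ rfl) (G363 _ rfl) (by decide +kernel))
theorem l1157 : HoldsN X4 (Trg.left (Trg.right (Trg.left (chamber 1 1)))) (Trg.right (Trg.left (Trg.right (Trg.right (chamberNR 1 2))))) :=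
  HoldsN.of_red (k := 16) (m := 16) (leaf ok4 (G350 _ rfl) (G618 _ rfl) (G316 _ rfl) (by decide +kernel))
theorem l1158 : HoldsN X4 (Trg.left (Trg.left (Trg.right (Trg.right (Trg.left (chamber 1 1)))))) (Trg.left (Trg.left (Trg.right (Trg.right (chamberNR 1 2))))) :=
  HoldsN.of_red (k := 16) (m := 16) (leaf ok4 (G128 _ rfl) (G778 _ rfl) (G407 _ rfl) (by decide +kernel))
theorem l1159 : HoldsN X4 (Trg.right (Trg.left (Trg.right (Trg.right (Trg.left (chamber 1 1)))))) (Trg.left (Trg.left (Trg.right (Trg.right (chamberNR 1 2))))) :=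
  HoldsN.of_red (k := 16) (m := 16) (leaf ok4 (G105 _ rfl) (G778 _ rfl) (G468 _ rfl) (by decide +kernel))

end Vale.Agent.Lib.P154N.D4
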