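import Vale.Agent.Lib.P154N.D4.Data
import Vale.Agent.Lib.P154N.Red

/-!
# Leaves of the tree of triangles
-/

namespace Vale.Agent.Lib.P154N.D4

open Vale.Agent.Lib.P154K Vale.Agent.Lib.P154Neg

theorem l1160 : HoldsN X4 (Trg.left (Trg.right (Trg.right (Trg.left (chamber 1 1))))) (Trg.right (Trg.left (Trg.right (Trg.right (chamberNR 1 2))))) :=
  HoldsN.of_red (k := 16) (m := 16) (leaf ok4 (G241 _ rfl) (G620 _ rfl) (G410 _ rfl) (by decide +kernel))
theorem l1161 : HoldsN X4 (Trg.left (Trg.right (Trg.right (Trg.right (Trg.left (chamber 1 1)))))) (Trg.left (Trg.left (Trg.right (Trg.right (chamberNR 1 2))))) :=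
  HoldsN.of_red (k := 16) (m := 16) (leaf ok4 (G216 _ rfl) (G720 _ rfl) (G423 _ rfl) (by decide +kernel))
theorem l1162 : HoldsN X4 (Trg.right (Trg.right (Trg.right (Trg.right (Trg.left (chamber 1 1)))))) (Trg.left (Trg.left (Trg.right (Trg.right (chamberNR 1 2))))) :=
  HoldsN.of_red (k := 16) (m := 16) (leaf ok4 (G174 _ rfl) (G778 _ rfl) (G403 _ rfl) (by decide +kernel))
theorem l1163 : HoldsN X4 (Trg.right (Trg.right (Trg.right (Trg.left (chamber 1 1))))) (Trg.right (Trg.left (Trg.right (Trg.right (chamberNR 1 2))))) :=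
  HoldsN.of_red (k := 16) (m := 16) (leaf ok4 (G350 _ rfl) (G618 _ rfl) (G404 _ rfl) (by decide +kernel))
theorem l1164 : HoldsN X4 (Trg.left (Trg.left (Trg.left (Trg.right (Trg.left (chamber 1 1)))))) (Trg.right (Trg.right (Trg.right (chamberNR 1 2)))) :=
  HoldsN.of_red (k := 16) (m := 16) (leaf ok4 (G177 _ rfl) (G817 _ rfl) (G215 _ rfl) (by decide +kernel))
theorem l1165 : HoldsN X4 (Trg.right (Trg.left (Trg.left (Trg.right (Trg.left (chamber 1 1)))))) (Trg.right (Trg.right (Trg.right (chamberNR 1 2)))) :=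
  HoldsN.of_red (k := 16) (m := 16) (leaf ok4 (G293 _ rfl) (G759 _ rfl) (G214 _ rfl) (by decide +kernel))
theorem l1166 : HoldsN X4 (Trg.right (Trg.left (Trg.right (Trg.left (chamber 1 1))))) (Trg.left (Trg.right (Trg.right (Trg.right (chamberNR 1 2))))) :=
  HoldsN.of_red (k := 16) (m := 16) (leaf ok4 (G186 _ rfl) (G817 _ rfl) (G144 _ rfl) (by decide +kernel))
theorem l1167 : HoldsN X4 (Trg.right (Trg.left (Trg.right (Trg.left (chamber 1 1))))) (Trg.right (Trg.right (Trg.right (Trg.right (chamberNR 1 2))))) :=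
  HoldsN.of_red (k := 16) (m := 16) (leaf ok4 (G177 _ rfl) (G814 _ rfl) (G215 _ rfl) (by decide +kernel))
theorem l1168 : HoldsN X4 (Trg.left (Trg.right (Trg.right (Trg.left (chamber 1 1))))) (Trg.right (Trg.right (Trg.right (chamberNR 1 2)))) :=
  HoldsN.of_red (k := 16) (m := 16) (leaf ok4 (G87 _ rfl) (G847 _ rfl) (G270 _ rfl) (by decide +kernel))
theorem l1169 : HoldsN X4 (Trg.right (Trg.right (Trg.right (Trg.left (chamber 1 1))))) (Trg.right (Trg.right (Trg.right (chamberNR 1 2)))) :=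
  HoldsN.of_red (k := 16) (m := 16) (leaf ok4 (G178 _ rfl) (G764 _ rfl) (G265 _ rfl) (by decide +kernel))

end Vale.Agent.Lib.P154N.D4
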