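import Vale.Agent.Lib.P154N.D4.Data
import Vale.Agent.Lib.P154N.Red

/-!
# Leaves of the tree of triangles
-/

namespace Vale.Agent.Lib.P154N.D4

open Vale.Agent.Lib.P154K Vale.Agent.Lib.P154Neg

theorem l1170 : HoldsN X4 (Trg.left (Trg.left (Trg.right (chamber 1 1)))) (Trg.left (Trg.left (Trg.left (Trg.left (chamberNR 1 2))))) :=
  HoldsN.of_red (k := 16) (m := 16) (leaf ok4 (G123 _ rfl) (G825 _ rfl) (G320 _ rfl) (by decide +kernel))
theorem l1171 : HoldsN X4 (Trg.left (Trg.left (Trg.right (chamber 1 1)))) (Trg.right (Trg.left (Trg.left (Trg.left (chamberNR 1 2))))) :=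
  HoldsN.of_red (k := 16) (m := 16) (leaf ok4 (G47 _ rfl) (G831 _ rfl) (G383 _ rfl) (by decide +kernel))
theorem l1172 : HoldsN X4 (Trg.left (Trg.right (Trg.left (Trg.right (chamber 1 1))))) (Trg.left (Trg.left (Trg.left (Trg.left (chamberNR 1 2))))) :=
  HoldsN.of_red (k := 16) (m := 16) (leaf ok4 (G79 _ rfl) (G883 _ rfl) (G325 _ rfl) (by decide +kernel))
theorem l1173 : HoldsN X4 (Trg.left (Trg.right (Trg.left (Trg.right (chamber 1 1))))) (Trg.left (Trg.right (Trg.left (Trg.left (Trg.left (chamberNR 1 2)))))) :=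
  HoldsN.of_red (k := 16) (m := 16) (leaf ok4 (G27 _ rfl) (G943 _ rfl) (G486 _ rfl) (by decide +kernel))
theorem l1174 : HoldsN X4 (Trg.left (Trg.right (Trg.left (Trg.right (chamber 1 1))))) (Trg.right (Trg.right (Trg.left (Trg.left (Trg.left (chamberNR 1 2)))))) :=
  HoldsN.of_red (k := 16) (m := 16) (leaf ok4 (G49 _ rfl) (G883 _ rfl) (G484 _ rfl) (by decide +kernel))
theorem l1175 : HoldsN X4 (Trg.right (Trg.right (Trg.left (Trg.right (chamber 1 1))))) (Trg.left (Trg.left (Trg.left (Trg.left (chamberNR 1 2))))) :=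
  HoldsN.of_red (k := 16) (m := 16) (leaf ok4 (G122 _ rfl) (G825 _ rfl) (G323 _ rfl) (by decide +kernel))
theorem l1176 : HoldsN X4 (Trg.right (Trg.right (Trg.left (Trg.right (chamber 1 1))))) (Trg.right (Trg.left (Trg.left (Trg.left (chamberNR 1 2))))) :=
  HoldsN.of_red (k := 16) (m := 16) (leaf ok4 (G47 _ rfl) (G831 _ rfl) (G484 _ rfl) (by decide +kernel))
theorem l1177 : HoldsN X4 (Trg.left (Trg.left (Trg.left (Trg.left (Trg.right (chamber 1 1)))))) (Trg.right (Trg.left (Trg.left (chamberNR 1 2)))) :=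
  HoldsN.of_red (k := 16) (m := 16) (leaf ok4 (G154 _ rfl) (G622 _ rfl) (G319 _ rfl) (by decide +kernel))
theorem l1178 : HoldsN X4 (Trg.right (Trg.left (Trg.left (Trg.left (Trg.right (chamber 1 1)))))) (Trg.right (Trg.left (Trg.left (chamberNR 1 2)))) :=
  HoldsN.of_red (k := 16) (m := 16) (leaf ok4 (G196 _ rfl) (G618 _ rfl) (G379 _ rfl) (by decide +kernel))
theorem l1179 : HoldsN X4 (Trg.right (Trg.left (Trg.left (Trg.right (chamber 1 1))))) (Trg.right (Trg.left (Trg.left (chamberNR 1 2)))) :=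
  HoldsN.of_red (k := 16) (m := 16) (leaf ok4 (G154 _ rfl) (G622 _ rfl) (G318 _ rfl) (by decide +kernel))

end Vale.Agent.Lib.P154N.D4
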