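import Vale.Agent.Lib.P154N.D4.Data
import Vale.Agent.Lib.P154N.Red

/-!
# Leaves of the tree of triangles
-/

namespace Vale.Agent.Lib.P154N.D4

open Vale.Agent.Lib.P154K Vale.Agent.Lib.P154Neg

theorem l1180 : HoldsN X4 (Trg.left (Trg.right (Trg.left (Trg.right (chamber 1 1))))) (Trg.right (Trg.left (Trg.left (chamberNR 1 2)))) :=
  HoldsN.of_red (k := 16) (m := 16) (leaf ok4 (G107 _ rfl) (G623 _ rfl) (G326 _ rfl) (by decide +kernel))
theorem l1181 : HoldsN X4 (Trg.left (Trg.right (Trg.right (Trg.left (Trg.right (chamber 1 1)))))) (Trg.right (Trg.left (Trg.left (chamberNR 1 2)))) :=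
  HoldsN.of_red (k := 16) (m := 16) (leaf ok4 (G160 _ rfl) (G619 _ rfl) (G382 _ rfl) (by decide +kernel))
theorem l1182 : HoldsN X4 (Trg.right (Trg.right (Trg.right (Trg.left (Trg.right (chamber 1 1)))))) (Trg.right (Trg.left (Trg.left (chamberNR 1 2)))) :=
  HoldsN.of_red (k := 16) (m := 16) (leaf ok4 (G154 _ rfl) (G622 _ rfl) (G324 _ rfl) (by decide +kernel))
theorem l1183 : HoldsN X4 (Trg.left (Trg.left (Trg.left (Trg.right (chamber 1 1))))) (Trg.left (Trg.right (Trg.left (chamberNR 1 2)))) :=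
  HoldsN.of_red (k := 16) (m := 16) (leaf ok4 (G102 _ rfl) (G830 _ rfl) (G148 _ rfl) (by decide +kernel))
theorem l1184 : HoldsN X4 (Trg.right (Trg.left (Trg.left (Trg.right (chamber 1 1))))) (Trg.left (Trg.right (Trg.left (chamberNR 1 2)))) :=
  HoldsN.of_red (k := 16) (m := 16) (leaf ok4 (G103 _ rfl) (G848 _ rfl) (G142 _ rfl) (by decide +kernel))
theorem l1185 : HoldsN X4 (Trg.left (Trg.left (Trg.right (chamber 1 1)))) (Trg.left (Trg.right (Trg.right (Trg.left (chamberNR 1 2))))) :=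
  HoldsN.of_red (k := 16) (m := 16) (leaf ok4 (G45 _ rfl) (G886 _ rfl) (G270 _ rfl) (by decide +kernel))
theorem l1186 : HoldsN X4 (Trg.left (Trg.left (Trg.left (Trg.right (chamber 1 1))))) (Trg.right (Trg.right (Trg.right (Trg.left (chamberNR 1 2))))) :=
  HoldsN.of_red (k := 16) (m := 16) (leaf ok4 (G102 _ rfl) (G830 _ rfl) (G315 _ rfl) (by decide +kernel))
theorem l1187 : HoldsN X4 (Trg.right (Trg.left (Trg.left (Trg.right (chamber 1 1))))) (Trg.right (Trg.right (Trg.right (Trg.left (chamberNR 1 2))))) :=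
  HoldsN.of_red (k := 16) (m := 16) (leaf ok4 (G103 _ rfl) (G848 _ rfl) (G260 _ rfl) (by decide +kernel))
theorem l1188 : HoldsN X4 (Trg.left (Trg.right (Trg.left (Trg.right (chamber 1 1))))) (Trg.left (Trg.right (Trg.left (chamberNR 1 2)))) :=
  HoldsN.of_red (k := 16) (m := 16) (leaf ok4 (G60 _ rfl) (G887 _ rfl) (G147 _ rfl) (by decide +kernel))
theorem l1189 : HoldsN X4 (Trg.left (Trg.right (Trg.left (Trg.right (chamber 1 1))))) (Trg.left (Trg.right (Trg.right (Trg.left (chamberNR 1 2))))) :=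
  HoldsN.of_red (k := 16) (m := 16) (leaf ok4 (G27 _ rfl) (G943 _ rfl) (G359 _ rfl) (by decide +kernel))

end Vale.Agent.Lib.P154N.D4
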