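import Vale.Agent.Lib.P154N.D4.Data
import Vale.Agent.Lib.P154N.Red

/-!
# Leaves of the tree of triangles
-/

namespace Vale.Agent.Lib.P154N.D4

open Vale.Agent.Lib.P154K Vale.Agent.Lib.P154Neg

theorem l1190 : HoldsN X4 (Trg.left (Trg.right (Trg.left (Trg.right (chamber 1 1))))) (Trg.right (Trg.right (Trg.right (Trg.left (chamberNR 1 2))))) :=
  HoldsN.of_red (k := 16) (m := 16) (leaf ok4 (G60 _ rfl) (G887 _ rfl) (G315 _ rfl) (by decide +kernel))
theorem l1191 : HoldsN X4 (Trg.right (Trg.right (Trg.left (Trg.right (chamber 1 1))))) (Trg.left (Trg.right (Trg.left (chamberNR 1 2)))) :=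
  HoldsN.of_red (k := 16) (m := 16) (leaf ok4 (G100 _ rfl) (G830 _ rfl) (G148 _ rfl) (by decide +kernel))
theorem l1192 : HoldsN X4 (Trg.right (Trg.right (Trg.left (Trg.right (chamber 1 1))))) (Trg.left (Trg.right (Trg.right (Trg.left (chamberNR 1 2))))) :=
  HoldsN.of_red (k := 16) (m := 16) (leaf ok4 (G45 _ rfl) (G886 _ rfl) (G358 _ rfl) (by decide +kernel))
theorem l1193 : HoldsN X4 (Trg.right (Trg.right (Trg.left (Trg.right (chamber 1 1))))) (Trg.right (Trg.right (Trg.right (Trg.left (chamberNR 1 2))))) :=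
  HoldsN.of_red (k := 16) (m := 16) (leaf ok4 (G100 _ rfl) (G830 _ rfl) (G315 _ rfl) (by decide +kernel))
theorem l1194 : HoldsN X4 (Trg.left (Trg.left (Trg.left (Trg.right (chamber 1 1))))) (Trg.left (Trg.left (Trg.right (chamberNR 1 2)))) :=
  HoldsN.of_red (k := 16) (m := 16) (leaf ok4 (G25 _ rfl) (G832 _ rfl) (G617 _ rfl) (by decide +kernel))
theorem l1195 : HoldsN X4 (Trg.right (Trg.left (Trg.left (Trg.right (chamber 1 1))))) (Trg.left (Trg.left (Trg.left (Trg.left (Trg.right (chamberNR 1 2)))))) :=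
  HoldsN.of_red (k := 16) (m := 16) (leaf ok4 (G24 _ rfl) (G924 _ rfl) (G617 _ rfl) (by decide +kernel))
theorem l1196 : HoldsN X4 (Trg.right (Trg.left (Trg.left (Trg.right (chamber 1 1))))) (Trg.right (Trg.left (Trg.left (Trg.left (Trg.right (chamberNR 1 2)))))) :=
  HoldsN.of_red (k := 16) (m := 16) (leaf ok4 (G35 _ rfl) (G882 _ rfl) (G615 _ rfl) (by decide +kernel))
theorem l1197 : HoldsN X4 (Trg.right (Trg.left (Trg.left (Trg.right (chamber 1 1))))) (Trg.right (Trg.left (Trg.left (Trg.right (chamberNR 1 2))))) :=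
  HoldsN.of_red (k := 16) (m := 16) (leaf ok4 (G24 _ rfl) (G924 _ rfl) (G455 _ rfl) (by decide +kernel))
theorem l1198 : HoldsN X4 (Trg.left (Trg.left (Trg.right (chamber 1 1)))) (Trg.left (Trg.right (Trg.left (Trg.right (chamberNR 1 2))))) :=
  HoldsN.of_red (k := 16) (m := 16) (leaf ok4 (G11 _ rfl) (G887 _ rfl) (G670 _ rfl) (by decide +kernel))
theorem l1199 : HoldsN X4 (Trg.left (Trg.left (Trg.left (Trg.right (chamber 1 1))))) (Trg.right (Trg.right (Trg.left (Trg.right (chamberNR 1 2))))) :=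
  HoldsN.of_red (k := 16) (m := 16) (leaf ok4 (G25 _ rfl) (G832 _ rfl) (G776 _ rfl) (by decide +kernel))

end Vale.Agent.Lib.P154N.D4
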