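import Vale.Agent.Lib.P154N.D4.Data
import Vale.Agent.Lib.P154N.Red

/-!
# Leaves of the tree of triangles
-/

namespace Vale.Agent.Lib.P154N.D4

open Vale.Agent.Lib.P154K Vale.Agent.Lib.P154Neg

theorem l120 : HoldsN X2 (Trg.left (Trg.right (Trg.left (Trg.right (Trg.right (chamberN 1 2)))))) (Trg.left (Trg.left (Trg.right (Trg.left (Trg.left (chamberN 1 2)))))) :=
  HoldsN.of_red (k := 16) (m := 16) (leaf ok2 (G589 _ rfl) (G545 _ rfl) (G502 _ rfl) (by decide +kernel))
theorem l121 : HoldsN X2 (Trg.left (Trg.left (Trg.right (Trg.left (Trg.right (Trg.right (chamberN 1 2))))))) (Trg.right (Trg.left (Trg.right (Trg.left (Trg.left (chamberN 1 2)))))) :=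
  HoldsN.of_red (k := 16) (m := 16) (leaf ok2 (G585 _ rfl) (G571 _ rfl) (G544 _ rfl) (by decide +kernel))
theorem l122 : HoldsN X2 (Trg.right (Trg.left (Trg.right (Trg.left (Trg.right (Trg.right (chamberN 1 2))))))) (Trg.right (Trg.left (Trg.right (Trg.left (Trg.left (chamberN 1 2)))))) :=
  HoldsN.of_red (k := 16) (m := 16) (leaf ok2 (G584 _ rfl) (G571 _ rfl) (G544 _ rfl) (by decide +kernel))
theorem l123 : HoldsN X2 (Trg.left (Trg.right (Trg.left (Trg.right (Trg.right (chamberN 1 2)))))) (Trg.right (Trg.right (Trg.left (Trg.left (chamberN 1 2))))) :=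
  HoldsN.of_red (k := 16) (m := 16) (leaf ok2 (G589 _ rfl) (G546 _ rfl) (G502 _ rfl) (by decide +kernel))
theorem l124 : HoldsN X2 (Trg.right (Trg.right (Trg.left (Trg.right (Trg.right (chamberN 1 2)))))) (Trg.right (Trg.left (Trg.left (chamberN 1 2)))) :=
  HoldsN.of_red (k := 16) (m := 16) (leaf ok2 (G592 _ rfl) (G506 _ rfl) (G491 _ rfl) (by decide +kernel))
theorem l125 : HoldsN X2 (Trg.left (Trg.right (Trg.right (chamberN 1 2)))) (Trg.right (Trg.left (chamberN 1 2))) :=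
  HoldsN.of_red (k := 16) (m := 16) (leaf ok2 (G614 _ rfl) (G469 _ rfl) (G316 _ rfl) (by decide +kernel))
theorem l126 : HoldsN X2 (Trg.right (Trg.right (Trg.right (chamberN 1 2)))) (Trg.left (Trg.left (Trg.left (chamberN 1 2)))) :=
  HoldsN.of_red (k := 16) (m := 16) (leaf ok2 (G664 _ rfl) (G353 _ rfl) (G312 _ rfl) (by decide +kernel))
theorem l127 : HoldsN X2 (Trg.right (Trg.right (Trg.right (chamberN 1 2)))) (Trg.right (Trg.left (Trg.left (chamberN 1 2)))) :=
  HoldsN.of_red (k := 16) (m := 16) (leaf ok2 (G606 _ rfl) (G467 _ rfl) (G404 _ rfl) (by decide +kernel))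
theorem l128 : HoldsN X2 (Trg.right (Trg.right (Trg.right (chamberN 1 2)))) (Trg.right (Trg.left (chamberN 1 2))) :=
  HoldsN.of_red (k := 16) (m := 16) (leaf ok2 (G664 _ rfl) (G356 _ rfl) (G261 _ rfl) (by decide +kernel))
theorem l129 : HoldsN X2 (Trg.right (Trg.right (chamberN 1 2))) (Trg.left (Trg.right (chamberN 1 2))) :=
  HoldsN.of_red (k := 16) (m := 16) (leaf ok2 (G625 _ rfl) (G149 _ rfl) (G316 _ rfl) (by decide +kernel))

end Vale.Agent.Lib.P154N.D4
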