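import Vale.Agent.Lib.P154N.D4.Data
import Vale.Agent.Lib.P154N.Red

/-!
# Leaves of the tree of triangles
-/

namespace Vale.Agent.Lib.P154N.D4

open Vale.Agent.Lib.P154K Vale.Agent.Lib.P154Neg

theorem l1200 : HoldsN X4 (Trg.right (Trg.left (Trg.left (Trg.right (chamber 1 1))))) (Trg.left (Trg.right (Trg.right (Trg.left (Trg.right (chamberNR 1 2)))))) :=
  HoldsN.of_red (k := 16) (m := 16) (leaf ok4 (G31 _ rfl) (G883 _ rfl) (G696 _ rfl) (by decide +kernel))
theorem l1201 : HoldsN X4 (Trg.right (Trg.left (Trg.left (Trg.right (chamber 1 1))))) (Trg.right (Trg.right (Trg.right (Trg.left (Trg.right (chamberNR 1 2)))))) :=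
  HoldsN.of_red (k := 16) (m := 16) (leaf ok4 (G23 _ rfl) (G928 _ rfl) (G665 _ rfl) (by decide +kernel))
theorem l1202 : HoldsN X4 (Trg.left (Trg.left (Trg.right (Trg.left (Trg.right (chamber 1 1)))))) (Trg.left (Trg.left (Trg.left (Trg.left (Trg.right (chamberNR 1 2)))))) :=
  HoldsN.of_red (k := 16) (m := 16) (leaf ok4 (G14 _ rfl) (G942 _ rfl) (G777 _ rfl) (by decide +kernel))
theorem l1203 : HoldsN X4 (Trg.left (Trg.right (Trg.left (Trg.right (Trg.left (Trg.right (chamber 1 1))))))) (Trg.left (Trg.left (Trg.left (Trg.left (Trg.left (Trg.right (chamberNR 1 2))))))) :=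
  HoldsN.of_red (k := 16) (m := 16) (leaf ok4 (G16 _ rfl) (G960 _ rfl) (G840 _ rfl) (by decide +kernel))
theorem l1204 : HoldsN X4 (Trg.left (Trg.right (Trg.left (Trg.right (Trg.left (Trg.right (chamber 1 1))))))) (Trg.right (Trg.left (Trg.left (Trg.left (Trg.left (Trg.right (chamberNR 1 2))))))) :=
  HoldsN.of_red (k := 16) (m := 16) (leaf ok4 (G8 _ rfl) (G962 _ rfl) (G876 _ rfl) (by decide +kernel))
theorem l1205 : HoldsN X4 (Trg.right (Trg.right (Trg.left (Trg.right (Trg.left (Trg.right (chamber 1 1))))))) (Trg.left (Trg.left (Trg.left (Trg.left (Trg.right (chamberNR 1 2)))))) :=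
  HoldsN.of_red (k := 16) (m := 16) (leaf ok4 (G14 _ rfl) (G942 _ rfl) (G839 _ rfl) (by decide +kernel))
theorem l1206 : HoldsN X4 (Trg.left (Trg.right (Trg.left (Trg.right (chamber 1 1))))) (Trg.right (Trg.left (Trg.left (Trg.left (Trg.right (chamberNR 1 2)))))) :=
  HoldsN.of_red (k := 16) (m := 16) (leaf ok4 (G22 _ rfl) (G883 _ rfl) (G781 _ rfl) (by decide +kernel))
theorem l1207 : HoldsN X4 (Trg.left (Trg.left (Trg.right (Trg.left (Trg.right (chamber 1 1)))))) (Trg.right (Trg.left (Trg.left (Trg.right (chamberNR 1 2))))) :=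
  HoldsN.of_red (k := 16) (m := 16) (leaf ok4 (G14 _ rfl) (G942 _ rfl) (G666 _ rfl) (by decide +kernel))
theorem l1208 : HoldsN X4 (Trg.left (Trg.right (Trg.left (Trg.right (Trg.left (Trg.right (chamber 1 1))))))) (Trg.left (Trg.right (Trg.left (Trg.left (Trg.right (chamberNR 1 2)))))) :=
  HoldsN.of_red (k := 16) (m := 16) (leaf ok4 (G15 _ rfl) (G962 _ rfl) (G754 _ rfl) (by decide +kernel))
theorem l1209 : HoldsN X4 (Trg.left (Trg.right (Trg.left (Trg.right (Trg.left (Trg.right (chamber 1 1))))))) (Trg.left (Trg.right (Trg.right (Trg.left (Trg.left (Trg.right (chamberNR 1 2))))))) :=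
  HoldsN.of_red (k := 16) (m := 16) (leaf ok4 (G7 _ rfl) (G970 _ rfl) (G853 _ rfl) (by decide +kernel))

end Vale.Agent.Lib.P154N.D4
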