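import Vale.Agent.Lib.P154N.D4.Data
import Vale.Agent.Lib.P154N.Red

/-!
# Leaves of the tree of triangles
-/

namespace Vale.Agent.Lib.P154N.D4

open Vale.Agent.Lib.P154K Vale.Agent.Lib.P154Neg

theorem l1230 : HoldsN X4 (Trg.right (Trg.right (Trg.left (Trg.right (Trg.left (Trg.right (chamber 1 1))))))) (Trg.left (Trg.left (Trg.right (Trg.left (Trg.right (chamberNR 1 2)))))) :=
  HoldsN.of_red (k := 16) (m := 16) (leaf ok4 (G6 _ rfl) (G943 _ rfl) (G905 _ rfl) (by decide +kernel))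
theorem l1231 : HoldsN X4 (Trg.left (Trg.right (Trg.right (Trg.left (Trg.right (Trg.left (Trg.right (chamber 1 1)))))))) (Trg.left (Trg.right (Trg.left (Trg.right (Trg.left (Trg.right (chamberNR 1 2))))))) :=
  HoldsN.of_red (k := 16) (m := 16) (leaf ok4 (G0 _ rfl) (G960 _ rfl) (G951 _ rfl) (by decide +kernel))
theorem l1232 : HoldsN X4 (Trg.right (Trg.right (Trg.right (Trg.left (Trg.right (Trg.left (Trg.right (chamber 1 1)))))))) (Trg.left (Trg.right (Trg.left (Trg.right (Trg.left (Trg.right (chamberNR 1 2))))))) :=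
  HoldsN.of_red (k := 16) (m := 16) (leaf ok4 top4 (G970 _ rfl) (G954 _ rfl) (by decide +kernel))
theorem l1233 : HoldsN X4 (Trg.right (Trg.right (Trg.left (Trg.right (Trg.left (Trg.right (chamber 1 1))))))) (Trg.right (Trg.right (Trg.left (Trg.right (Trg.left (Trg.right (chamberNR 1 2))))))) :=
  HoldsN.of_red (k := 16) (m := 16) (leaf ok4 (G6 _ rfl) (G943 _ rfl) (G938 _ rfl) (by decide +kernel))
theorem l1234 : HoldsN X4 (Trg.left (Trg.left (Trg.right (Trg.left (Trg.right (chamber 1 1)))))) (Trg.left (Trg.right (Trg.right (Trg.left (Trg.right (chamberNR 1 2)))))) :=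
  HoldsN.of_red (k := 16) (m := 16) (leaf ok4 (G17 _ rfl) (G883 _ rfl) (G852 _ rfl) (by decide +kernel))
theorem l1235 : HoldsN X4 (Trg.right (Trg.left (Trg.right (Trg.left (Trg.right (chamber 1 1)))))) (Trg.left (Trg.right (Trg.right (Trg.left (Trg.right (chamberNR 1 2)))))) :=
  HoldsN.of_red (k := 16) (m := 16) (leaf ok4 (G12 _ rfl) (G883 _ rfl) (G883 _ rfl) (by decide +kernel))
theorem l1236 : HoldsN X4 (Trg.left (Trg.right (Trg.left (Trg.right (chamber 1 1))))) (Trg.right (Trg.right (Trg.right (Trg.left (Trg.right (chamberNR 1 2)))))) :=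
  HoldsN.of_red (k := 16) (m := 16) (leaf ok4 (G9 _ rfl) (G943 _ rfl) (G861 _ rfl) (by decide +kernel))
theorem l1237 : HoldsN X4 (Trg.right (Trg.right (Trg.left (Trg.right (chamber 1 1))))) (Trg.left (Trg.left (Trg.right (chamberNR 1 2)))) :=
  HoldsN.of_red (k := 16) (m := 16) (leaf ok4 (G25 _ rfl) (G832 _ rfl) (G665 _ rfl) (by decide +kernel))
theorem l1238 : HoldsN X4 (Trg.right (Trg.right (Trg.left (Trg.right (chamber 1 1))))) (Trg.left (Trg.right (Trg.left (Trg.right (chamberNR 1 2))))) :=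
  HoldsN.of_red (k := 16) (m := 16) (leaf ok4 (G11 _ rfl) (G887 _ rfl) (G854 _ rfl) (by decide +kernel))
theorem l1239 : HoldsN X4 (Trg.right (Trg.right (Trg.left (Trg.right (chamber 1 1))))) (Trg.right (Trg.right (Trg.left (Trg.right (chamberNR 1 2))))) :=
  HoldsN.of_red (k := 16) (m := 16) (leaf ok4 (G25 _ rfl) (G832 _ rfl) (G821 _ rfl) (by decide +kernel))

end Vale.Agent.Lib.P154N.D4
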