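import Vale.Agent.Lib.P154N.D4.Data
import Vale.Agent.Lib.P154N.Red

/-!
# Leaves of the tree of triangles
-/

namespace Vale.Agent.Lib.P154N.D4

open Vale.Agent.Lib.P154K Vale.Agent.Lib.P154Neg

theorem l1240 : HoldsN X4 (Trg.left (Trg.left (Trg.right (chamber 1 1)))) (Trg.left (Trg.left (Trg.right (Trg.right (chamberNR 1 2))))) :=
  HoldsN.of_red (k := 16) (m := 16) (leaf ok4 (G63 _ rfl) (G722 _ rfl) (G527 _ rfl) (by decide +kernel))
theorem l1241 : HoldsN X4 (Trg.left (Trg.left (Trg.right (chamber 1 1)))) (Trg.right (Trg.left (Trg.right (Trg.right (chamberNR 1 2))))) :=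
  HoldsN.of_red (k := 16) (m := 16) (leaf ok4 (G154 _ rfl) (G622 _ rfl) (G517 _ rfl) (by decide +kernel))
theorem l1242 : HoldsN X4 (Trg.left (Trg.right (Trg.left (Trg.right (chamber 1 1))))) (Trg.left (Trg.left (Trg.right (Trg.right (chamberNR 1 2))))) :=
  HoldsN.of_red (k := 16) (m := 16) (leaf ok4 (G41 _ rfl) (G778 _ rfl) (G642 _ rfl) (by decide +kernel))
theorem l1243 : HoldsN X4 (Trg.left (Trg.right (Trg.left (Trg.right (chamber 1 1))))) (Trg.right (Trg.left (Trg.right (Trg.right (chamberNR 1 2))))) :=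
  HoldsN.of_red (k := 16) (m := 16) (leaf ok4 (G107 _ rfl) (G623 _ rfl) (G608 _ rfl) (by decide +kernel))
theorem l1244 : HoldsN X4 (Trg.right (Trg.right (Trg.left (Trg.right (chamber 1 1))))) (Trg.left (Trg.left (Trg.right (Trg.right (chamberNR 1 2))))) :=
  HoldsN.of_red (k := 16) (m := 16) (leaf ok4 (G63 _ rfl) (G722 _ rfl) (G641 _ rfl) (by decide +kernel))
theorem l1245 : HoldsN X4 (Trg.right (Trg.right (Trg.left (Trg.right (chamber 1 1))))) (Trg.right (Trg.left (Trg.right (Trg.right (chamberNR 1 2))))) :=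
  HoldsN.of_red (k := 16) (m := 16) (leaf ok4 (G154 _ rfl) (G622 _ rfl) (G602 _ rfl) (by decide +kernel))
theorem l1246 : HoldsN X4 (Trg.left (Trg.left (Trg.left (Trg.right (chamber 1 1))))) (Trg.right (Trg.right (Trg.right (chamberNR 1 2)))) :=
  HoldsN.of_red (k := 16) (m := 16) (leaf ok4 (G47 _ rfl) (G831 _ rfl) (G613 _ rfl) (by decide +kernel))
theorem l1247 : HoldsN X4 (Trg.right (Trg.left (Trg.left (Trg.right (chamber 1 1))))) (Trg.left (Trg.right (Trg.right (Trg.right (chamberNR 1 2))))) :=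
  HoldsN.of_red (k := 16) (m := 16) (leaf ok4 (G46 _ rfl) (G864 _ rfl) (G448 _ rfl) (by decide +kernel))
theorem l1248 : HoldsN X4 (Trg.right (Trg.left (Trg.left (Trg.right (chamber 1 1))))) (Trg.right (Trg.right (Trg.right (Trg.right (chamberNR 1 2))))) :=
  HoldsN.of_red (k := 16) (m := 16) (leaf ok4 (G53 _ rfl) (G859 _ rfl) (G527 _ rfl) (by decide +kernel))
theorem l1249 : HoldsN X4 (Trg.left (Trg.right (Trg.left (Trg.right (chamber 1 1))))) (Trg.left (Trg.left (Trg.right (Trg.right (Trg.right (chamberNR 1 2)))))) :=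
  HoldsN.of_red (k := 16) (m := 16) (leaf ok4 (G32 _ rfl) (G883 _ rfl) (G641 _ rfl) (by decide +kernel))

end Vale.Agent.Lib.P154N.D4
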