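import Vale.Agent.Lib.P154N.D4.Data
import Vale.Agent.Lib.P154N.Red

/-!
# Leaves of the tree of triangles
-/

namespace Vale.Agent.Lib.P154N.D4

open Vale.Agent.Lib.P154K Vale.Agent.Lib.P154Neg

theorem l1250 : HoldsN X4 (Trg.left (Trg.right (Trg.left (Trg.right (chamber 1 1))))) (Trg.right (Trg.left (Trg.right (Trg.right (Trg.right (chamberNR 1 2)))))) :=
  HoldsN.of_red (k := 16) (m := 16) (leaf ok4 (G26 _ rfl) (G943 _ rfl) (G652 _ rfl) (by decide +kernel))
theorem l1251 : HoldsN X4 (Trg.left (Trg.right (Trg.left (Trg.right (chamber 1 1))))) (Trg.right (Trg.right (Trg.right (Trg.right (chamberNR 1 2))))) :=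
  HoldsN.of_red (k := 16) (m := 16) (leaf ok4 (G32 _ rfl) (G883 _ rfl) (G642 _ rfl) (by decide +kernel))
theorem l1252 : HoldsN X4 (Trg.right (Trg.right (Trg.left (Trg.right (chamber 1 1))))) (Trg.right (Trg.right (Trg.right (chamberNR 1 2)))) :=
  HoldsN.of_red (k := 16) (m := 16) (leaf ok4 (G47 _ rfl) (G831 _ rfl) (G641 _ rfl) (by decide +kernel))
theorem l1253 : HoldsN X4 (Trg.left (Trg.left (Trg.right (Trg.right (chamber 1 1))))) (Trg.left (Trg.left (Trg.left (Trg.left (chamberNR 1 2))))) :=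
  HoldsN.of_red (k := 16) (m := 16) (leaf ok4 (G216 _ rfl) (G720 _ rfl) (G440 _ rfl) (by decide +kernel))
theorem l1254 : HoldsN X4 (Trg.left (Trg.left (Trg.right (Trg.right (chamber 1 1))))) (Trg.right (Trg.left (Trg.left (Trg.left (chamberNR 1 2))))) :=
  HoldsN.of_red (k := 16) (m := 16) (leaf ok4 (G106 _ rfl) (G722 _ rfl) (G483 _ rfl) (by decide +kernel))
theorem l1255 : HoldsN X4 (Trg.right (Trg.left (Trg.right (Trg.right (chamber 1 1))))) (Trg.left (Trg.left (Trg.left (chamberNR 1 2)))) :=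
  HoldsN.of_red (k := 16) (m := 16) (leaf ok4 (G241 _ rfl) (G620 _ rfl) (G441 _ rfl) (by decide +kernel))
theorem l1256 : HoldsN X4 (Trg.left (Trg.left (Trg.right (Trg.right (chamber 1 1))))) (Trg.right (Trg.left (Trg.left (chamberNR 1 2)))) :=
  HoldsN.of_red (k := 16) (m := 16) (leaf ok4 (G266 _ rfl) (G608 _ rfl) (G441 _ rfl) (by decide +kernel))
theorem l1257 : HoldsN X4 (Trg.right (Trg.left (Trg.right (Trg.right (chamber 1 1))))) (Trg.right (Trg.left (Trg.left (chamberNR 1 2)))) :=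
  HoldsN.of_red (k := 16) (m := 16) (leaf ok4 (G393 _ rfl) (G604 _ rfl) (G438 _ rfl) (by decide +kernel))
theorem l1258 : HoldsN X4 (Trg.left (Trg.left (Trg.right (Trg.right (chamber 1 1))))) (Trg.left (Trg.right (Trg.left (chamberNR 1 2)))) :=
  HoldsN.of_red (k := 16) (m := 16) (leaf ok4 (G178 _ rfl) (G722 _ rfl) (G313 _ rfl) (by decide +kernel))
theorem l1259 : HoldsN X4 (Trg.left (Trg.left (Trg.right (Trg.right (chamber 1 1))))) (Trg.left (Trg.right (Trg.right (Trg.left (chamberNR 1 2))))) :=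
  HoldsN.of_red (k := 16) (m := 16) (leaf ok4 (G105 _ rfl) (G778 _ rfl) (G413 _ rfl) (by decide +kernel))

end Vale.Agent.Lib.P154N.D4
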