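import Vale.Agent.Lib.P154N.D4.Data
import Vale.Agent.Lib.P154N.Red

/-!
# Leaves of the tree of triangles
-/

namespace Vale.Agent.Lib.P154N.D4

open Vale.Agent.Lib.P154K Vale.Agent.Lib.P154Neg

theorem l1260 : HoldsN X4 (Trg.left (Trg.left (Trg.right (Trg.right (chamber 1 1))))) (Trg.right (Trg.right (Trg.right (Trg.left (chamberNR 1 2))))) :=
  HoldsN.of_red (k := 16) (m := 16) (leaf ok4 (G178 _ rfl) (G722 _ rfl) (G403 _ rfl) (by decide +kernel))
theorem l1261 : HoldsN X4 (Trg.right (Trg.left (Trg.right (Trg.right (chamber 1 1))))) (Trg.right (Trg.left (chamberNR 1 2))) :=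
  HoldsN.of_red (k := 16) (m := 16) (leaf ok4 (G241 _ rfl) (G620 _ rfl) (G321 _ rfl) (by decide +kernel))
theorem l1262 : HoldsN X4 (Trg.right (Trg.right (Trg.right (chamber 1 1)))) (Trg.left (Trg.left (Trg.left (Trg.left (chamberNR 1 2))))) :=
  HoldsN.of_red (k := 16) (m := 16) (leaf ok4 (G216 _ rfl) (G762 _ rfl) (G320 _ rfl) (by decide +kernel))
theorem l1263 : HoldsN X4 (Trg.right (Trg.right (Trg.right (chamber 1 1)))) (Trg.right (Trg.left (Trg.left (Trg.left (chamberNR 1 2))))) :=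
  HoldsN.of_red (k := 16) (m := 16) (leaf ok4 (G88 _ rfl) (G797 _ rfl) (G383 _ rfl) (by decide +kernel))
theorem l1264 : HoldsN X4 (Trg.right (Trg.right (Trg.right (chamber 1 1)))) (Trg.right (Trg.left (Trg.left (chamberNR 1 2)))) :=
  HoldsN.of_red (k := 16) (m := 16) (leaf ok4 (G241 _ rfl) (G620 _ rfl) (G321 _ rfl) (by decide +kernel))
theorem l1265 : HoldsN X4 (Trg.right (Trg.right (Trg.right (chamber 1 1)))) (Trg.left (Trg.right (Trg.left (chamberNR 1 2)))) :=
  HoldsN.of_red (k := 16) (m := 16) (leaf ok4 (G178 _ rfl) (G764 _ rfl) (G148 _ rfl) (by decide +kernel))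
theorem l1266 : HoldsN X4 (Trg.right (Trg.right (Trg.right (chamber 1 1)))) (Trg.left (Trg.right (Trg.right (Trg.left (chamberNR 1 2))))) :=
  HoldsN.of_red (k := 16) (m := 16) (leaf ok4 (G87 _ rfl) (G847 _ rfl) (G270 _ rfl) (by decide +kernel))
theorem l1267 : HoldsN X4 (Trg.right (Trg.right (Trg.right (chamber 1 1)))) (Trg.right (Trg.right (Trg.right (Trg.left (chamberNR 1 2))))) :=
  HoldsN.of_red (k := 16) (m := 16) (leaf ok4 (G178 _ rfl) (G764 _ rfl) (G265 _ rfl) (by decide +kernel))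
theorem l1268 : HoldsN X4 (Trg.left (Trg.left (Trg.right (Trg.right (chamber 1 1))))) (Trg.left (Trg.right (chamberNR 1 2))) :=
  HoldsN.of_red (k := 16) (m := 16) (leaf ok4 (G42 _ rfl) (G722 _ rfl) (G531 _ rfl) (by decide +kernel))
theorem l1269 : HoldsN X4 (Trg.right (Trg.left (Trg.right (Trg.right (chamber 1 1))))) (Trg.left (Trg.right (chamberNR 1 2))) :=
  HoldsN.of_red (k := 16) (m := 16) (leaf ok4 (G107 _ rfl) (G623 _ rfl) (G524 _ rfl) (by decide +kernel))

end Vale.Agent.Lib.P154N.D4
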