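import Vale.Agent.Lib.P154N.D4.Data
import Vale.Agent.Lib.P154N.Red

/-!
# Leaves of the tree of triangles
-/

namespace Vale.Agent.Lib.P154N.D4

open Vale.Agent.Lib.P154K Vale.Agent.Lib.P154Neg

theorem l1270 : HoldsN X4 (Trg.right (Trg.right (Trg.right (chamber 1 1)))) (Trg.left (Trg.left (Trg.right (chamberNR 1 2)))) :=
  HoldsN.of_red (k := 16) (m := 16) (leaf ok4 (G47 _ rfl) (G831 _ rfl) (G454 _ rfl) (by decide +kernel))
theorem l1271 : HoldsN X4 (Trg.right (Trg.right (Trg.right (chamber 1 1)))) (Trg.left (Trg.right (Trg.left (Trg.right (chamberNR 1 2))))) :=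
  HoldsN.of_red (k := 16) (m := 16) (leaf ok4 (G28 _ rfl) (G887 _ rfl) (G642 _ rfl) (by decide +kernel))
theorem l1272 : HoldsN X4 (Trg.right (Trg.right (Trg.right (chamber 1 1)))) (Trg.right (Trg.right (Trg.left (Trg.right (chamberNR 1 2))))) :=
  HoldsN.of_red (k := 16) (m := 16) (leaf ok4 (G47 _ rfl) (G831 _ rfl) (G641 _ rfl) (by decide +kernel))
theorem l1273 : HoldsN X4 (Trg.left (Trg.left (Trg.right (Trg.right (chamber 1 1))))) (Trg.left (Trg.right (Trg.right (chamberNR 1 2)))) :=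
  HoldsN.of_red (k := 16) (m := 16) (leaf ok4 (G149 _ rfl) (G608 _ rfl) (G566 _ rfl) (by decide +kernel))
theorem l1274 : HoldsN X4 (Trg.right (Trg.left (Trg.right (Trg.right (chamber 1 1))))) (Trg.left (Trg.right (Trg.right (chamberNR 1 2)))) :=
  HoldsN.of_red (k := 16) (m := 16) (leaf ok4 (G266 _ rfl) (G608 _ rfl) (G556 _ rfl) (by decide +kernel))
theorem l1275 : HoldsN X4 (Trg.left (Trg.right (Trg.right (chamber 1 1)))) (Trg.right (Trg.right (Trg.right (chamberNR 1 2)))) :=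
  HoldsN.of_red (k := 16) (m := 16) (leaf ok4 (G107 _ rfl) (G623 _ rfl) (G524 _ rfl) (by decide +kernel))
theorem l1276 : HoldsN X4 (Trg.right (Trg.right (Trg.right (chamber 1 1)))) (Trg.left (Trg.left (Trg.right (Trg.right (chamberNR 1 2))))) :=
  HoldsN.of_red (k := 16) (m := 16) (leaf ok4 (G106 _ rfl) (G722 _ rfl) (G523 _ rfl) (by decide +kernel))
theorem l1277 : HoldsN X4 (Trg.right (Trg.right (Trg.right (chamber 1 1)))) (Trg.right (Trg.left (Trg.right (Trg.right (chamberNR 1 2))))) :=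
  HoldsN.of_red (k := 16) (m := 16) (leaf ok4 (G241 _ rfl) (G620 _ rfl) (G515 _ rfl) (by decide +kernel))
theorem l1278 : HoldsN X4 (Trg.right (Trg.right (Trg.right (chamber 1 1)))) (Trg.right (Trg.right (Trg.right (chamberNR 1 2)))) :=
  HoldsN.of_red (k := 16) (m := 16) (leaf ok4 (G88 _ rfl) (G797 _ rfl) (G451 _ rfl) (by decide +kernel))

end Vale.Agent.Lib.P154N.D4
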