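import Vale.Agent.Lib.P154N.D4.Data
import Vale.Agent.Lib.P154N.Red

/-!
# Leaves of the tree of triangles
-/

namespace Vale.Agent.Lib.P154N.D4

open Vale.Agent.Lib.P154K Vale.Agent.Lib.P154Neg

theorem l130 : HoldsN X2 (Trg.left (Trg.left (Trg.left (Trg.right (Trg.right (chamberN 1 2)))))) (Trg.left (Trg.left (Trg.right (Trg.right (chamberN 1 2))))) :=
  HoldsN.of_red (k := 16) (m := 16) (leaf ok2 (G655 _ rfl) (G433 _ rfl) (G472 _ rfl) (by decide +kernel))
theorem l131 : HoldsN X2 (Trg.left (Trg.right (Trg.left (Trg.left (Trg.right (Trg.right (chamberN 1 2))))))) (Trg.left (Trg.left (Trg.left (Trg.right (Trg.right (chamberN 1 2)))))) :=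
  HoldsN.of_red (k := 16) (m := 16) (leaf ok2 (G684 _ rfl) (G472 _ rfl) (G432 _ rfl) (by decide +kernel))
theorem l132 : HoldsN X2 (Trg.left (Trg.right (Trg.left (Trg.left (Trg.right (Trg.right (chamberN 1 2))))))) (Trg.left (Trg.right (Trg.left (Trg.left (Trg.right (Trg.right (chamberN 1 2))))))) :=
  HoldsN.of_red (k := 16) (m := 16) (leaf ok2 (G730 _ rfl) (G431 _ rfl) (G431 _ rfl) (by decide +kernel))
theorem l133 : HoldsN X2 (Trg.left (Trg.right (Trg.left (Trg.left (Trg.right (Trg.right (chamberN 1 2))))))) (Trg.right (Trg.right (Trg.left (Trg.left (Trg.right (Trg.right (chamberN 1 2))))))) :=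
  HoldsN.of_red (k := 16) (m := 16) (leaf ok2 (G684 _ rfl) (G470 _ rfl) (G432 _ rfl) (by decide +kernel))
theorem l134 : HoldsN X2 (Trg.right (Trg.right (Trg.left (Trg.left (Trg.right (Trg.right (chamberN 1 2))))))) (Trg.left (Trg.left (Trg.right (Trg.right (chamberN 1 2))))) :=
  HoldsN.of_red (k := 16) (m := 16) (leaf ok2 (G655 _ rfl) (G433 _ rfl) (G471 _ rfl) (by decide +kernel))
theorem l135 : HoldsN X2 (Trg.left (Trg.left (Trg.right (Trg.right (chamberN 1 2))))) (Trg.right (Trg.left (Trg.right (Trg.right (chamberN 1 2))))) :=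
  HoldsN.of_red (k := 16) (m := 16) (leaf ok2 (G598 _ rfl) (G502 _ rfl) (G435 _ rfl) (by decide +kernel))
theorem l136 : HoldsN X2 (Trg.right (Trg.left (Trg.right (Trg.right (chamberN 1 2))))) (Trg.left (Trg.left (Trg.right (Trg.right (chamberN 1 2))))) :=
  HoldsN.of_red (k := 16) (m := 16) (leaf ok2 (G598 _ rfl) (G435 _ rfl) (G502 _ rfl) (by decide +kernel))
theorem l137 : HoldsN X2 (Trg.left (Trg.left (Trg.right (Trg.left (Trg.right (Trg.right (chamberN 1 2))))))) (Trg.left (Trg.right (Trg.left (Trg.right (Trg.right (chamberN 1 2)))))) :=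
  HoldsN.of_red (k := 16) (m := 16) (leaf ok2 (G587 _ rfl) (G544 _ rfl) (G544 _ rfl) (by decide +kernel))
theorem l138 : HoldsN X2 (Trg.right (Trg.left (Trg.right (Trg.left (Trg.right (Trg.right (chamberN 1 2))))))) (Trg.left (Trg.left (Trg.right (Trg.left (Trg.right (Trg.right (chamberN 1 2))))))) :=
  HoldsN.of_red (k := 16) (m := 16) (leaf ok2 (G585 _ rfl) (G544 _ rfl) (G570 _ rfl) (by decide +kernel))
theorem l139 : HoldsN X2 (Trg.right (Trg.left (Trg.right (Trg.left (Trg.right (Trg.right (chamberN 1 2))))))) (Trg.right (Trg.left (Trg.right (Trg.left (Trg.right (Trg.right (chamberN 1 2))))))) :=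
  HoldsN.of_red (k := 16) (m := 16) (leaf ok2 (G584 _ rfl) (G570 _ rfl) (G570 _ rfl) (by decide +kernel))

end Vale.Agent.Lib.P154N.D4
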