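import Vale.Agent.Lib.P154N.D4.Data
import Vale.Agent.Lib.P154N.Red

/-!
# Leaves of the tree of triangles
-/

namespace Vale.Agent.Lib.P154N.D4

open Vale.Agent.Lib.P154K Vale.Agent.Lib.P154Neg

theorem l150 : HoldsN X2 (Trg.left (Trg.right (Trg.right (Trg.right (Trg.right (chamberN 1 2)))))) (Trg.right (Trg.right (Trg.left (Trg.left (Trg.right (Trg.right (chamberN 1 2))))))) :=
  HoldsN.of_red (k := 16) (m := 16) (leaf ok2 (G686 _ rfl) (G419 _ rfl) (G432 _ rfl) (by decide +kernel))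
theorem l151 : HoldsN X2 (Trg.left (Trg.right (Trg.right (Trg.right (Trg.right (Trg.right (chamberN 1 2))))))) (Trg.left (Trg.left (Trg.right (Trg.right (chamberN 1 2))))) :=
  HoldsN.of_red (k := 16) (m := 16) (leaf ok2 (G672 _ rfl) (G402 _ rfl) (G472 _ rfl) (by decide +kernel))
theorem l152 : HoldsN X2 (Trg.right (Trg.right (Trg.right (Trg.right (Trg.right (Trg.right (chamberN 1 2))))))) (Trg.left (Trg.left (Trg.left (Trg.right (Trg.right (chamberN 1 2)))))) :=
  HoldsN.of_red (k := 16) (m := 16) (leaf ok2 (G686 _ rfl) (G421 _ rfl) (G432 _ rfl) (by decide +kernel))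
theorem l153 : HoldsN X2 (Trg.right (Trg.right (Trg.right (Trg.right (Trg.right (Trg.right (chamberN 1 2))))))) (Trg.left (Trg.right (Trg.left (Trg.left (Trg.right (Trg.right (chamberN 1 2))))))) :=
  HoldsN.of_red (k := 16) (m := 16) (leaf ok2 (G731 _ rfl) (G370 _ rfl) (G459 _ rfl) (by decide +kernel))
theorem l154 : HoldsN X2 (Trg.right (Trg.right (Trg.right (Trg.right (Trg.right (Trg.right (chamberN 1 2))))))) (Trg.right (Trg.right (Trg.left (Trg.left (Trg.right (Trg.right (chamberN 1 2))))))) :=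
  HoldsN.of_red (k := 16) (m := 16) (leaf ok2 (G686 _ rfl) (G419 _ rfl) (G460 _ rfl) (by decide +kernel))
theorem l155 : HoldsN X2 (Trg.right (Trg.right (Trg.right (chamberN 1 2)))) (Trg.right (Trg.left (Trg.right (Trg.right (chamberN 1 2))))) :=
  HoldsN.of_red (k := 16) (m := 16) (leaf ok2 (G606 _ rfl) (G435 _ rfl) (G435 _ rfl) (by decide +kernel))
theorem l156 : HoldsN X2 (Trg.right (Trg.right (Trg.right (chamberN 1 2)))) (Trg.right (Trg.right (Trg.right (chamberN 1 2)))) :=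
  HoldsN.of_red (k := 16) (m := 16) (leaf ok2 (G708 _ rfl) (G313 _ rfl) (G313 _ rfl) (by decide +kernel))
theorem l157 : HoldsN X2 (Trg.left (Trg.left (Trg.left (Trg.left (chamberN 1 2))))) (Trg.left (Trg.left (Trg.left (chamberNR 1 2)))) :=
  HoldsN.of_red (k := 16) (m := 16) (leaf ok2 (G561 _ rfl) (G293 _ rfl) (G627 _ rfl) (by decide +kernel))
theorem l158 : HoldsN X2 (Trg.right (Trg.left (Trg.left (Trg.left (chamberN 1 2))))) (Trg.left (Trg.left (Trg.left (Trg.left (chamberNR 1 2))))) :=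
  HoldsN.of_red (k := 16) (m := 16) (leaf ok2 (G601 _ rfl) (G291 _ rfl) (G627 _ rfl) (by decide +kernel))
theorem l159 : HoldsN X2 (Trg.left (Trg.right (Trg.left (Trg.left (Trg.left (chamberN 1 2)))))) (Trg.left (Trg.right (Trg.left (Trg.left (Trg.left (chamberNR 1 2)))))) :=
  HoldsN.of_red (k := 16) (m := 16) (leaf ok2 (G692 _ rfl) (G190 _ rfl) (G632 _ rfl) (by decide +kernel))

end Vale.Agent.Lib.P154N.D4
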