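import Vale.Agent.Lib.P154N.D4.Data
import Vale.Agent.Lib.P154N.Red

/-!
# Leaves of the tree of triangles
-/

namespace Vale.Agent.Lib.P154N.D4

open Vale.Agent.Lib.P154K Vale.Agent.Lib.P154Neg

theorem l160 : HoldsN X2 (Trg.left (Trg.right (Trg.left (Trg.left (Trg.left (chamberN 1 2)))))) (Trg.right (Trg.right (Trg.left (Trg.left (Trg.left (chamberNR 1 2)))))) :=
  HoldsN.of_red (k := 16) (m := 16) (leaf ok2 (G688 _ rfl) (G259 _ rfl) (G626 _ rfl) (by decide +kernel))
theorem l161 : HoldsN X2 (Trg.right (Trg.right (Trg.left (Trg.left (Trg.left (chamberN 1 2)))))) (Trg.right (Trg.left (Trg.left (Trg.left (chamberNR 1 2))))) :=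
  HoldsN.of_red (k := 16) (m := 16) (leaf ok2 (G675 _ rfl) (G260 _ rfl) (G626 _ rfl) (by decide +kernel))
theorem l162 : HoldsN X2 (Trg.left (Trg.left (Trg.left (chamberN 1 2)))) (Trg.right (Trg.left (Trg.left (chamberNR 1 2)))) :=
  HoldsN.of_red (k := 16) (m := 16) (leaf ok2 (G560 _ rfl) (G367 _ rfl) (G594 _ rfl) (by decide +kernel))
theorem l163 : HoldsN X2 (Trg.left (Trg.left (Trg.left (Trg.left (chamberN 1 2))))) (Trg.right (Trg.left (chamberNR 1 2))) :=
  HoldsN.of_red (k := 16) (m := 16) (leaf ok2 (G520 _ rfl) (G293 _ rfl) (G635 _ rfl) (by decide +kernel))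
theorem l164 : HoldsN X2 (Trg.right (Trg.left (Trg.left (Trg.left (chamberN 1 2))))) (Trg.left (Trg.right (Trg.left (chamberNR 1 2)))) :=
  HoldsN.of_red (k := 16) (m := 16) (leaf ok2 (G603 _ rfl) (G230 _ rfl) (G657 _ rfl) (by decide +kernel))
theorem l165 : HoldsN X2 (Trg.right (Trg.left (Trg.left (Trg.left (chamberN 1 2))))) (Trg.left (Trg.right (Trg.right (Trg.left (chamberNR 1 2))))) :=
  HoldsN.of_red (k := 16) (m := 16) (leaf ok2 (G692 _ rfl) (G192 _ rfl) (G634 _ rfl) (by decide +kernel))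
theorem l166 : HoldsN X2 (Trg.right (Trg.left (Trg.left (Trg.left (chamberN 1 2))))) (Trg.right (Trg.right (Trg.right (Trg.left (chamberNR 1 2))))) :=
  HoldsN.of_red (k := 16) (m := 16) (leaf ok2 (G603 _ rfl) (G230 _ rfl) (G646 _ rfl) (by decide +kernel))
theorem l167 : HoldsN X2 (Trg.right (Trg.left (Trg.left (chamberN 1 2)))) (Trg.left (Trg.left (Trg.left (chamberNR 1 2)))) :=
  HoldsN.of_red (k := 16) (m := 16) (leaf ok2 (G560 _ rfl) (G367 _ rfl) (G594 _ rfl) (by decide +kernel))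
theorem l168 : HoldsN X2 (Trg.left (Trg.left (Trg.right (Trg.left (Trg.left (chamberN 1 2)))))) (Trg.right (Trg.left (Trg.left (chamberNR 1 2)))) :=
  HoldsN.of_red (k := 16) (m := 16) (leaf ok2 (G580 _ rfl) (G463 _ rfl) (G587 _ rfl) (by decide +kernel))
theorem l169 : HoldsN X2 (Trg.right (Trg.left (Trg.right (Trg.left (Trg.left (chamberN 1 2)))))) (Trg.right (Trg.left (Trg.left (chamberNR 1 2)))) :=
  HoldsN.of_red (k := 16) (m := 16) (leaf ok2 (G575 _ rfl) (G502 _ rfl) (G584 _ rfl) (by decide +kernel))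

end Vale.Agent.Lib.P154N.D4
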