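import Vale.Agent.Lib.P154N.D4.Data
import Vale.Agent.Lib.P154N.Red

/-!
# Leaves of the tree of triangles
-/

namespace Vale.Agent.Lib.P154N.D4

open Vale.Agent.Lib.P154K Vale.Agent.Lib.P154Neg

theorem l170 : HoldsN X2 (Trg.right (Trg.right (Trg.left (Trg.left (chamberN 1 2))))) (Trg.right (Trg.left (Trg.left (chamberNR 1 2)))) :=
  HoldsN.of_red (k := 16) (m := 16) (leaf ok2 (G553 _ rfl) (G463 _ rfl) (G587 _ rfl) (by decide +kernel))
theorem l171 : HoldsN X2 (Trg.right (Trg.left (Trg.left (chamberN 1 2)))) (Trg.right (Trg.left (chamberNR 1 2))) :=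
  HoldsN.of_red (k := 16) (m := 16) (leaf ok2 (G519 _ rfl) (G367 _ rfl) (G594 _ rfl) (by decide +kernel))
theorem l172 : HoldsN X2 (Trg.left (Trg.right (Trg.left (chamberN 1 2)))) (Trg.left (Trg.left (Trg.left (Trg.left (chamberNR 1 2))))) :=
  HoldsN.of_red (k := 16) (m := 16) (leaf ok2 (G513 _ rfl) (G338 _ rfl) (G654 _ rfl) (by decide +kernel))
theorem l173 : HoldsN X2 (Trg.left (Trg.right (Trg.left (chamberN 1 2)))) (Trg.right (Trg.left (Trg.left (Trg.left (chamberNR 1 2))))) :=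
  HoldsN.of_red (k := 16) (m := 16) (leaf ok2 (G603 _ rfl) (G230 _ rfl) (G657 _ rfl) (by decide +kernel))
theorem l174 : HoldsN X2 (Trg.left (Trg.right (Trg.right (Trg.left (chamberN 1 2))))) (Trg.left (Trg.left (Trg.left (Trg.left (chamberNR 1 2))))) :=
  HoldsN.of_red (k := 16) (m := 16) (leaf ok2 (G582 _ rfl) (G290 _ rfl) (G633 _ rfl) (by decide +kernel))
theorem l175 : HoldsN X2 (Trg.left (Trg.right (Trg.right (Trg.left (chamberN 1 2))))) (Trg.left (Trg.right (Trg.left (Trg.left (Trg.left (chamberNR 1 2)))))) :=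
  HoldsN.of_red (k := 16) (m := 16) (leaf ok2 (G692 _ rfl) (G190 _ rfl) (G646 _ rfl) (by decide +kernel))
theorem l176 : HoldsN X2 (Trg.left (Trg.right (Trg.right (Trg.left (chamberN 1 2))))) (Trg.right (Trg.right (Trg.left (Trg.left (Trg.left (chamberNR 1 2)))))) :=
  HoldsN.of_red (k := 16) (m := 16) (leaf ok2 (G688 _ rfl) (G259 _ rfl) (G633 _ rfl) (by decide +kernel))
theorem l177 : HoldsN X2 (Trg.right (Trg.right (Trg.right (Trg.left (chamberN 1 2))))) (Trg.left (Trg.left (Trg.left (Trg.left (chamberNR 1 2))))) :=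
  HoldsN.of_red (k := 16) (m := 16) (leaf ok2 (G554 _ rfl) (G338 _ rfl) (G645 _ rfl) (by decide +kernel))
theorem l178 : HoldsN X2 (Trg.right (Trg.right (Trg.right (Trg.left (chamberN 1 2))))) (Trg.right (Trg.left (Trg.left (Trg.left (chamberNR 1 2))))) :=
  HoldsN.of_red (k := 16) (m := 16) (leaf ok2 (G603 _ rfl) (G230 _ rfl) (G646 _ rfl) (by decide +kernel))
theorem l179 : HoldsN X2 (Trg.right (Trg.left (chamberN 1 2))) (Trg.right (Trg.left (Trg.left (chamberNR 1 2)))) :=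
  HoldsN.of_red (k := 16) (m := 16) (leaf ok2 (G519 _ rfl) (G367 _ rfl) (G594 _ rfl) (by decide +kernel))

end Vale.Agent.Lib.P154N.D4
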