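import Vale.Agent.Lib.P154N.D4.Data
import Vale.Agent.Lib.P154N.Red

/-!
# Leaves of the tree of triangles
-/

namespace Vale.Agent.Lib.P154N.D4

open Vale.Agent.Lib.P154K Vale.Agent.Lib.P154Neg

theorem l20 : HoldsN X2 (Trg.right (Trg.left (Trg.right (Trg.left (Trg.right (Trg.left (Trg.right (Trg.left (chamberN 1 2))))))))) (Trg.right (Trg.left (Trg.right (Trg.right (Trg.left (Trg.left (Trg.right (Trg.left (chamberN 1 2))))))))) :=
  HoldsN.of_red (k := 16) (m := 16) (leaf ok2 (G742 _ rfl) (G430 _ rfl) (G430 _ rfl) (by decide +kernel))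
theorem l21 : HoldsN X2 (Trg.left (Trg.right (Trg.left (Trg.right (Trg.left (Trg.right (Trg.left (chamberN 1 2)))))))) (Trg.right (Trg.right (Trg.right (Trg.left (Trg.left (Trg.right (Trg.left (chamberN 1 2)))))))) :=
  HoldsN.of_red (k := 16) (m := 16) (leaf ok2 (G713 _ rfl) (G419 _ rfl) (G471 _ rfl) (by decide +kernel))
theorem l22 : HoldsN X2 (Trg.right (Trg.right (Trg.left (Trg.right (Trg.left (Trg.right (Trg.left (chamberN 1 2)))))))) (Trg.right (Trg.right (Trg.left (Trg.left (Trg.right (Trg.left (chamberN 1 2))))))) :=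
  HoldsN.of_red (k := 16) (m := 16) (leaf ok2 (G713 _ rfl) (G420 _ rfl) (G421 _ rfl) (by decide +kernel))
theorem l23 : HoldsN X2 (Trg.right (Trg.right (Trg.left (Trg.right (Trg.left (chamberN 1 2)))))) (Trg.right (Trg.left (Trg.left (Trg.right (Trg.left (chamberN 1 2)))))) :=
  HoldsN.of_red (k := 16) (m := 16) (leaf ok2 (G685 _ rfl) (G433 _ rfl) (G391 _ rfl) (by decide +kernel))
theorem l24 : HoldsN X2 (Trg.right (Trg.left (Trg.right (Trg.left (chamberN 1 2))))) (Trg.right (Trg.left (Trg.right (Trg.left (chamberN 1 2))))) :=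
  HoldsN.of_red (k := 16) (m := 16) (leaf ok2 (G732 _ rfl) (G349 _ rfl) (G349 _ rfl) (by decide +kernel))
theorem l25 : HoldsN X2 (Trg.left (Trg.right (Trg.left (chamberN 1 2)))) (Trg.left (Trg.right (Trg.right (Trg.left (chamberN 1 2))))) :=
  HoldsN.of_red (k := 16) (m := 16) (leaf ok2 (G692 _ rfl) (G260 _ rfl) (G409 _ rfl) (by decide +kernel))
theorem l26 : HoldsN X2 (Trg.left (Trg.left (Trg.right (Trg.left (chamberN 1 2))))) (Trg.right (Trg.right (Trg.right (Trg.left (chamberN 1 2))))) :=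
  HoldsN.of_red (k := 16) (m := 16) (leaf ok2 (G659 _ rfl) (G392 _ rfl) (G403 _ rfl) (by decide +kernel))
theorem l27 : HoldsN X2 (Trg.right (Trg.left (Trg.right (Trg.left (chamberN 1 2))))) (Trg.left (Trg.right (Trg.right (Trg.right (Trg.left (chamberN 1 2)))))) :=
  HoldsN.of_red (k := 16) (m := 16) (leaf ok2 (G686 _ rfl) (G374 _ rfl) (G423 _ rfl) (by decide +kernel))
theorem l28 : HoldsN X2 (Trg.right (Trg.left (Trg.right (Trg.left (chamberN 1 2))))) (Trg.right (Trg.right (Trg.right (Trg.right (Trg.left (chamberN 1 2)))))) :=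
  HoldsN.of_red (k := 16) (m := 16) (leaf ok2 (G732 _ rfl) (G346 _ rfl) (G403 _ rfl) (by decide +kernel))
theorem l29 : HoldsN X2 (Trg.right (Trg.right (Trg.left (chamberN 1 2)))) (Trg.right (Trg.left (chamberN 1 2))) :=
  HoldsN.of_red (k := 16) (m := 16) (leaf ok2 (G664 _ rfl) (G306 _ rfl) (G267 _ rfl) (by decide +kernel))

end Vale.Agent.Lib.P154N.D4
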