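import Vale.Agent.Lib.P154N.D4.Data
import Vale.Agent.Lib.P154N.Red

/-!
# Leaves of the tree of triangles
-/

namespace Vale.Agent.Lib.P154N.D4

open Vale.Agent.Lib.P154K Vale.Agent.Lib.P154Neg

theorem l200 : HoldsN X2 (Trg.left (Trg.right (Trg.left (Trg.right (Trg.left (chamberN 1 2)))))) (Trg.right (Trg.right (Trg.left (Trg.right (Trg.left (chamberNR 1 2)))))) :=
  HoldsN.of_red (k := 16) (m := 16) (leaf ok2 (G476 _ rfl) (G303 _ rfl) (G730 _ rfl) (by decide +kernel))
theorem l201 : HoldsN X2 (Trg.right (Trg.right (Trg.left (Trg.right (Trg.left (chamberN 1 2)))))) (Trg.right (Trg.left (Trg.right (Trg.left (chamberNR 1 2))))) :=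
  HoldsN.of_red (k := 16) (m := 16) (leaf ok2 (G481 _ rfl) (G279 _ rfl) (G730 _ rfl) (by decide +kernel))
theorem l202 : HoldsN X2 (Trg.left (Trg.right (Trg.left (chamberN 1 2)))) (Trg.left (Trg.right (Trg.right (Trg.left (chamberNR 1 2))))) :=
  HoldsN.of_red (k := 16) (m := 16) (leaf ok2 (G562 _ rfl) (G229 _ rfl) (G687 _ rfl) (by decide +kernel))
theorem l203 : HoldsN X2 (Trg.left (Trg.left (Trg.right (Trg.left (chamberN 1 2))))) (Trg.right (Trg.right (Trg.right (Trg.left (chamberNR 1 2))))) :=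
  HoldsN.of_red (k := 16) (m := 16) (leaf ok2 (G540 _ rfl) (G281 _ rfl) (G655 _ rfl) (by decide +kernel))
theorem l204 : HoldsN X2 (Trg.left (Trg.right (Trg.left (Trg.right (Trg.left (chamberN 1 2)))))) (Trg.left (Trg.left (Trg.right (Trg.right (Trg.right (Trg.left (chamberNR 1 2))))))) :=
  HoldsN.of_red (k := 16) (m := 16) (leaf ok2 (G537 _ rfl) (G345 _ rfl) (G700 _ rfl) (by decide +kernel))
theorem l205 : HoldsN X2 (Trg.left (Trg.right (Trg.left (Trg.right (Trg.left (chamberN 1 2)))))) (Trg.right (Trg.left (Trg.right (Trg.right (Trg.right (Trg.left (chamberNR 1 2))))))) :=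
  HoldsN.of_red (k := 16) (m := 16) (leaf ok2 (G503 _ rfl) (G390 _ rfl) (G683 _ rfl) (by decide +kernel))
theorem l206 : HoldsN X2 (Trg.right (Trg.right (Trg.left (Trg.right (Trg.left (chamberN 1 2)))))) (Trg.left (Trg.right (Trg.right (Trg.right (Trg.left (chamberNR 1 2)))))) :=
  HoldsN.of_red (k := 16) (m := 16) (leaf ok2 (G540 _ rfl) (G337 _ rfl) (G683 _ rfl) (by decide +kernel))
theorem l207 : HoldsN X2 (Trg.right (Trg.left (Trg.right (Trg.left (chamberN 1 2))))) (Trg.right (Trg.right (Trg.right (Trg.right (Trg.left (chamberNR 1 2)))))) :=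
  HoldsN.of_red (k := 16) (m := 16) (leaf ok2 (G540 _ rfl) (G278 _ rfl) (G730 _ rfl) (by decide +kernel))
theorem l208 : HoldsN X2 (Trg.left (Trg.right (Trg.right (Trg.left (chamberN 1 2))))) (Trg.left (Trg.right (Trg.left (chamberNR 1 2)))) :=
  HoldsN.of_red (k := 16) (m := 16) (leaf ok2 (G562 _ rfl) (G229 _ rfl) (G687 _ rfl) (by decide +kernel))
theorem l209 : HoldsN X2 (Trg.left (Trg.right (Trg.right (Trg.left (chamberN 1 2))))) (Trg.left (Trg.right (Trg.right (Trg.left (chamberNR 1 2))))) :=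
  HoldsN.of_red (k := 16) (m := 16) (leaf ok2 (G679 _ rfl) (G190 _ rfl) (G655 _ rfl) (by decide +kernel))

end Vale.Agent.Lib.P154N.D4
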