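import Vale.Agent.Lib.P154N.D4.Data
import Vale.Agent.Lib.P154N.Red

/-!
# Leaves of the tree of triangles
-/

namespace Vale.Agent.Lib.P154N.D4

open Vale.Agent.Lib.P154K Vale.Agent.Lib.P154Neg

theorem l210 : HoldsN X2 (Trg.left (Trg.right (Trg.right (Trg.left (chamberN 1 2))))) (Trg.right (Trg.right (Trg.right (Trg.left (chamberNR 1 2))))) :=
  HoldsN.of_red (k := 16) (m := 16) (leaf ok2 (G583 _ rfl) (G229 _ rfl) (G684 _ rfl) (by decide +kernel))
theorem l211 : HoldsN X2 (Trg.right (Trg.right (Trg.right (Trg.left (chamberN 1 2))))) (Trg.left (Trg.right (Trg.left (chamberNR 1 2)))) :=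
  HoldsN.of_red (k := 16) (m := 16) (leaf ok2 (G511 _ rfl) (G281 _ rfl) (G657 _ rfl) (by decide +kernel))
theorem l212 : HoldsN X2 (Trg.right (Trg.right (Trg.right (Trg.left (chamberN 1 2))))) (Trg.left (Trg.right (Trg.right (Trg.left (chamberNR 1 2))))) :=
  HoldsN.of_red (k := 16) (m := 16) (leaf ok2 (G583 _ rfl) (G229 _ rfl) (G684 _ rfl) (by decide +kernel))
theorem l213 : HoldsN X2 (Trg.right (Trg.right (Trg.right (Trg.left (chamberN 1 2))))) (Trg.right (Trg.right (Trg.right (Trg.left (chamberNR 1 2))))) :=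
  HoldsN.of_red (k := 16) (m := 16) (leaf ok2 (G552 _ rfl) (G281 _ rfl) (G655 _ rfl) (by decide +kernel))
theorem l214 : HoldsN X2 (Trg.left (chamberN 1 2)) (Trg.left (Trg.right (chamberNR 1 2))) :=
  HoldsN.of_red (k := 16) (m := 16) (leaf ok2 (G625 _ rfl) (G149 _ rfl) (G452 _ rfl) (by decide +kernel))
theorem l215 : HoldsN X2 (Trg.left (Trg.left (Trg.left (Trg.left (chamberN 1 2))))) (Trg.left (Trg.left (Trg.right (Trg.right (chamberNR 1 2))))) :=
  HoldsN.of_red (k := 16) (m := 16) (leaf ok2 (G628 _ rfl) (G371 _ rfl) (G549 _ rfl) (by decide +kernel))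
theorem l216 : HoldsN X2 (Trg.left (Trg.left (Trg.left (Trg.left (chamberN 1 2))))) (Trg.right (Trg.left (Trg.right (Trg.right (chamberNR 1 2))))) :=
  HoldsN.of_red (k := 16) (m := 16) (leaf ok2 (G591 _ rfl) (G424 _ rfl) (G577 _ rfl) (by decide +kernel))
theorem l217 : HoldsN X2 (Trg.left (Trg.right (Trg.left (Trg.left (Trg.left (chamberN 1 2)))))) (Trg.left (Trg.left (Trg.right (Trg.right (chamberNR 1 2))))) :=
  HoldsN.of_red (k := 16) (m := 16) (leaf ok2 (G690 _ rfl) (G309 _ rfl) (G507 _ rfl) (by decide +kernel))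
theorem l218 : HoldsN X2 (Trg.right (Trg.right (Trg.left (Trg.left (Trg.left (chamberN 1 2)))))) (Trg.left (Trg.left (Trg.right (Trg.right (chamberNR 1 2))))) :=
  HoldsN.of_red (k := 16) (m := 16) (leaf ok2 (G673 _ rfl) (G371 _ rfl) (G537 _ rfl) (by decide +kernel))
theorem l219 : HoldsN X2 (Trg.right (Trg.left (Trg.left (Trg.left (chamberN 1 2))))) (Trg.right (Trg.left (Trg.right (Trg.right (chamberNR 1 2))))) :=
  HoldsN.of_red (k := 16) (m := 16) (leaf ok2 (G600 _ rfl) (G367 _ rfl) (G548 _ rfl) (by decide +kernel))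

end Vale.Agent.Lib.P154N.D4
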