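import Vale.Agent.Lib.P154N.D4.Data
import Vale.Agent.Lib.P154N.Red

/-!
# Leaves of the tree of triangles
-/

namespace Vale.Agent.Lib.P154N.D4

open Vale.Agent.Lib.P154K Vale.Agent.Lib.P154Neg

theorem l220 : HoldsN X2 (Trg.left (Trg.left (Trg.left (Trg.left (chamberN 1 2))))) (Trg.right (Trg.right (Trg.right (chamberNR 1 2)))) :=
  HoldsN.of_red (k := 16) (m := 16) (leaf ok2 (G628 _ rfl) (G291 _ rfl) (G555 _ rfl) (by decide +kernel))
theorem l221 : HoldsN X2 (Trg.left (Trg.left (Trg.right (Trg.left (Trg.left (Trg.left (chamberN 1 2))))))) (Trg.left (Trg.left (Trg.right (Trg.right (Trg.right (chamberNR 1 2)))))) :=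
  HoldsN.of_red (k := 16) (m := 16) (leaf ok2 (G688 _ rfl) (G287 _ rfl) (G588 _ rfl) (by decide +kernel))
theorem l222 : HoldsN X2 (Trg.right (Trg.left (Trg.right (Trg.left (Trg.left (Trg.left (chamberN 1 2))))))) (Trg.left (Trg.left (Trg.left (Trg.right (Trg.right (Trg.right (chamberNR 1 2))))))) :=
  HoldsN.of_red (k := 16) (m := 16) (leaf ok2 (G770 _ rfl) (G246 _ rfl) (G586 _ rfl) (by decide +kernel))
theorem l223 : HoldsN X2 (Trg.right (Trg.left (Trg.right (Trg.left (Trg.left (Trg.left (chamberN 1 2))))))) (Trg.right (Trg.left (Trg.left (Trg.right (Trg.right (Trg.right (chamberNR 1 2))))))) :=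
  HoldsN.of_red (k := 16) (m := 16) (leaf ok2 (G715 _ rfl) (G259 _ rfl) (G586 _ rfl) (by decide +kernel))
theorem l224 : HoldsN X2 (Trg.left (Trg.right (Trg.left (Trg.left (Trg.left (chamberN 1 2)))))) (Trg.right (Trg.left (Trg.right (Trg.right (Trg.right (chamberNR 1 2)))))) :=
  HoldsN.of_red (k := 16) (m := 16) (leaf ok2 (G734 _ rfl) (G189 _ rfl) (G590 _ rfl) (by decide +kernel))
theorem l225 : HoldsN X2 (Trg.left (Trg.left (Trg.right (Trg.left (Trg.left (Trg.left (chamberN 1 2))))))) (Trg.right (Trg.right (Trg.right (Trg.right (chamberNR 1 2))))) :=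
  HoldsN.of_red (k := 16) (m := 16) (leaf ok2 (G688 _ rfl) (G287 _ rfl) (G537 _ rfl) (by decide +kernel))
theorem l226 : HoldsN X2 (Trg.right (Trg.left (Trg.right (Trg.left (Trg.left (Trg.left (chamberN 1 2))))))) (Trg.left (Trg.right (Trg.right (Trg.right (Trg.right (chamberNR 1 2)))))) :=
  HoldsN.of_red (k := 16) (m := 16) (leaf ok2 (G765 _ rfl) (G247 _ rfl) (G505 _ rfl) (by decide +kernel))
theorem l227 : HoldsN X2 (Trg.right (Trg.left (Trg.right (Trg.left (Trg.left (Trg.left (chamberN 1 2))))))) (Trg.left (Trg.right (Trg.right (Trg.right (Trg.right (Trg.right (chamberNR 1 2))))))) :=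
  HoldsN.of_red (k := 16) (m := 16) (leaf ok2 (G714 _ rfl) (G300 _ rfl) (G574 _ rfl) (by decide +kernel))
theorem l228 : HoldsN X2 (Trg.right (Trg.left (Trg.right (Trg.left (Trg.left (Trg.left (chamberN 1 2))))))) (Trg.right (Trg.right (Trg.right (Trg.right (Trg.right (Trg.right (chamberNR 1 2))))))) :=
  HoldsN.of_red (k := 16) (m := 16) (leaf ok2 (G765 _ rfl) (G247 _ rfl) (G572 _ rfl) (by decide +kernel))
theorem l229 : HoldsN X2 (Trg.right (Trg.right (Trg.left (Trg.left (Trg.left (chamberN 1 2)))))) (Trg.right (Trg.right (Trg.right (chamberNR 1 2)))) :=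
  HoldsN.of_red (k := 16) (m := 16) (leaf ok2 (G675 _ rfl) (G260 _ rfl) (G540 _ rfl) (by decide +kernel))

end Vale.Agent.Lib.P154N.D4
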