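import Vale.Agent.Lib.P154N.D4.Data
import Vale.Agent.Lib.P154N.Red

/-!
# Leaves of the tree of triangles
-/

namespace Vale.Agent.Lib.P154N.D4

open Vale.Agent.Lib.P154K Vale.Agent.Lib.P154Neg

theorem l230 : HoldsN X2 (Trg.right (Trg.left (Trg.left (chamberN 1 2)))) (Trg.left (Trg.left (Trg.right (Trg.right (chamberNR 1 2))))) :=
  HoldsN.of_red (k := 16) (m := 16) (leaf ok2 (G598 _ rfl) (G435 _ rfl) (G550 _ rfl) (by decide +kernel))
theorem l231 : HoldsN X2 (Trg.left (Trg.left (Trg.right (Trg.left (Trg.left (chamberN 1 2)))))) (Trg.right (Trg.left (Trg.right (Trg.right (chamberNR 1 2))))) :=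
  HoldsN.of_red (k := 16) (m := 16) (leaf ok2 (G591 _ rfl) (G463 _ rfl) (G573 _ rfl) (by decide +kernel))
theorem l232 : HoldsN X2 (Trg.right (Trg.left (Trg.right (Trg.left (Trg.left (chamberN 1 2)))))) (Trg.left (Trg.left (Trg.right (Trg.left (Trg.right (Trg.right (chamberNR 1 2))))))) :=
  HoldsN.of_red (k := 16) (m := 16) (leaf ok2 (G585 _ rfl) (G544 _ rfl) (G571 _ rfl) (by decide +kernel))
theorem l233 : HoldsN X2 (Trg.right (Trg.left (Trg.right (Trg.left (Trg.left (chamberN 1 2)))))) (Trg.right (Trg.left (Trg.right (Trg.left (Trg.right (Trg.right (chamberNR 1 2))))))) :=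
  HoldsN.of_red (k := 16) (m := 16) (leaf ok2 (G584 _ rfl) (G544 _ rfl) (G571 _ rfl) (by decide +kernel))
theorem l234 : HoldsN X2 (Trg.right (Trg.left (Trg.right (Trg.left (Trg.left (chamberN 1 2)))))) (Trg.right (Trg.right (Trg.left (Trg.right (Trg.right (chamberNR 1 2)))))) :=
  HoldsN.of_red (k := 16) (m := 16) (leaf ok2 (G585 _ rfl) (G502 _ rfl) (G573 _ rfl) (by decide +kernel))
theorem l235 : HoldsN X2 (Trg.right (Trg.right (Trg.left (Trg.left (chamberN 1 2))))) (Trg.right (Trg.left (Trg.right (Trg.right (chamberNR 1 2))))) :=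
  HoldsN.of_red (k := 16) (m := 16) (leaf ok2 (G591 _ rfl) (G463 _ rfl) (G577 _ rfl) (by decide +kernel))
theorem l236 : HoldsN X2 (Trg.right (Trg.left (Trg.left (chamberN 1 2)))) (Trg.right (Trg.right (Trg.right (chamberNR 1 2)))) :=
  HoldsN.of_red (k := 16) (m := 16) (leaf ok2 (G600 _ rfl) (G367 _ rfl) (G556 _ rfl) (by decide +kernel))
theorem l237 : HoldsN X2 (Trg.left (Trg.right (Trg.left (chamberN 1 2)))) (Trg.left (Trg.left (Trg.right (Trg.right (chamberNR 1 2))))) :=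
  HoldsN.of_red (k := 16) (m := 16) (leaf ok2 (G629 _ rfl) (G311 _ rfl) (G627 _ rfl) (by decide +kernel))
theorem l238 : HoldsN X2 (Trg.left (Trg.right (Trg.left (chamberN 1 2)))) (Trg.right (Trg.left (Trg.right (Trg.right (chamberNR 1 2))))) :=
  HoldsN.of_red (k := 16) (m := 16) (leaf ok2 (G592 _ rfl) (G375 _ rfl) (G594 _ rfl) (by decide +kernel))
theorem l239 : HoldsN X2 (Trg.left (Trg.right (Trg.right (Trg.left (chamberN 1 2))))) (Trg.left (Trg.left (Trg.right (Trg.right (chamberNR 1 2))))) :=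
  HoldsN.of_red (k := 16) (m := 16) (leaf ok2 (G690 _ rfl) (G309 _ rfl) (G510 _ rfl) (by decide +kernel))

end Vale.Agent.Lib.P154N.D4
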