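import Vale.Agent.Lib.P154N.D4.Data
import Vale.Agent.Lib.P154N.Red

/-!
# Leaves of the tree of triangles
-/

namespace Vale.Agent.Lib.P154N.D4

open Vale.Agent.Lib.P154K Vale.Agent.Lib.P154Neg

theorem l240 : HoldsN X2 (Trg.left (Trg.right (Trg.right (Trg.left (chamberN 1 2))))) (Trg.right (Trg.left (Trg.right (Trg.right (chamberNR 1 2))))) :=
  HoldsN.of_red (k := 16) (m := 16) (leaf ok2 (G600 _ rfl) (G367 _ rfl) (G551 _ rfl) (by decide +kernel))
theorem l241 : HoldsN X2 (Trg.right (Trg.right (Trg.right (Trg.left (chamberN 1 2))))) (Trg.left (Trg.left (Trg.right (Trg.right (chamberNR 1 2))))) :=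
  HoldsN.of_red (k := 16) (m := 16) (leaf ok2 (G629 _ rfl) (G311 _ rfl) (G588 _ rfl) (by decide +kernel))
theorem l242 : HoldsN X2 (Trg.right (Trg.right (Trg.right (Trg.left (chamberN 1 2))))) (Trg.right (Trg.left (Trg.right (Trg.right (chamberNR 1 2))))) :=
  HoldsN.of_red (k := 16) (m := 16) (leaf ok2 (G592 _ rfl) (G375 _ rfl) (G589 _ rfl) (by decide +kernel))
theorem l243 : HoldsN X2 (Trg.left (Trg.right (Trg.left (chamberN 1 2)))) (Trg.right (Trg.right (Trg.right (chamberNR 1 2)))) :=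
  HoldsN.of_red (k := 16) (m := 16) (leaf ok2 (G629 _ rfl) (G230 _ rfl) (G638 _ rfl) (by decide +kernel))
theorem l244 : HoldsN X2 (Trg.left (Trg.left (Trg.right (Trg.right (Trg.left (chamberN 1 2)))))) (Trg.left (Trg.left (Trg.right (Trg.right (Trg.right (chamberNR 1 2)))))) :=
  HoldsN.of_red (k := 16) (m := 16) (leaf ok2 (G689 _ rfl) (G248 _ rfl) (G644 _ rfl) (by decide +kernel))
theorem l245 : HoldsN X2 (Trg.left (Trg.right (Trg.left (Trg.right (Trg.right (Trg.left (chamberN 1 2))))))) (Trg.left (Trg.left (Trg.left (Trg.right (Trg.right (Trg.right (chamberNR 1 2))))))) :=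
  HoldsN.of_red (k := 16) (m := 16) (leaf ok2 (G770 _ rfl) (G245 _ rfl) (G590 _ rfl) (by decide +kernel))
theorem l246 : HoldsN X2 (Trg.left (Trg.right (Trg.left (Trg.right (Trg.right (Trg.left (chamberN 1 2))))))) (Trg.right (Trg.left (Trg.left (Trg.right (Trg.right (Trg.right (chamberNR 1 2))))))) :=
  HoldsN.of_red (k := 16) (m := 16) (leaf ok2 (G715 _ rfl) (G257 _ rfl) (G626 _ rfl) (by decide +kernel))
theorem l247 : HoldsN X2 (Trg.right (Trg.right (Trg.left (Trg.right (Trg.right (Trg.left (chamberN 1 2))))))) (Trg.left (Trg.left (Trg.right (Trg.right (Trg.right (chamberNR 1 2)))))) :=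
  HoldsN.of_red (k := 16) (m := 16) (leaf ok2 (G689 _ rfl) (G248 _ rfl) (G626 _ rfl) (by decide +kernel))
theorem l248 : HoldsN X2 (Trg.left (Trg.right (Trg.right (Trg.left (chamberN 1 2))))) (Trg.right (Trg.left (Trg.right (Trg.right (Trg.right (chamberNR 1 2)))))) :=
  HoldsN.of_red (k := 16) (m := 16) (leaf ok2 (G734 _ rfl) (G189 _ rfl) (G597 _ rfl) (by decide +kernel))
theorem l249 : HoldsN X2 (Trg.left (Trg.left (Trg.right (Trg.right (Trg.left (chamberN 1 2)))))) (Trg.right (Trg.right (Trg.right (Trg.right (chamberNR 1 2))))) :=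
  HoldsN.of_red (k := 16) (m := 16) (leaf ok2 (G689 _ rfl) (G248 _ rfl) (G579 _ rfl) (by decide +kernel))

end Vale.Agent.Lib.P154N.D4
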