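import Vale.Agent.Lib.P154N.D4.Data
import Vale.Agent.Lib.P154N.Red

/-!
# Leaves of the tree of triangles
-/

namespace Vale.Agent.Lib.P154N.D4

open Vale.Agent.Lib.P154K Vale.Agent.Lib.P154Neg

theorem l250 : HoldsN X2 (Trg.left (Trg.right (Trg.left (Trg.right (Trg.right (Trg.left (chamberN 1 2))))))) (Trg.left (Trg.right (Trg.right (Trg.right (Trg.right (chamberNR 1 2)))))) :=
  HoldsN.of_red (k := 16) (m := 16) (leaf ok2 (G770 _ rfl) (G246 _ rfl) (G507 _ rfl) (by decide +kernel))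
theorem l251 : HoldsN X2 (Trg.left (Trg.right (Trg.left (Trg.right (Trg.right (Trg.left (chamberN 1 2))))))) (Trg.left (Trg.right (Trg.right (Trg.right (Trg.right (Trg.right (chamberNR 1 2))))))) :=
  HoldsN.of_red (k := 16) (m := 16) (leaf ok2 (G714 _ rfl) (G299 _ rfl) (G576 _ rfl) (by decide +kernel))
theorem l252 : HoldsN X2 (Trg.left (Trg.right (Trg.left (Trg.right (Trg.right (Trg.left (chamberN 1 2))))))) (Trg.right (Trg.right (Trg.right (Trg.right (Trg.right (Trg.right (chamberNR 1 2))))))) :=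
  HoldsN.of_red (k := 16) (m := 16) (leaf ok2 (G770 _ rfl) (G246 _ rfl) (G576 _ rfl) (by decide +kernel))
theorem l253 : HoldsN X2 (Trg.right (Trg.right (Trg.left (Trg.right (Trg.right (Trg.left (chamberN 1 2))))))) (Trg.right (Trg.right (Trg.right (Trg.right (chamberNR 1 2))))) :=
  HoldsN.of_red (k := 16) (m := 16) (leaf ok2 (G689 _ rfl) (G248 _ rfl) (G549 _ rfl) (by decide +kernel))
theorem l254 : HoldsN X2 (Trg.right (Trg.right (Trg.right (Trg.left (chamberN 1 2))))) (Trg.right (Trg.right (Trg.right (chamberNR 1 2)))) :=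
  HoldsN.of_red (k := 16) (m := 16) (leaf ok2 (G629 _ rfl) (G230 _ rfl) (G597 _ rfl) (by decide +kernel))
theorem l255 : HoldsN X2 (Trg.left (Trg.left (Trg.right (chamberN 1 2)))) (Trg.left (Trg.left (Trg.left (Trg.left (chamberNR 1 2))))) :=
  HoldsN.of_red (k := 16) (m := 16) (leaf ok2 (G639 _ rfl) (G249 _ rfl) (G555 _ rfl) (by decide +kernel))
theorem l256 : HoldsN X2 (Trg.left (Trg.left (Trg.left (Trg.left (Trg.right (chamberN 1 2)))))) (Trg.right (Trg.left (Trg.left (Trg.left (chamberNR 1 2))))) :=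
  HoldsN.of_red (k := 16) (m := 16) (leaf ok2 (G757 _ rfl) (G165 _ rfl) (G537 _ rfl) (by decide +kernel))
theorem l257 : HoldsN X2 (Trg.right (Trg.left (Trg.left (Trg.left (Trg.right (chamberN 1 2)))))) (Trg.right (Trg.left (Trg.left (Trg.left (chamberNR 1 2))))) :=
  HoldsN.of_red (k := 16) (m := 16) (leaf ok2 (G752 _ rfl) (G227 _ rfl) (G507 _ rfl) (by decide +kernel))
theorem l258 : HoldsN X2 (Trg.right (Trg.left (Trg.left (Trg.right (chamberN 1 2))))) (Trg.left (Trg.right (Trg.left (Trg.left (Trg.left (chamberNR 1 2)))))) :=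
  HoldsN.of_red (k := 16) (m := 16) (leaf ok2 (G777 _ rfl) (G162 _ rfl) (G552 _ rfl) (by decide +kernel))
theorem l259 : HoldsN X2 (Trg.right (Trg.left (Trg.left (Trg.right (chamberN 1 2))))) (Trg.right (Trg.right (Trg.left (Trg.left (Trg.left (chamberNR 1 2)))))) :=
  HoldsN.of_red (k := 16) (m := 16) (leaf ok2 (G750 _ rfl) (G237 _ rfl) (G552 _ rfl) (by decide +kernel))

end Vale.Agent.Lib.P154N.D4
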