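import Vale.Agent.Lib.P154N.D4.Data
import Vale.Agent.Lib.P154N.Red

/-!
# Leaves of the tree of triangles
-/

namespace Vale.Agent.Lib.P154N.D4

open Vale.Agent.Lib.P154K Vale.Agent.Lib.P154Neg

theorem l260 : HoldsN X2 (Trg.left (Trg.right (Trg.left (Trg.right (chamberN 1 2))))) (Trg.left (Trg.left (Trg.left (chamberNR 1 2)))) :=
  HoldsN.of_red (k := 16) (m := 16) (leaf ok2 (G682 _ rfl) (G142 _ rfl) (G447 _ rfl) (by decide +kernel))
theorem l261 : HoldsN X2 (Trg.right (Trg.right (Trg.left (Trg.right (chamberN 1 2))))) (Trg.left (Trg.left (Trg.left (Trg.left (chamberNR 1 2))))) :=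
  HoldsN.of_red (k := 16) (m := 16) (leaf ok2 (G658 _ rfl) (G249 _ rfl) (G542 _ rfl) (by decide +kernel))
theorem l262 : HoldsN X2 (Trg.left (Trg.right (Trg.right (Trg.left (Trg.right (chamberN 1 2)))))) (Trg.right (Trg.left (Trg.left (Trg.left (chamberNR 1 2))))) :=
  HoldsN.of_red (k := 16) (m := 16) (leaf ok2 (G756 _ rfl) (G212 _ rfl) (G476 _ rfl) (by decide +kernel))
theorem l263 : HoldsN X2 (Trg.right (Trg.right (Trg.right (Trg.left (Trg.right (chamberN 1 2)))))) (Trg.right (Trg.left (Trg.left (Trg.left (chamberNR 1 2))))) :=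
  HoldsN.of_red (k := 16) (m := 16) (leaf ok2 (G777 _ rfl) (G164 _ rfl) (G477 _ rfl) (by decide +kernel))
theorem l264 : HoldsN X2 (Trg.left (Trg.right (chamberN 1 2))) (Trg.right (Trg.left (Trg.left (chamberNR 1 2)))) :=
  HoldsN.of_red (k := 16) (m := 16) (leaf ok2 (G614 _ rfl) (G316 _ rfl) (G515 _ rfl) (by decide +kernel))
theorem l265 : HoldsN X2 (Trg.left (Trg.left (Trg.right (chamberN 1 2)))) (Trg.left (Trg.right (Trg.left (chamberNR 1 2)))) :=
  HoldsN.of_red (k := 16) (m := 16) (leaf ok2 (G640 _ rfl) (G173 _ rfl) (G638 _ rfl) (by decide +kernel))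
theorem l266 : HoldsN X2 (Trg.left (Trg.left (Trg.right (chamberN 1 2)))) (Trg.left (Trg.right (Trg.right (Trg.left (chamberNR 1 2))))) :=
  HoldsN.of_red (k := 16) (m := 16) (leaf ok2 (G777 _ rfl) (G163 _ rfl) (G516 _ rfl) (by decide +kernel))
theorem l267 : HoldsN X2 (Trg.left (Trg.left (Trg.right (chamberN 1 2)))) (Trg.right (Trg.right (Trg.right (Trg.left (chamberNR 1 2))))) :=
  HoldsN.of_red (k := 16) (m := 16) (leaf ok2 (G640 _ rfl) (G173 _ rfl) (G597 _ rfl) (by decide +kernel))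
theorem l268 : HoldsN X2 (Trg.left (Trg.right (Trg.left (Trg.right (chamberN 1 2))))) (Trg.right (Trg.left (chamberNR 1 2))) :=
  HoldsN.of_red (k := 16) (m := 16) (leaf ok2 (G682 _ rfl) (G142 _ rfl) (G451 _ rfl) (by decide +kernel))
theorem l269 : HoldsN X2 (Trg.right (Trg.right (Trg.left (Trg.right (chamberN 1 2))))) (Trg.left (Trg.right (Trg.left (chamberNR 1 2)))) :=
  HoldsN.of_red (k := 16) (m := 16) (leaf ok2 (G660 _ rfl) (G173 _ rfl) (G638 _ rfl) (by decide +kernel))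

end Vale.Agent.Lib.P154N.D4
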