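import Vale.Agent.Lib.P154N.D4.Data
import Vale.Agent.Lib.P154N.Red

/-!
# Leaves of the tree of triangles
-/

namespace Vale.Agent.Lib.P154N.D4

open Vale.Agent.Lib.P154K Vale.Agent.Lib.P154Neg

theorem l270 : HoldsN X2 (Trg.right (Trg.right (Trg.left (Trg.right (chamberN 1 2))))) (Trg.left (Trg.right (Trg.right (Trg.left (chamberNR 1 2))))) :=
  HoldsN.of_red (k := 16) (m := 16) (leaf ok2 (G777 _ rfl) (G163 _ rfl) (G482 _ rfl) (by decide +kernel))
theorem l271 : HoldsN X2 (Trg.right (Trg.right (Trg.left (Trg.right (chamberN 1 2))))) (Trg.right (Trg.right (Trg.right (Trg.left (chamberNR 1 2))))) :=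
  HoldsN.of_red (k := 16) (m := 16) (leaf ok2 (G660 _ rfl) (G173 _ rfl) (G593 _ rfl) (by decide +kernel))
theorem l272 : HoldsN X2 (Trg.left (Trg.left (Trg.right (chamberN 1 2)))) (Trg.left (Trg.right (chamberNR 1 2))) :=
  HoldsN.of_red (k := 16) (m := 16) (leaf ok2 (G829 _ rfl) (G146 _ rfl) (G269 _ rfl) (by decide +kernel))
theorem l273 : HoldsN X2 (Trg.left (Trg.right (Trg.left (Trg.right (chamberN 1 2))))) (Trg.left (Trg.left (Trg.left (Trg.left (Trg.right (chamberNR 1 2)))))) :=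
  HoldsN.of_red (k := 16) (m := 16) (leaf ok2 (G891 _ rfl) (G137 _ rfl) (G260 _ rfl) (by decide +kernel))
theorem l274 : HoldsN X2 (Trg.left (Trg.left (Trg.right (Trg.left (Trg.right (chamberN 1 2)))))) (Trg.right (Trg.left (Trg.left (Trg.left (Trg.right (chamberNR 1 2)))))) :=
  HoldsN.of_red (k := 16) (m := 16) (leaf ok2 (G874 _ rfl) (G209 _ rfl) (G335 _ rfl) (by decide +kernel))
theorem l275 : HoldsN X2 (Trg.left (Trg.right (Trg.left (Trg.right (Trg.left (Trg.right (chamberN 1 2))))))) (Trg.left (Trg.right (Trg.left (Trg.left (Trg.left (Trg.right (chamberNR 1 2))))))) :=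
  HoldsN.of_red (k := 16) (m := 16) (leaf ok2 (G898 _ rfl) (G207 _ rfl) (G285 _ rfl) (by decide +kernel))
theorem l276 : HoldsN X2 (Trg.left (Trg.right (Trg.left (Trg.right (Trg.left (Trg.right (chamberN 1 2))))))) (Trg.right (Trg.right (Trg.left (Trg.left (Trg.left (Trg.right (chamberNR 1 2))))))) :=
  HoldsN.of_red (k := 16) (m := 16) (leaf ok2 (G902 _ rfl) (G204 _ rfl) (G287 _ rfl) (by decide +kernel))
theorem l277 : HoldsN X2 (Trg.right (Trg.right (Trg.left (Trg.right (Trg.left (Trg.right (chamberN 1 2))))))) (Trg.right (Trg.left (Trg.left (Trg.left (Trg.right (chamberNR 1 2)))))) :=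
  HoldsN.of_red (k := 16) (m := 16) (leaf ok2 (G874 _ rfl) (G209 _ rfl) (G307 _ rfl) (by decide +kernel))
theorem l278 : HoldsN X2 (Trg.left (Trg.right (Trg.left (Trg.right (chamberN 1 2))))) (Trg.right (Trg.left (Trg.left (Trg.right (chamberNR 1 2))))) :=
  HoldsN.of_red (k := 16) (m := 16) (leaf ok2 (G891 _ rfl) (G137 _ rfl) (G264 _ rfl) (by decide +kernel))
theorem l279 : HoldsN X2 (Trg.left (Trg.left (Trg.right (Trg.left (Trg.right (chamberN 1 2)))))) (Trg.left (Trg.right (Trg.left (Trg.right (chamberNR 1 2))))) :=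
  HoldsN.of_red (k := 16) (m := 16) (leaf ok2 (G941 _ rfl) (G137 _ rfl) (G191 _ rfl) (by decide +kernel))

end Vale.Agent.Lib.P154N.D4
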