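import Vale.Agent.Lib.P154N.D4.Data
import Vale.Agent.Lib.P154N.Red

/-!
# Leaves of the tree of triangles
-/

namespace Vale.Agent.Lib.P154N.D4

open Vale.Agent.Lib.P154K Vale.Agent.Lib.P154Neg

theorem l30 : HoldsN X2 (Trg.left (chamberN 1 2)) (Trg.left (Trg.right (chamberN 1 2))) :=
  HoldsN.of_red (k := 16) (m := 16) (leaf ok2 (G625 _ rfl) (G149 _ rfl) (G360 _ rfl) (by decide +kernel))
theorem l31 : HoldsN X2 (Trg.left (Trg.left (Trg.left (Trg.left (chamberN 1 2))))) (Trg.left (Trg.left (Trg.right (Trg.right (chamberN 1 2))))) :=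
  HoldsN.of_red (k := 16) (m := 16) (leaf ok2 (G635 _ rfl) (G372 _ rfl) (G508 _ rfl) (by decide +kernel))
theorem l32 : HoldsN X2 (Trg.left (Trg.left (Trg.left (Trg.left (chamberN 1 2))))) (Trg.right (Trg.left (Trg.right (Trg.right (chamberN 1 2))))) :=
  HoldsN.of_red (k := 16) (m := 16) (leaf ok2 (G596 _ rfl) (G474 _ rfl) (G506 _ rfl) (by decide +kernel))
theorem l33 : HoldsN X2 (Trg.right (Trg.left (Trg.left (Trg.left (chamberN 1 2))))) (Trg.left (Trg.left (Trg.right (Trg.right (chamberN 1 2))))) :=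
  HoldsN.of_red (k := 16) (m := 16) (leaf ok2 (G677 _ rfl) (G312 _ rfl) (G462 _ rfl) (by decide +kernel))
theorem l34 : HoldsN X2 (Trg.right (Trg.left (Trg.left (Trg.left (chamberN 1 2))))) (Trg.right (Trg.left (Trg.right (Trg.right (chamberN 1 2))))) :=
  HoldsN.of_red (k := 16) (m := 16) (leaf ok2 (G606 _ rfl) (G435 _ rfl) (G463 _ rfl) (by decide +kernel))
theorem l35 : HoldsN X2 (Trg.left (Trg.left (Trg.left (chamberN 1 2)))) (Trg.right (Trg.right (Trg.right (chamberN 1 2)))) :=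
  HoldsN.of_red (k := 16) (m := 16) (leaf ok2 (G664 _ rfl) (G312 _ rfl) (G353 _ rfl) (by decide +kernel))
theorem l36 : HoldsN X2 (Trg.right (Trg.left (Trg.left (chamberN 1 2)))) (Trg.left (Trg.left (Trg.right (Trg.right (chamberN 1 2))))) :=
  HoldsN.of_red (k := 16) (m := 16) (leaf ok2 (G598 _ rfl) (G435 _ rfl) (G509 _ rfl) (by decide +kernel))
theorem l37 : HoldsN X2 (Trg.left (Trg.left (Trg.right (Trg.left (Trg.left (chamberN 1 2)))))) (Trg.right (Trg.left (Trg.right (Trg.right (chamberN 1 2))))) :=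
  HoldsN.of_red (k := 16) (m := 16) (leaf ok2 (G592 _ rfl) (G502 _ rfl) (G504 _ rfl) (by decide +kernel))
theorem l38 : HoldsN X2 (Trg.right (Trg.left (Trg.right (Trg.left (Trg.left (chamberN 1 2)))))) (Trg.left (Trg.left (Trg.right (Trg.left (Trg.right (Trg.right (chamberN 1 2))))))) :=
  HoldsN.of_red (k := 16) (m := 16) (leaf ok2 (G585 _ rfl) (G544 _ rfl) (G571 _ rfl) (by decide +kernel))
theorem l39 : HoldsN X2 (Trg.right (Trg.left (Trg.right (Trg.left (Trg.left (chamberN 1 2)))))) (Trg.right (Trg.left (Trg.right (Trg.left (Trg.right (Trg.right (chamberN 1 2))))))) :=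
  HoldsN.of_red (k := 16) (m := 16) (leaf ok2 (G584 _ rfl) (G544 _ rfl) (G571 _ rfl) (by decide +kernel))

end Vale.Agent.Lib.P154N.D4
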