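import Vale.Agent.Lib.P154N.D4.Data
import Vale.Agent.Lib.P154N.Red

/-!
# Leaves of the tree of triangles
-/

namespace Vale.Agent.Lib.P154N.D4

open Vale.Agent.Lib.P154K Vale.Agent.Lib.P154Neg

theorem l300 : HoldsN X2 (Trg.left (Trg.left (Trg.left (Trg.left (Trg.left (Trg.right (chamberN 1 2))))))) (Trg.left (Trg.right (Trg.left (Trg.left (Trg.right (Trg.right (chamberNR 1 2))))))) :=
  HoldsN.of_red (k := 16) (m := 16) (leaf ok2 (G789 _ rfl) (G343 _ rfl) (G420 _ rfl) (by decide +kernel))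
theorem l301 : HoldsN X2 (Trg.left (Trg.left (Trg.left (Trg.left (Trg.left (Trg.right (chamberN 1 2))))))) (Trg.right (Trg.right (Trg.left (Trg.left (Trg.right (Trg.right (chamberNR 1 2))))))) :=
  HoldsN.of_red (k := 16) (m := 16) (leaf ok2 (G731 _ rfl) (G345 _ rfl) (G459 _ rfl) (by decide +kernel))
theorem l302 : HoldsN X2 (Trg.right (Trg.left (Trg.left (Trg.left (Trg.left (Trg.right (chamberN 1 2))))))) (Trg.left (Trg.left (Trg.left (Trg.right (Trg.right (chamberNR 1 2)))))) :=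
  HoldsN.of_red (k := 16) (m := 16) (leaf ok2 (G747 _ rfl) (G309 _ rfl) (G473 _ rfl) (by decide +kernel))
theorem l303 : HoldsN X2 (Trg.right (Trg.left (Trg.left (Trg.left (Trg.left (Trg.right (chamberN 1 2))))))) (Trg.left (Trg.right (Trg.left (Trg.left (Trg.right (Trg.right (chamberNR 1 2))))))) :=
  HoldsN.of_red (k := 16) (m := 16) (leaf ok2 (G808 _ rfl) (G307 _ rfl) (G400 _ rfl) (by decide +kernel))
theorem l304 : HoldsN X2 (Trg.right (Trg.left (Trg.left (Trg.left (Trg.left (Trg.right (chamberN 1 2))))))) (Trg.right (Trg.right (Trg.left (Trg.left (Trg.right (Trg.right (chamberNR 1 2))))))) :=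
  HoldsN.of_red (k := 16) (m := 16) (leaf ok2 (G747 _ rfl) (G309 _ rfl) (G430 _ rfl) (by decide +kernel))
theorem l305 : HoldsN X2 (Trg.right (Trg.left (Trg.left (Trg.left (Trg.right (chamberN 1 2)))))) (Trg.left (Trg.left (Trg.left (Trg.right (Trg.right (chamberNR 1 2)))))) :=
  HoldsN.of_red (k := 16) (m := 16) (leaf ok2 (G715 _ rfl) (G371 _ rfl) (G473 _ rfl) (by decide +kernel))
theorem l306 : HoldsN X2 (Trg.right (Trg.left (Trg.left (Trg.left (Trg.right (chamberN 1 2)))))) (Trg.left (Trg.right (Trg.left (Trg.left (Trg.right (Trg.right (chamberNR 1 2))))))) :=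
  HoldsN.of_red (k := 16) (m := 16) (leaf ok2 (G770 _ rfl) (G369 _ rfl) (G420 _ rfl) (by decide +kernel))
theorem l307 : HoldsN X2 (Trg.right (Trg.left (Trg.left (Trg.left (Trg.right (chamberN 1 2)))))) (Trg.right (Trg.right (Trg.left (Trg.left (Trg.right (Trg.right (chamberNR 1 2))))))) :=
  HoldsN.of_red (k := 16) (m := 16) (leaf ok2 (G715 _ rfl) (G371 _ rfl) (G459 _ rfl) (by decide +kernel))
theorem l308 : HoldsN X2 (Trg.left (Trg.right (Trg.left (Trg.left (Trg.right (chamberN 1 2)))))) (Trg.left (Trg.left (Trg.left (Trg.right (Trg.right (chamberNR 1 2)))))) :=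
  HoldsN.of_red (k := 16) (m := 16) (leaf ok2 (G732 _ rfl) (G335 _ rfl) (G505 _ rfl) (by decide +kernel))
theorem l309 : HoldsN X2 (Trg.left (Trg.right (Trg.left (Trg.left (Trg.right (chamberN 1 2)))))) (Trg.right (Trg.left (Trg.left (Trg.right (Trg.right (chamberNR 1 2)))))) :=
  HoldsN.of_red (k := 16) (m := 16) (leaf ok2 (G735 _ rfl) (G309 _ rfl) (G461 _ rfl) (by decide +kernel))

end Vale.Agent.Lib.P154N.D4
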