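import Vale.Agent.Lib.P154N.D4.Data
import Vale.Agent.Lib.P154N.Red

/-!
# Leaves of the tree of triangles
-/

namespace Vale.Agent.Lib.P154N.D4

open Vale.Agent.Lib.P154K Vale.Agent.Lib.P154Neg

theorem l310 : HoldsN X2 (Trg.left (Trg.right (Trg.right (Trg.left (Trg.left (Trg.right (chamberN 1 2))))))) (Trg.left (Trg.left (Trg.right (Trg.right (chamberNR 1 2))))) :=
  HoldsN.of_red (k := 16) (m := 16) (leaf ok2 (G767 _ rfl) (G308 _ rfl) (G405 _ rfl) (by decide +kernel))
theorem l311 : HoldsN X2 (Trg.right (Trg.right (Trg.right (Trg.left (Trg.left (Trg.right (chamberN 1 2))))))) (Trg.left (Trg.left (Trg.left (Trg.right (Trg.right (chamberNR 1 2)))))) :=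
  HoldsN.of_red (k := 16) (m := 16) (leaf ok2 (G732 _ rfl) (G335 _ rfl) (G492 _ rfl) (by decide +kernel))
theorem l312 : HoldsN X2 (Trg.right (Trg.right (Trg.right (Trg.left (Trg.left (Trg.right (chamberN 1 2))))))) (Trg.right (Trg.left (Trg.left (Trg.right (Trg.right (chamberNR 1 2)))))) :=
  HoldsN.of_red (k := 16) (m := 16) (leaf ok2 (G735 _ rfl) (G309 _ rfl) (G431 _ rfl) (by decide +kernel))
theorem l313 : HoldsN X2 (Trg.left (Trg.left (Trg.right (chamberN 1 2)))) (Trg.right (Trg.left (Trg.right (Trg.right (chamberNR 1 2))))) :=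
  HoldsN.of_red (k := 16) (m := 16) (leaf ok2 (G608 _ rfl) (G340 _ rfl) (G495 _ rfl) (by decide +kernel))
theorem l314 : HoldsN X2 (Trg.left (Trg.left (Trg.right (Trg.left (Trg.right (chamberN 1 2)))))) (Trg.left (Trg.left (Trg.left (Trg.right (Trg.right (chamberNR 1 2)))))) :=
  HoldsN.of_red (k := 16) (m := 16) (leaf ok2 (G772 _ rfl) (G309 _ rfl) (G433 _ rfl) (by decide +kernel))
theorem l315 : HoldsN X2 (Trg.left (Trg.left (Trg.right (Trg.left (Trg.right (chamberN 1 2)))))) (Trg.left (Trg.right (Trg.left (Trg.left (Trg.right (Trg.right (chamberNR 1 2))))))) :=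
  HoldsN.of_red (k := 16) (m := 16) (leaf ok2 (G835 _ rfl) (G307 _ rfl) (G362 _ rfl) (by decide +kernel))
theorem l316 : HoldsN X2 (Trg.left (Trg.left (Trg.right (Trg.left (Trg.right (chamberN 1 2)))))) (Trg.right (Trg.right (Trg.left (Trg.left (Trg.right (Trg.right (chamberNR 1 2))))))) :=
  HoldsN.of_red (k := 16) (m := 16) (leaf ok2 (G772 _ rfl) (G309 _ rfl) (G399 _ rfl) (by decide +kernel))
theorem l317 : HoldsN X2 (Trg.left (Trg.right (Trg.left (Trg.right (Trg.left (Trg.right (chamberN 1 2))))))) (Trg.left (Trg.left (Trg.right (Trg.right (chamberNR 1 2))))) :=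
  HoldsN.of_red (k := 16) (m := 16) (leaf ok2 (G799 _ rfl) (G308 _ rfl) (G313 _ rfl) (by decide +kernel))
theorem l318 : HoldsN X2 (Trg.right (Trg.right (Trg.left (Trg.right (Trg.left (Trg.right (chamberN 1 2))))))) (Trg.left (Trg.left (Trg.left (Trg.right (Trg.right (chamberNR 1 2)))))) :=
  HoldsN.of_red (k := 16) (m := 16) (leaf ok2 (G772 _ rfl) (G309 _ rfl) (G421 _ rfl) (by decide +kernel))
theorem l319 : HoldsN X2 (Trg.right (Trg.right (Trg.left (Trg.right (Trg.left (Trg.right (chamberN 1 2))))))) (Trg.left (Trg.right (Trg.left (Trg.left (Trg.right (Trg.right (chamberNR 1 2))))))) :=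
  HoldsN.of_red (k := 16) (m := 16) (leaf ok2 (G835 _ rfl) (G307 _ rfl) (G344 _ rfl) (by decide +kernel))

end Vale.Agent.Lib.P154N.D4
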