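import Vale.Agent.Lib.P154N.D4.Data
import Vale.Agent.Lib.P154N.Red

/-!
# Leaves of the tree of triangles
-/

namespace Vale.Agent.Lib.P154N.D4

open Vale.Agent.Lib.P154K Vale.Agent.Lib.P154Neg

theorem l320 : HoldsN X2 (Trg.right (Trg.right (Trg.left (Trg.right (Trg.left (Trg.right (chamberN 1 2))))))) (Trg.right (Trg.right (Trg.left (Trg.left (Trg.right (Trg.right (chamberNR 1 2))))))) :=
  HoldsN.of_red (k := 16) (m := 16) (leaf ok2 (G772 _ rfl) (G309 _ rfl) (G388 _ rfl) (by decide +kernel))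
theorem l321 : HoldsN X2 (Trg.left (Trg.right (Trg.left (Trg.right (chamberN 1 2))))) (Trg.right (Trg.left (Trg.right (Trg.right (chamberNR 1 2))))) :=
  HoldsN.of_red (k := 16) (m := 16) (leaf ok2 (G614 _ rfl) (G316 _ rfl) (G435 _ rfl) (by decide +kernel))
theorem l322 : HoldsN X2 (Trg.left (Trg.left (Trg.right (Trg.right (Trg.left (Trg.right (chamberN 1 2))))))) (Trg.left (Trg.left (Trg.left (Trg.right (Trg.right (chamberNR 1 2)))))) :=
  HoldsN.of_red (k := 16) (m := 16) (leaf ok2 (G746 _ rfl) (G370 _ rfl) (G433 _ rfl) (by decide +kernel))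
theorem l323 : HoldsN X2 (Trg.left (Trg.left (Trg.right (Trg.right (Trg.left (Trg.right (chamberN 1 2))))))) (Trg.left (Trg.right (Trg.left (Trg.left (Trg.right (Trg.right (chamberNR 1 2))))))) :=
  HoldsN.of_red (k := 16) (m := 16) (leaf ok2 (G806 _ rfl) (G368 _ rfl) (G370 _ rfl) (by decide +kernel))
theorem l324 : HoldsN X2 (Trg.left (Trg.left (Trg.right (Trg.right (Trg.left (Trg.right (chamberN 1 2))))))) (Trg.right (Trg.right (Trg.left (Trg.left (Trg.right (Trg.right (chamberNR 1 2))))))) :=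
  HoldsN.of_red (k := 16) (m := 16) (leaf ok2 (G746 _ rfl) (G370 _ rfl) (G419 _ rfl) (by decide +kernel))
theorem l325 : HoldsN X2 (Trg.right (Trg.left (Trg.right (Trg.right (Trg.left (Trg.right (chamberN 1 2))))))) (Trg.left (Trg.left (Trg.left (Trg.right (Trg.right (chamberNR 1 2)))))) :=
  HoldsN.of_red (k := 16) (m := 16) (leaf ok2 (G715 _ rfl) (G371 _ rfl) (G461 _ rfl) (by decide +kernel))
theorem l326 : HoldsN X2 (Trg.right (Trg.left (Trg.right (Trg.right (Trg.left (Trg.right (chamberN 1 2))))))) (Trg.left (Trg.right (Trg.left (Trg.left (Trg.right (Trg.right (chamberNR 1 2))))))) :=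
  HoldsN.of_red (k := 16) (m := 16) (leaf ok2 (G770 _ rfl) (G369 _ rfl) (G399 _ rfl) (by decide +kernel))
theorem l327 : HoldsN X2 (Trg.right (Trg.left (Trg.right (Trg.right (Trg.left (Trg.right (chamberN 1 2))))))) (Trg.right (Trg.right (Trg.left (Trg.left (Trg.right (Trg.right (chamberNR 1 2))))))) :=
  HoldsN.of_red (k := 16) (m := 16) (leaf ok2 (G715 _ rfl) (G371 _ rfl) (G430 _ rfl) (by decide +kernel))
theorem l328 : HoldsN X2 (Trg.right (Trg.right (Trg.right (Trg.left (Trg.right (chamberN 1 2)))))) (Trg.left (Trg.left (Trg.left (Trg.right (Trg.right (chamberNR 1 2)))))) :=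
  HoldsN.of_red (k := 16) (m := 16) (leaf ok2 (G747 _ rfl) (G309 _ rfl) (G433 _ rfl) (by decide +kernel))
theorem l329 : HoldsN X2 (Trg.right (Trg.right (Trg.right (Trg.left (Trg.right (chamberN 1 2)))))) (Trg.left (Trg.right (Trg.left (Trg.left (Trg.right (Trg.right (chamberNR 1 2))))))) :=
  HoldsN.of_red (k := 16) (m := 16) (leaf ok2 (G808 _ rfl) (G307 _ rfl) (G370 _ rfl) (by decide +kernel))

end Vale.Agent.Lib.P154N.D4
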