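import Vale.Agent.Lib.P154N.D4.Data
import Vale.Agent.Lib.P154N.Red

/-!
# Leaves of the tree of triangles
-/

namespace Vale.Agent.Lib.P154N.D4

open Vale.Agent.Lib.P154K Vale.Agent.Lib.P154Neg

theorem l330 : HoldsN X2 (Trg.right (Trg.right (Trg.right (Trg.left (Trg.right (chamberN 1 2)))))) (Trg.right (Trg.right (Trg.left (Trg.left (Trg.right (Trg.right (chamberNR 1 2))))))) :=
  HoldsN.of_red (k := 16) (m := 16) (leaf ok2 (G747 _ rfl) (G309 _ rfl) (G419 _ rfl) (by decide +kernel))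
theorem l331 : HoldsN X2 (Trg.right (Trg.right (Trg.left (Trg.right (chamberN 1 2))))) (Trg.right (Trg.left (Trg.right (Trg.right (chamberNR 1 2))))) :=
  HoldsN.of_red (k := 16) (m := 16) (leaf ok2 (G608 _ rfl) (G340 _ rfl) (G474 _ rfl) (by decide +kernel))
theorem l332 : HoldsN X2 (Trg.left (Trg.left (Trg.left (Trg.left (Trg.right (chamberN 1 2)))))) (Trg.left (Trg.right (Trg.right (Trg.right (chamberNR 1 2))))) :=
  HoldsN.of_red (k := 16) (m := 16) (leaf ok2 (G757 _ rfl) (G165 _ rfl) (G473 _ rfl) (by decide +kernel))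
theorem l333 : HoldsN X2 (Trg.left (Trg.left (Trg.left (Trg.left (Trg.left (Trg.right (chamberN 1 2))))))) (Trg.right (Trg.right (Trg.right (Trg.right (chamberNR 1 2))))) :=
  HoldsN.of_red (k := 16) (m := 16) (leaf ok2 (G750 _ rfl) (G258 _ rfl) (G423 _ rfl) (by decide +kernel))
theorem l334 : HoldsN X2 (Trg.right (Trg.left (Trg.left (Trg.left (Trg.left (Trg.right (chamberN 1 2))))))) (Trg.right (Trg.right (Trg.right (Trg.right (chamberNR 1 2))))) :=
  HoldsN.of_red (k := 16) (m := 16) (leaf ok2 (G775 _ rfl) (G225 _ rfl) (G403 _ rfl) (by decide +kernel))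
theorem l335 : HoldsN X2 (Trg.right (Trg.left (Trg.left (Trg.left (Trg.right (chamberN 1 2)))))) (Trg.right (Trg.right (Trg.right (chamberNR 1 2)))) :=
  HoldsN.of_red (k := 16) (m := 16) (leaf ok2 (G752 _ rfl) (G227 _ rfl) (G423 _ rfl) (by decide +kernel))
theorem l336 : HoldsN X2 (Trg.left (Trg.right (Trg.left (Trg.left (Trg.right (chamberN 1 2)))))) (Trg.left (Trg.left (Trg.left (Trg.right (Trg.right (Trg.right (chamberNR 1 2))))))) :=
  HoldsN.of_red (k := 16) (m := 16) (leaf ok2 (G807 _ rfl) (G235 _ rfl) (G537 _ rfl) (by decide +kernel))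
theorem l337 : HoldsN X2 (Trg.left (Trg.right (Trg.left (Trg.left (Trg.right (chamberN 1 2)))))) (Trg.right (Trg.left (Trg.left (Trg.right (Trg.right (Trg.right (chamberNR 1 2))))))) :=
  HoldsN.of_red (k := 16) (m := 16) (leaf ok2 (G746 _ rfl) (G247 _ rfl) (G547 _ rfl) (by decide +kernel))
theorem l338 : HoldsN X2 (Trg.right (Trg.right (Trg.left (Trg.left (Trg.right (chamberN 1 2)))))) (Trg.left (Trg.left (Trg.right (Trg.right (Trg.right (chamberNR 1 2)))))) :=
  HoldsN.of_red (k := 16) (m := 16) (leaf ok2 (G755 _ rfl) (G226 _ rfl) (G475 _ rfl) (by decide +kernel))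
theorem l339 : HoldsN X2 (Trg.right (Trg.left (Trg.left (Trg.right (chamberN 1 2))))) (Trg.right (Trg.left (Trg.right (Trg.right (Trg.right (chamberNR 1 2)))))) :=
  HoldsN.of_red (k := 16) (m := 16) (leaf ok2 (G810 _ rfl) (G162 _ rfl) (G478 _ rfl) (by decide +kernel))

end Vale.Agent.Lib.P154N.D4
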