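import Vale.Agent.Lib.P154N.D4.Data
import Vale.Agent.Lib.P154N.Red

/-!
# Leaves of the tree of triangles
-/

namespace Vale.Agent.Lib.P154N.D4

open Vale.Agent.Lib.P154K Vale.Agent.Lib.P154Neg

theorem l340 : HoldsN X2 (Trg.left (Trg.right (Trg.left (Trg.left (Trg.right (chamberN 1 2)))))) (Trg.left (Trg.right (Trg.right (Trg.right (Trg.right (chamberNR 1 2)))))) :=
  HoldsN.of_red (k := 16) (m := 16) (leaf ok2 (G798 _ rfl) (G236 _ rfl) (G462 _ rfl) (by decide +kernel))
theorem l341 : HoldsN X2 (Trg.left (Trg.right (Trg.left (Trg.left (Trg.right (chamberN 1 2)))))) (Trg.left (Trg.right (Trg.right (Trg.right (Trg.right (Trg.right (chamberNR 1 2))))))) :=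
  HoldsN.of_red (k := 16) (m := 16) (leaf ok2 (G745 _ rfl) (G286 _ rfl) (G505 _ rfl) (by decide +kernel))
theorem l342 : HoldsN X2 (Trg.left (Trg.right (Trg.left (Trg.left (Trg.right (chamberN 1 2)))))) (Trg.right (Trg.right (Trg.right (Trg.right (Trg.right (Trg.right (chamberNR 1 2))))))) :=
  HoldsN.of_red (k := 16) (m := 16) (leaf ok2 (G798 _ rfl) (G236 _ rfl) (G503 _ rfl) (by decide +kernel))
theorem l343 : HoldsN X2 (Trg.left (Trg.right (Trg.right (Trg.left (Trg.left (Trg.right (chamberN 1 2))))))) (Trg.right (Trg.right (Trg.right (Trg.right (chamberNR 1 2))))) :=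
  HoldsN.of_red (k := 16) (m := 16) (leaf ok2 (G792 _ rfl) (G224 _ rfl) (G405 _ rfl) (by decide +kernel))
theorem l344 : HoldsN X2 (Trg.right (Trg.right (Trg.right (Trg.left (Trg.left (Trg.right (chamberN 1 2))))))) (Trg.right (Trg.right (Trg.right (Trg.right (chamberNR 1 2))))) :=
  HoldsN.of_red (k := 16) (m := 16) (leaf ok2 (G751 _ rfl) (G237 _ rfl) (G436 _ rfl) (by decide +kernel))
theorem l345 : HoldsN X2 (Trg.left (Trg.right (Trg.left (Trg.right (chamberN 1 2))))) (Trg.left (Trg.right (Trg.right (Trg.right (chamberNR 1 2))))) :=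
  HoldsN.of_red (k := 16) (m := 16) (leaf ok2 (G815 _ rfl) (G142 _ rfl) (G374 _ rfl) (by decide +kernel))
theorem l346 : HoldsN X2 (Trg.left (Trg.left (Trg.right (Trg.left (Trg.right (chamberN 1 2)))))) (Trg.left (Trg.right (Trg.right (Trg.right (Trg.right (chamberNR 1 2)))))) :=
  HoldsN.of_red (k := 16) (m := 16) (leaf ok2 (G849 _ rfl) (G209 _ rfl) (G362 _ rfl) (by decide +kernel))
theorem l347 : HoldsN X2 (Trg.left (Trg.left (Trg.right (Trg.left (Trg.right (chamberN 1 2)))))) (Trg.right (Trg.right (Trg.right (Trg.right (Trg.right (chamberNR 1 2)))))) :=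
  HoldsN.of_red (k := 16) (m := 16) (leaf ok2 (G811 _ rfl) (G209 _ rfl) (G422 _ rfl) (by decide +kernel))
theorem l348 : HoldsN X2 (Trg.left (Trg.right (Trg.left (Trg.right (Trg.left (Trg.right (chamberN 1 2))))))) (Trg.right (Trg.right (Trg.right (Trg.right (chamberNR 1 2))))) :=
  HoldsN.of_red (k := 16) (m := 16) (leaf ok2 (G834 _ rfl) (G207 _ rfl) (G313 _ rfl) (by decide +kernel))
theorem l349 : HoldsN X2 (Trg.right (Trg.right (Trg.left (Trg.right (Trg.left (Trg.right (chamberN 1 2))))))) (Trg.left (Trg.right (Trg.right (Trg.right (Trg.right (chamberNR 1 2)))))) :=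
  HoldsN.of_red (k := 16) (m := 16) (leaf ok2 (G849 _ rfl) (G209 _ rfl) (G344 _ rfl) (by decide +kernel))

end Vale.Agent.Lib.P154N.D4
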