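import Vale.Agent.Lib.P154N.D4.Data
import Vale.Agent.Lib.P154N.Red

/-!
# Leaves of the tree of triangles
-/

namespace Vale.Agent.Lib.P154N.D4

open Vale.Agent.Lib.P154K Vale.Agent.Lib.P154Neg

theorem l350 : HoldsN X2 (Trg.right (Trg.right (Trg.left (Trg.right (Trg.left (Trg.right (chamberN 1 2))))))) (Trg.right (Trg.right (Trg.right (Trg.right (Trg.right (chamberNR 1 2)))))) :=
  HoldsN.of_red (k := 16) (m := 16) (leaf ok2 (G811 _ rfl) (G209 _ rfl) (G391 _ rfl) (by decide +kernel))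
theorem l351 : HoldsN X2 (Trg.left (Trg.right (Trg.right (Trg.left (Trg.right (chamberN 1 2)))))) (Trg.right (Trg.right (Trg.right (chamberNR 1 2)))) :=
  HoldsN.of_red (k := 16) (m := 16) (leaf ok2 (G756 _ rfl) (G212 _ rfl) (G374 _ rfl) (by decide +kernel))
theorem l352 : HoldsN X2 (Trg.right (Trg.right (Trg.right (Trg.left (Trg.right (chamberN 1 2)))))) (Trg.left (Trg.right (Trg.right (Trg.right (chamberNR 1 2))))) :=
  HoldsN.of_red (k := 16) (m := 16) (leaf ok2 (G777 _ rfl) (G164 _ rfl) (G422 _ rfl) (by decide +kernel))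
theorem l353 : HoldsN X2 (Trg.right (Trg.right (Trg.right (Trg.left (Trg.right (chamberN 1 2)))))) (Trg.left (Trg.right (Trg.right (Trg.right (Trg.right (chamberNR 1 2)))))) :=
  HoldsN.of_red (k := 16) (m := 16) (leaf ok2 (G819 _ rfl) (G225 _ rfl) (G370 _ rfl) (by decide +kernel))
theorem l354 : HoldsN X2 (Trg.right (Trg.right (Trg.right (Trg.left (Trg.right (chamberN 1 2)))))) (Trg.right (Trg.right (Trg.right (Trg.right (Trg.right (chamberNR 1 2)))))) :=
  HoldsN.of_red (k := 16) (m := 16) (leaf ok2 (G775 _ rfl) (G225 _ rfl) (G422 _ rfl) (by decide +kernel))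
theorem l355 : HoldsN X2 (Trg.left (Trg.right (Trg.right (chamberN 1 2)))) (Trg.left (Trg.left (Trg.left (chamberNR 1 2)))) :=
  HoldsN.of_red (k := 16) (m := 16) (leaf ok2 (G614 _ rfl) (G316 _ rfl) (G509 _ rfl) (by decide +kernel))
theorem l356 : HoldsN X2 (Trg.left (Trg.left (Trg.right (Trg.right (chamberN 1 2))))) (Trg.right (Trg.left (Trg.left (chamberNR 1 2)))) :=
  HoldsN.of_red (k := 16) (m := 16) (leaf ok2 (G598 _ rfl) (G435 _ rfl) (G550 _ rfl) (by decide +kernel))
theorem l357 : HoldsN X2 (Trg.left (Trg.right (Trg.left (Trg.right (Trg.right (chamberN 1 2)))))) (Trg.left (Trg.left (Trg.right (Trg.left (Trg.left (chamberNR 1 2)))))) :=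
  HoldsN.of_red (k := 16) (m := 16) (leaf ok2 (G589 _ rfl) (G502 _ rfl) (G571 _ rfl) (by decide +kernel))
theorem l358 : HoldsN X2 (Trg.left (Trg.left (Trg.right (Trg.left (Trg.right (Trg.right (chamberN 1 2))))))) (Trg.right (Trg.left (Trg.right (Trg.left (Trg.left (chamberNR 1 2)))))) :=
  HoldsN.of_red (k := 16) (m := 16) (leaf ok2 (G585 _ rfl) (G544 _ rfl) (G571 _ rfl) (by decide +kernel))
theorem l359 : HoldsN X2 (Trg.right (Trg.left (Trg.right (Trg.left (Trg.right (Trg.right (chamberN 1 2))))))) (Trg.right (Trg.left (Trg.right (Trg.left (Trg.left (chamberNR 1 2)))))) :=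
  HoldsN.of_red (k := 16) (m := 16) (leaf ok2 (G584 _ rfl) (G544 _ rfl) (G571 _ rfl) (by decide +kernel))

end Vale.Agent.Lib.P154N.D4
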