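import Vale.Agent.Lib.P154N.D4.Data
import Vale.Agent.Lib.P154N.Red

/-!
# Leaves of the tree of triangles
-/

namespace Vale.Agent.Lib.P154N.D4

open Vale.Agent.Lib.P154K Vale.Agent.Lib.P154Neg

theorem l360 : HoldsN X2 (Trg.left (Trg.right (Trg.left (Trg.right (Trg.right (chamberN 1 2)))))) (Trg.right (Trg.right (Trg.left (Trg.left (chamberNR 1 2))))) :=
  HoldsN.of_red (k := 16) (m := 16) (leaf ok2 (G589 _ rfl) (G502 _ rfl) (G573 _ rfl) (by decide +kernel))
theorem l361 : HoldsN X2 (Trg.right (Trg.right (Trg.left (Trg.right (Trg.right (chamberN 1 2)))))) (Trg.right (Trg.left (Trg.left (chamberNR 1 2)))) :=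
  HoldsN.of_red (k := 16) (m := 16) (leaf ok2 (G591 _ rfl) (G463 _ rfl) (G577 _ rfl) (by decide +kernel))
theorem l362 : HoldsN X2 (Trg.left (Trg.right (Trg.right (chamberN 1 2)))) (Trg.right (Trg.left (chamberNR 1 2))) :=
  HoldsN.of_red (k := 16) (m := 16) (leaf ok2 (G614 _ rfl) (G316 _ rfl) (G515 _ rfl) (by decide +kernel))
theorem l363 : HoldsN X2 (Trg.right (Trg.right (Trg.right (chamberN 1 2)))) (Trg.left (Trg.left (Trg.left (Trg.left (chamberNR 1 2))))) :=
  HoldsN.of_red (k := 16) (m := 16) (leaf ok2 (G628 _ rfl) (G291 _ rfl) (G555 _ rfl) (by decide +kernel))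
theorem l364 : HoldsN X2 (Trg.left (Trg.left (Trg.right (Trg.right (Trg.right (chamberN 1 2)))))) (Trg.right (Trg.left (Trg.left (Trg.left (chamberNR 1 2))))) :=
  HoldsN.of_red (k := 16) (m := 16) (leaf ok2 (G678 _ rfl) (G250 _ rfl) (G588 _ rfl) (by decide +kernel))
theorem l365 : HoldsN X2 (Trg.right (Trg.left (Trg.right (Trg.right (Trg.right (chamberN 1 2)))))) (Trg.left (Trg.right (Trg.left (Trg.left (Trg.left (chamberNR 1 2)))))) :=
  HoldsN.of_red (k := 16) (m := 16) (leaf ok2 (G734 _ rfl) (G189 _ rfl) (G590 _ rfl) (by decide +kernel))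
theorem l366 : HoldsN X2 (Trg.right (Trg.left (Trg.right (Trg.right (Trg.right (chamberN 1 2)))))) (Trg.right (Trg.right (Trg.left (Trg.left (Trg.left (chamberNR 1 2)))))) :=
  HoldsN.of_red (k := 16) (m := 16) (leaf ok2 (G715 _ rfl) (G259 _ rfl) (G590 _ rfl) (by decide +kernel))
theorem l367 : HoldsN X2 (Trg.right (Trg.right (Trg.right (Trg.right (chamberN 1 2))))) (Trg.right (Trg.left (Trg.left (Trg.left (chamberNR 1 2))))) :=
  HoldsN.of_red (k := 16) (m := 16) (leaf ok2 (G678 _ rfl) (G250 _ rfl) (G507 _ rfl) (by decide +kernel))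
theorem l368 : HoldsN X2 (Trg.right (Trg.right (Trg.right (chamberN 1 2)))) (Trg.right (Trg.left (Trg.left (chamberNR 1 2)))) :=
  HoldsN.of_red (k := 16) (m := 16) (leaf ok2 (G600 _ rfl) (G367 _ rfl) (G556 _ rfl) (by decide +kernel))
theorem l369 : HoldsN X2 (Trg.right (Trg.right (Trg.right (chamberN 1 2)))) (Trg.left (Trg.right (Trg.left (chamberNR 1 2)))) :=
  HoldsN.of_red (k := 16) (m := 16) (leaf ok2 (G629 _ rfl) (G230 _ rfl) (G638 _ rfl) (by decide +kernel))

end Vale.Agent.Lib.P154N.D4
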