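import Vale.Agent.Lib.P154N.D4.Data
import Vale.Agent.Lib.P154N.Red

/-!
# Leaves of the tree of triangles
-/

namespace Vale.Agent.Lib.P154N.D4

open Vale.Agent.Lib.P154K Vale.Agent.Lib.P154Neg

theorem l370 : HoldsN X2 (Trg.right (Trg.right (Trg.right (chamberN 1 2)))) (Trg.left (Trg.right (Trg.right (Trg.left (chamberNR 1 2))))) :=
  HoldsN.of_red (k := 16) (m := 16) (leaf ok2 (G692 _ rfl) (G192 _ rfl) (G516 _ rfl) (by decide +kernel))
theorem l371 : HoldsN X2 (Trg.right (Trg.right (Trg.right (chamberN 1 2)))) (Trg.right (Trg.right (Trg.right (Trg.left (chamberNR 1 2))))) :=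
  HoldsN.of_red (k := 16) (m := 16) (leaf ok2 (G629 _ rfl) (G230 _ rfl) (G597 _ rfl) (by decide +kernel))
theorem l372 : HoldsN X2 (Trg.right (Trg.right (chamberN 1 2))) (Trg.left (Trg.right (chamberNR 1 2))) :=
  HoldsN.of_red (k := 16) (m := 16) (leaf ok2 (G625 _ rfl) (G149 _ rfl) (G321 _ rfl) (by decide +kernel))
theorem l373 : HoldsN X2 (Trg.left (Trg.left (Trg.left (Trg.right (Trg.right (chamberN 1 2)))))) (Trg.left (Trg.left (Trg.right (Trg.right (chamberNR 1 2))))) :=
  HoldsN.of_red (k := 16) (m := 16) (leaf ok2 (G655 _ rfl) (G432 _ rfl) (G492 _ rfl) (by decide +kernel))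
theorem l374 : HoldsN X2 (Trg.left (Trg.right (Trg.left (Trg.left (Trg.right (Trg.right (chamberN 1 2))))))) (Trg.left (Trg.left (Trg.left (Trg.right (Trg.right (chamberNR 1 2)))))) :=
  HoldsN.of_red (k := 16) (m := 16) (leaf ok2 (G684 _ rfl) (G431 _ rfl) (G490 _ rfl) (by decide +kernel))
theorem l375 : HoldsN X2 (Trg.left (Trg.right (Trg.left (Trg.left (Trg.right (Trg.right (chamberN 1 2))))))) (Trg.left (Trg.right (Trg.left (Trg.left (Trg.right (Trg.right (chamberNR 1 2))))))) :=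
  HoldsN.of_red (k := 16) (m := 16) (leaf ok2 (G730 _ rfl) (G430 _ rfl) (G432 _ rfl) (by decide +kernel))
theorem l376 : HoldsN X2 (Trg.left (Trg.right (Trg.left (Trg.left (Trg.right (Trg.right (chamberN 1 2))))))) (Trg.right (Trg.right (Trg.left (Trg.left (Trg.right (Trg.right (chamberNR 1 2))))))) :=
  HoldsN.of_red (k := 16) (m := 16) (leaf ok2 (G684 _ rfl) (G431 _ rfl) (G471 _ rfl) (by decide +kernel))
theorem l377 : HoldsN X2 (Trg.right (Trg.right (Trg.left (Trg.left (Trg.right (Trg.right (chamberN 1 2))))))) (Trg.left (Trg.left (Trg.right (Trg.right (chamberNR 1 2))))) :=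
  HoldsN.of_red (k := 16) (m := 16) (leaf ok2 (G655 _ rfl) (G432 _ rfl) (G473 _ rfl) (by decide +kernel))
theorem l378 : HoldsN X2 (Trg.left (Trg.left (Trg.right (Trg.right (chamberN 1 2))))) (Trg.right (Trg.left (Trg.right (Trg.right (chamberNR 1 2))))) :=
  HoldsN.of_red (k := 16) (m := 16) (leaf ok2 (G598 _ rfl) (G435 _ rfl) (G504 _ rfl) (by decide +kernel))
theorem l379 : HoldsN X2 (Trg.right (Trg.left (Trg.right (Trg.right (chamberN 1 2))))) (Trg.left (Trg.left (Trg.right (Trg.right (chamberNR 1 2))))) :=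
  HoldsN.of_red (k := 16) (m := 16) (leaf ok2 (G598 _ rfl) (G435 _ rfl) (G504 _ rfl) (by decide +kernel))

end Vale.Agent.Lib.P154N.D4
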