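import Vale.Agent.Lib.P154N.D4.Data
import Vale.Agent.Lib.P154N.Red

/-!
# Leaves of the tree of triangles
-/

namespace Vale.Agent.Lib.P154N.D4

open Vale.Agent.Lib.P154K Vale.Agent.Lib.P154Neg

theorem l380 : HoldsN X2 (Trg.left (Trg.left (Trg.right (Trg.left (Trg.right (Trg.right (chamberN 1 2))))))) (Trg.left (Trg.right (Trg.left (Trg.right (Trg.right (chamberNR 1 2)))))) :=
  HoldsN.of_red (k := 16) (m := 16) (leaf ok2 (G587 _ rfl) (G544 _ rfl) (G545 _ rfl) (by decide +kernel))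
theorem l381 : HoldsN X2 (Trg.right (Trg.left (Trg.right (Trg.left (Trg.right (Trg.right (chamberN 1 2))))))) (Trg.left (Trg.left (Trg.right (Trg.left (Trg.right (Trg.right (chamberNR 1 2))))))) :=
  HoldsN.of_red (k := 16) (m := 16) (leaf ok2 (G585 _ rfl) (G544 _ rfl) (G571 _ rfl) (by decide +kernel))
theorem l382 : HoldsN X2 (Trg.right (Trg.left (Trg.right (Trg.left (Trg.right (Trg.right (chamberN 1 2))))))) (Trg.right (Trg.left (Trg.right (Trg.left (Trg.right (Trg.right (chamberNR 1 2))))))) :=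
  HoldsN.of_red (k := 16) (m := 16) (leaf ok2 (G584 _ rfl) (G544 _ rfl) (G571 _ rfl) (by decide +kernel))
theorem l383 : HoldsN X2 (Trg.left (Trg.right (Trg.left (Trg.right (Trg.right (chamberN 1 2)))))) (Trg.right (Trg.right (Trg.left (Trg.right (Trg.right (chamberNR 1 2)))))) :=
  HoldsN.of_red (k := 16) (m := 16) (leaf ok2 (G589 _ rfl) (G502 _ rfl) (G545 _ rfl) (by decide +kernel))
theorem l384 : HoldsN X2 (Trg.right (Trg.right (Trg.left (Trg.right (Trg.right (chamberN 1 2)))))) (Trg.right (Trg.left (Trg.right (Trg.right (chamberNR 1 2))))) :=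
  HoldsN.of_red (k := 16) (m := 16) (leaf ok2 (G591 _ rfl) (G463 _ rfl) (G545 _ rfl) (by decide +kernel))
theorem l385 : HoldsN X2 (Trg.left (Trg.right (Trg.right (chamberN 1 2)))) (Trg.right (Trg.right (Trg.right (chamberNR 1 2)))) :=
  HoldsN.of_red (k := 16) (m := 16) (leaf ok2 (G614 _ rfl) (G316 _ rfl) (G438 _ rfl) (by decide +kernel))
theorem l386 : HoldsN X2 (Trg.left (Trg.left (Trg.left (Trg.right (Trg.right (Trg.right (chamberN 1 2))))))) (Trg.left (Trg.left (Trg.left (Trg.right (Trg.right (chamberNR 1 2)))))) :=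
  HoldsN.of_red (k := 16) (m := 16) (leaf ok2 (G702 _ rfl) (G370 _ rfl) (G535 _ rfl) (by decide +kernel))
theorem l387 : HoldsN X2 (Trg.left (Trg.left (Trg.left (Trg.right (Trg.right (Trg.right (chamberN 1 2))))))) (Trg.left (Trg.right (Trg.left (Trg.left (Trg.right (Trg.right (chamberNR 1 2))))))) :=
  HoldsN.of_red (k := 16) (m := 16) (leaf ok2 (G744 _ rfl) (G368 _ rfl) (G473 _ rfl) (by decide +kernel))
theorem l388 : HoldsN X2 (Trg.left (Trg.left (Trg.left (Trg.right (Trg.right (Trg.right (chamberN 1 2))))))) (Trg.right (Trg.right (Trg.left (Trg.left (Trg.right (Trg.right (chamberNR 1 2))))))) :=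
  HoldsN.of_red (k := 16) (m := 16) (leaf ok2 (G702 _ rfl) (G370 _ rfl) (G490 _ rfl) (by decide +kernel))
theorem l389 : HoldsN X2 (Trg.right (Trg.left (Trg.left (Trg.right (Trg.right (Trg.right (chamberN 1 2))))))) (Trg.left (Trg.left (Trg.right (Trg.right (chamberNR 1 2))))) :=
  HoldsN.of_red (k := 16) (m := 16) (leaf ok2 (G673 _ rfl) (G371 _ rfl) (G505 _ rfl) (by decide +kernel))

end Vale.Agent.Lib.P154N.D4
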