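import Vale.Agent.Lib.P154N.D4.Data
import Vale.Agent.Lib.P154N.Red

/-!
# Leaves of the tree of triangles
-/

namespace Vale.Agent.Lib.P154N.D4

open Vale.Agent.Lib.P154K Vale.Agent.Lib.P154Neg

theorem l390 : HoldsN X2 (Trg.right (Trg.left (Trg.right (Trg.right (Trg.right (chamberN 1 2)))))) (Trg.left (Trg.left (Trg.left (Trg.right (Trg.right (chamberNR 1 2)))))) :=
  HoldsN.of_red (k := 16) (m := 16) (leaf ok2 (G703 _ rfl) (G335 _ rfl) (G535 _ rfl) (by decide +kernel))
theorem l391 : HoldsN X2 (Trg.right (Trg.left (Trg.right (Trg.right (Trg.right (chamberN 1 2)))))) (Trg.right (Trg.left (Trg.left (Trg.right (Trg.right (chamberNR 1 2)))))) :=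
  HoldsN.of_red (k := 16) (m := 16) (leaf ok2 (G705 _ rfl) (G309 _ rfl) (G473 _ rfl) (by decide +kernel))
theorem l392 : HoldsN X2 (Trg.left (Trg.right (Trg.right (Trg.right (Trg.right (chamberN 1 2)))))) (Trg.left (Trg.left (Trg.left (Trg.right (Trg.right (chamberNR 1 2)))))) :=
  HoldsN.of_red (k := 16) (m := 16) (leaf ok2 (G686 _ rfl) (G371 _ rfl) (G490 _ rfl) (by decide +kernel))
theorem l393 : HoldsN X2 (Trg.left (Trg.right (Trg.right (Trg.right (Trg.right (chamberN 1 2)))))) (Trg.left (Trg.right (Trg.left (Trg.left (Trg.right (Trg.right (chamberNR 1 2))))))) :=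
  HoldsN.of_red (k := 16) (m := 16) (leaf ok2 (G731 _ rfl) (G369 _ rfl) (G432 _ rfl) (by decide +kernel))
theorem l394 : HoldsN X2 (Trg.left (Trg.right (Trg.right (Trg.right (Trg.right (chamberN 1 2)))))) (Trg.right (Trg.right (Trg.left (Trg.left (Trg.right (Trg.right (chamberNR 1 2))))))) :=
  HoldsN.of_red (k := 16) (m := 16) (leaf ok2 (G686 _ rfl) (G371 _ rfl) (G471 _ rfl) (by decide +kernel))
theorem l395 : HoldsN X2 (Trg.left (Trg.right (Trg.right (Trg.right (Trg.right (Trg.right (chamberN 1 2))))))) (Trg.left (Trg.left (Trg.right (Trg.right (chamberNR 1 2))))) :=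
  HoldsN.of_red (k := 16) (m := 16) (leaf ok2 (G672 _ rfl) (G400 _ rfl) (G492 _ rfl) (by decide +kernel))
theorem l396 : HoldsN X2 (Trg.right (Trg.right (Trg.right (Trg.right (Trg.right (Trg.right (chamberN 1 2))))))) (Trg.left (Trg.left (Trg.left (Trg.right (Trg.right (chamberNR 1 2)))))) :=
  HoldsN.of_red (k := 16) (m := 16) (leaf ok2 (G686 _ rfl) (G371 _ rfl) (G533 _ rfl) (by decide +kernel))
theorem l397 : HoldsN X2 (Trg.right (Trg.right (Trg.right (Trg.right (Trg.right (Trg.right (chamberN 1 2))))))) (Trg.left (Trg.right (Trg.left (Trg.left (Trg.right (Trg.right (chamberNR 1 2))))))) :=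
  HoldsN.of_red (k := 16) (m := 16) (leaf ok2 (G731 _ rfl) (G369 _ rfl) (G472 _ rfl) (by decide +kernel))
theorem l398 : HoldsN X2 (Trg.right (Trg.right (Trg.right (Trg.right (Trg.right (Trg.right (chamberN 1 2))))))) (Trg.right (Trg.right (Trg.left (Trg.left (Trg.right (Trg.right (chamberNR 1 2))))))) :=
  HoldsN.of_red (k := 16) (m := 16) (leaf ok2 (G686 _ rfl) (G371 _ rfl) (G489 _ rfl) (by decide +kernel))
theorem l399 : HoldsN X2 (Trg.right (Trg.right (Trg.right (chamberN 1 2)))) (Trg.right (Trg.left (Trg.right (Trg.right (chamberNR 1 2))))) :=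
  HoldsN.of_red (k := 16) (m := 16) (leaf ok2 (G600 _ rfl) (G367 _ rfl) (G506 _ rfl) (by decide +kernel))

end Vale.Agent.Lib.P154N.D4
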