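import Vale.Agent.Lib.P154N.D4.Data
import Vale.Agent.Lib.P154N.Red

/-!
# Leaves of the tree of triangles
-/

namespace Vale.Agent.Lib.P154N.D4

open Vale.Agent.Lib.P154K Vale.Agent.Lib.P154Neg

theorem l40 : HoldsN X2 (Trg.right (Trg.left (Trg.right (Trg.left (Trg.left (chamberN 1 2)))))) (Trg.right (Trg.right (Trg.left (Trg.right (Trg.right (chamberN 1 2)))))) :=
  HoldsN.of_red (k := 16) (m := 16) (leaf ok2 (G587 _ rfl) (G532 _ rfl) (G545 _ rfl) (by decide +kernel))
theorem l41 : HoldsN X2 (Trg.right (Trg.right (Trg.left (Trg.left (chamberN 1 2))))) (Trg.right (Trg.left (Trg.right (Trg.right (chamberN 1 2))))) :=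
  HoldsN.of_red (k := 16) (m := 16) (leaf ok2 (G592 _ rfl) (G491 _ rfl) (G506 _ rfl) (by decide +kernel))
theorem l42 : HoldsN X2 (Trg.right (Trg.left (Trg.left (chamberN 1 2)))) (Trg.right (Trg.right (Trg.right (chamberN 1 2)))) :=
  HoldsN.of_red (k := 16) (m := 16) (leaf ok2 (G606 _ rfl) (G404 _ rfl) (G467 _ rfl) (by decide +kernel))
theorem l43 : HoldsN X2 (Trg.left (Trg.right (Trg.left (chamberN 1 2)))) (Trg.left (Trg.left (Trg.right (Trg.right (chamberN 1 2))))) :=
  HoldsN.of_red (k := 16) (m := 16) (leaf ok2 (G636 _ rfl) (G311 _ rfl) (G542 _ rfl) (by decide +kernel))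
theorem l44 : HoldsN X2 (Trg.left (Trg.right (Trg.left (chamberN 1 2)))) (Trg.right (Trg.left (Trg.right (Trg.right (chamberN 1 2))))) :=
  HoldsN.of_red (k := 16) (m := 16) (leaf ok2 (G600 _ rfl) (G404 _ rfl) (G539 _ rfl) (by decide +kernel))
theorem l45 : HoldsN X2 (Trg.left (Trg.right (Trg.right (Trg.left (chamberN 1 2))))) (Trg.left (Trg.left (Trg.right (Trg.right (chamberN 1 2))))) :=
  HoldsN.of_red (k := 16) (m := 16) (leaf ok2 (G690 _ rfl) (G309 _ rfl) (G465 _ rfl) (by decide +kernel))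
theorem l46 : HoldsN X2 (Trg.left (Trg.right (Trg.right (Trg.left (chamberN 1 2))))) (Trg.right (Trg.left (Trg.right (Trg.right (chamberN 1 2))))) :=
  HoldsN.of_red (k := 16) (m := 16) (leaf ok2 (G606 _ rfl) (G424 _ rfl) (G464 _ rfl) (by decide +kernel))
theorem l47 : HoldsN X2 (Trg.right (Trg.right (Trg.right (Trg.left (chamberN 1 2))))) (Trg.left (Trg.left (Trg.right (Trg.right (chamberN 1 2))))) :=
  HoldsN.of_red (k := 16) (m := 16) (leaf ok2 (G636 _ rfl) (G311 _ rfl) (G538 _ rfl) (by decide +kernel))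
theorem l48 : HoldsN X2 (Trg.right (Trg.right (Trg.right (Trg.left (chamberN 1 2))))) (Trg.right (Trg.left (Trg.right (Trg.right (chamberN 1 2))))) :=
  HoldsN.of_red (k := 16) (m := 16) (leaf ok2 (G600 _ rfl) (G424 _ rfl) (G536 _ rfl) (by decide +kernel))
theorem l49 : HoldsN X2 (Trg.right (Trg.left (chamberN 1 2))) (Trg.right (Trg.right (Trg.right (chamberN 1 2)))) :=
  HoldsN.of_red (k := 16) (m := 16) (leaf ok2 (G664 _ rfl) (G261 _ rfl) (G356 _ rfl) (by decide +kernel))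

end Vale.Agent.Lib.P154N.D4
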