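import Vale.Agent.Lib.P154N.D4.Data
import Vale.Agent.Lib.P154N.Red

/-!
# Leaves of the tree of triangles
-/

namespace Vale.Agent.Lib.P154N.D4

open Vale.Agent.Lib.P154K Vale.Agent.Lib.P154Neg

theorem l400 : HoldsN X2 (Trg.left (Trg.left (Trg.right (Trg.right (Trg.right (chamberN 1 2)))))) (Trg.right (Trg.right (Trg.right (chamberNR 1 2)))) :=
  HoldsN.of_red (k := 16) (m := 16) (leaf ok2 (G678 _ rfl) (G250 _ rfl) (G477 _ rfl) (by decide +kernel))
theorem l401 : HoldsN X2 (Trg.right (Trg.left (Trg.right (Trg.right (Trg.right (chamberN 1 2)))))) (Trg.left (Trg.left (Trg.left (Trg.right (Trg.right (Trg.right (chamberNR 1 2))))))) :=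
  HoldsN.of_red (k := 16) (m := 16) (leaf ok2 (G770 _ rfl) (G246 _ rfl) (G537 _ rfl) (by decide +kernel))
theorem l402 : HoldsN X2 (Trg.right (Trg.left (Trg.right (Trg.right (Trg.right (chamberN 1 2)))))) (Trg.right (Trg.left (Trg.left (Trg.right (Trg.right (Trg.right (chamberNR 1 2))))))) :=
  HoldsN.of_red (k := 16) (m := 16) (leaf ok2 (G715 _ rfl) (G259 _ rfl) (G547 _ rfl) (by decide +kernel))
theorem l403 : HoldsN X2 (Trg.right (Trg.left (Trg.right (Trg.right (Trg.right (chamberN 1 2)))))) (Trg.right (Trg.left (Trg.right (Trg.right (Trg.right (chamberNR 1 2)))))) :=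
  HoldsN.of_red (k := 16) (m := 16) (leaf ok2 (G771 _ rfl) (G188 _ rfl) (G538 _ rfl) (by decide +kernel))
theorem l404 : HoldsN X2 (Trg.right (Trg.left (Trg.right (Trg.right (Trg.right (chamberN 1 2)))))) (Trg.left (Trg.right (Trg.right (Trg.right (Trg.right (chamberNR 1 2)))))) :=
  HoldsN.of_red (k := 16) (m := 16) (leaf ok2 (G765 _ rfl) (G247 _ rfl) (G473 _ rfl) (by decide +kernel))
theorem l405 : HoldsN X2 (Trg.right (Trg.left (Trg.right (Trg.right (Trg.right (chamberN 1 2)))))) (Trg.left (Trg.right (Trg.right (Trg.right (Trg.right (Trg.right (chamberNR 1 2))))))) :=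
  HoldsN.of_red (k := 16) (m := 16) (leaf ok2 (G714 _ rfl) (G300 _ rfl) (G535 _ rfl) (by decide +kernel))
theorem l406 : HoldsN X2 (Trg.right (Trg.left (Trg.right (Trg.right (Trg.right (chamberN 1 2)))))) (Trg.right (Trg.right (Trg.right (Trg.right (Trg.right (Trg.right (chamberNR 1 2))))))) :=
  HoldsN.of_red (k := 16) (m := 16) (leaf ok2 (G765 _ rfl) (G247 _ rfl) (G533 _ rfl) (by decide +kernel))
theorem l407 : HoldsN X2 (Trg.right (Trg.right (Trg.right (Trg.right (chamberN 1 2))))) (Trg.right (Trg.right (Trg.right (chamberNR 1 2)))) :=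
  HoldsN.of_red (k := 16) (m := 16) (leaf ok2 (G678 _ rfl) (G250 _ rfl) (G437 _ rfl) (by decide +kernel))
theorem l408 : HoldsN X3 (Trg.left (Trg.left (Trg.left (Trg.left (chamber 1 1))))) (Trg.left (Trg.left (Trg.left (Trg.left (chamberN 1 2))))) :=
  HoldsN.of_red (k := 16) (m := 16) (leaf ok3 (G212 _ rfl) (G561 _ rfl) (G561 _ rfl) (by decide +kernel))
theorem l409 : HoldsN X3 (Trg.left (Trg.left (Trg.left (Trg.left (chamber 1 1))))) (Trg.right (Trg.left (Trg.left (Trg.left (chamberN 1 2))))) :=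
  HoldsN.of_red (k := 16) (m := 16) (leaf ok3 (G122 _ rfl) (G693 _ rfl) (G521 _ rfl) (by decide +kernel))

end Vale.Agent.Lib.P154N.D4
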