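import Vale.Agent.Lib.P154N.D4.Data
import Vale.Agent.Lib.P154N.Red

/-!
# Leaves of the tree of triangles
-/

namespace Vale.Agent.Lib.P154N.D4

open Vale.Agent.Lib.P154K Vale.Agent.Lib.P154Neg

theorem l410 : HoldsN X3 (Trg.right (Trg.left (Trg.left (Trg.left (chamber 1 1))))) (Trg.left (Trg.left (Trg.left (Trg.left (chamberN 1 2))))) :=
  HoldsN.of_red (k := 16) (m := 16) (leaf ok3 (G122 _ rfl) (G521 _ rfl) (G693 _ rfl) (by decide +kernel))
theorem l411 : HoldsN X3 (Trg.left (Trg.right (Trg.left (Trg.left (Trg.left (chamber 1 1)))))) (Trg.right (Trg.left (Trg.left (Trg.left (chamberN 1 2))))) :=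
  HoldsN.of_red (k := 16) (m := 16) (leaf ok3 (G58 _ rfl) (G738 _ rfl) (G695 _ rfl) (by decide +kernel))
theorem l412 : HoldsN X3 (Trg.right (Trg.right (Trg.left (Trg.left (Trg.left (chamber 1 1)))))) (Trg.right (Trg.left (Trg.left (Trg.left (chamberN 1 2))))) :=
  HoldsN.of_red (k := 16) (m := 16) (leaf ok3 (G97 _ rfl) (G693 _ rfl) (G691 _ rfl) (by decide +kernel))
theorem l413 : HoldsN X3 (Trg.left (Trg.left (Trg.left (chamber 1 1)))) (Trg.right (Trg.left (Trg.left (chamberN 1 2)))) :=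
  HoldsN.of_red (k := 16) (m := 16) (leaf ok3 (G179 _ rfl) (G522 _ rfl) (G567 _ rfl) (by decide +kernel))
theorem l414 : HoldsN X3 (Trg.left (Trg.left (Trg.left (Trg.left (chamber 1 1))))) (Trg.right (Trg.left (chamberN 1 2))) :=
  HoldsN.of_red (k := 16) (m := 16) (leaf ok3 (G122 _ rfl) (G529 _ rfl) (G529 _ rfl) (by decide +kernel))
theorem l415 : HoldsN X3 (Trg.right (Trg.left (Trg.left (Trg.left (chamber 1 1))))) (Trg.left (Trg.right (Trg.left (chamberN 1 2)))) :=
  HoldsN.of_red (k := 16) (m := 16) (leaf ok3 (G89 _ rfl) (G448 _ rfl) (G763 _ rfl) (by decide +kernel))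
theorem l416 : HoldsN X3 (Trg.right (Trg.left (Trg.left (Trg.left (chamber 1 1))))) (Trg.left (Trg.right (Trg.right (Trg.left (chamberN 1 2))))) :=
  HoldsN.of_red (k := 16) (m := 16) (leaf ok3 (G58 _ rfl) (G681 _ rfl) (G780 _ rfl) (by decide +kernel))
theorem l417 : HoldsN X3 (Trg.right (Trg.left (Trg.left (Trg.left (chamber 1 1))))) (Trg.right (Trg.right (Trg.right (Trg.left (chamberN 1 2))))) :=
  HoldsN.of_red (k := 16) (m := 16) (leaf ok3 (G89 _ rfl) (G520 _ rfl) (G760 _ rfl) (by decide +kernel))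
theorem l418 : HoldsN X3 (Trg.right (Trg.left (Trg.left (chamber 1 1)))) (Trg.left (Trg.left (Trg.left (chamberN 1 2)))) :=
  HoldsN.of_red (k := 16) (m := 16) (leaf ok3 (G179 _ rfl) (G567 _ rfl) (G522 _ rfl) (by decide +kernel))
theorem l419 : HoldsN X3 (Trg.right (Trg.left (Trg.left (chamber 1 1)))) (Trg.right (Trg.left (Trg.left (chamberN 1 2)))) :=
  HoldsN.of_red (k := 16) (m := 16) (leaf ok3 (G350 _ rfl) (G558 _ rfl) (G558 _ rfl) (by decide +kernel))

end Vale.Agent.Lib.P154N.D4
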