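import Vale.Agent.Lib.P154N.D4.Data
import Vale.Agent.Lib.P154N.Red

/-!
# Leaves of the tree of triangles
-/

namespace Vale.Agent.Lib.P154N.D4

open Vale.Agent.Lib.P154K Vale.Agent.Lib.P154Neg

theorem l420 : HoldsN X3 (Trg.right (Trg.left (Trg.left (chamber 1 1)))) (Trg.right (Trg.left (chamberN 1 2))) :=
  HoldsN.of_red (k := 16) (m := 16) (leaf ok3 (G179 _ rfl) (G528 _ rfl) (G528 _ rfl) (by decide +kernel))
theorem l421 : HoldsN X3 (Trg.left (Trg.right (Trg.left (chamber 1 1)))) (Trg.left (Trg.left (Trg.left (Trg.left (chamberN 1 2))))) :=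
  HoldsN.of_red (k := 16) (m := 16) (leaf ok3 (G159 _ rfl) (G641 _ rfl) (G521 _ rfl) (by decide +kernel))
theorem l422 : HoldsN X3 (Trg.left (Trg.left (Trg.left (Trg.right (Trg.left (chamber 1 1)))))) (Trg.right (Trg.left (Trg.left (Trg.left (chamberN 1 2))))) :=
  HoldsN.of_red (k := 16) (m := 16) (leaf ok3 (G87 _ rfl) (G796 _ rfl) (G484 _ rfl) (by decide +kernel))
theorem l423 : HoldsN X3 (Trg.right (Trg.left (Trg.left (Trg.right (Trg.left (chamber 1 1)))))) (Trg.right (Trg.left (Trg.left (Trg.left (chamberN 1 2))))) :=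
  HoldsN.of_red (k := 16) (m := 16) (leaf ok3 (G159 _ rfl) (G756 _ rfl) (G481 _ rfl) (by decide +kernel))
theorem l424 : HoldsN X3 (Trg.right (Trg.left (Trg.right (Trg.left (chamber 1 1))))) (Trg.right (Trg.left (Trg.left (Trg.left (chamberN 1 2))))) :=
  HoldsN.of_red (k := 16) (m := 16) (leaf ok3 (G87 _ rfl) (G815 _ rfl) (G448 _ rfl) (by decide +kernel))
theorem l425 : HoldsN X3 (Trg.left (Trg.right (Trg.right (Trg.left (chamber 1 1))))) (Trg.left (Trg.left (Trg.left (Trg.left (chamberN 1 2))))) :=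
  HoldsN.of_red (k := 16) (m := 16) (leaf ok3 (G121 _ rfl) (G525 _ rfl) (G680 _ rfl) (by decide +kernel))
theorem l426 : HoldsN X3 (Trg.left (Trg.right (Trg.right (Trg.left (chamber 1 1))))) (Trg.left (Trg.right (Trg.left (Trg.left (Trg.left (chamberN 1 2)))))) :=
  HoldsN.of_red (k := 16) (m := 16) (leaf ok3 (G56 _ rfl) (G780 _ rfl) (G708 _ rfl) (by decide +kernel))
theorem l427 : HoldsN X3 (Trg.left (Trg.right (Trg.right (Trg.left (chamber 1 1))))) (Trg.right (Trg.right (Trg.left (Trg.left (Trg.left (chamberN 1 2)))))) :=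
  HoldsN.of_red (k := 16) (m := 16) (leaf ok3 (G96 _ rfl) (G773 _ rfl) (G680 _ rfl) (by decide +kernel))
theorem l428 : HoldsN X3 (Trg.right (Trg.right (Trg.right (Trg.left (chamber 1 1))))) (Trg.left (Trg.left (Trg.left (Trg.left (chamberN 1 2))))) :=
  HoldsN.of_red (k := 16) (m := 16) (leaf ok3 (G159 _ rfl) (G611 _ rfl) (G563 _ rfl) (by decide +kernel))
theorem l429 : HoldsN X3 (Trg.left (Trg.right (Trg.right (Trg.right (Trg.left (chamber 1 1)))))) (Trg.right (Trg.left (Trg.left (Trg.left (chamberN 1 2))))) :=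
  HoldsN.of_red (k := 16) (m := 16) (leaf ok3 (G122 _ rfl) (G753 _ rfl) (G520 _ rfl) (by decide +kernel))

end Vale.Agent.Lib.P154N.D4
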