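import Vale.Agent.Lib.P154N.D4.Data
import Vale.Agent.Lib.P154N.Red

/-!
# Leaves of the tree of triangles
-/

namespace Vale.Agent.Lib.P154N.D4

open Vale.Agent.Lib.P154K Vale.Agent.Lib.P154Neg

theorem l430 : HoldsN X3 (Trg.right (Trg.right (Trg.right (Trg.right (Trg.left (chamber 1 1)))))) (Trg.right (Trg.left (Trg.left (Trg.left (chamberN 1 2))))) :=
  HoldsN.of_red (k := 16) (m := 16) (leaf ok3 (G86 _ rfl) (G780 _ rfl) (G628 _ rfl) (by decide +kernel))
theorem l431 : HoldsN X3 (Trg.right (Trg.left (chamber 1 1))) (Trg.right (Trg.left (Trg.left (chamberN 1 2)))) :=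
  HoldsN.of_red (k := 16) (m := 16) (leaf ok3 (G179 _ rfl) (G528 _ rfl) (G528 _ rfl) (by decide +kernel))
theorem l432 : HoldsN X3 (Trg.left (Trg.right (Trg.left (chamber 1 1)))) (Trg.right (Trg.left (chamberN 1 2))) :=
  HoldsN.of_red (k := 16) (m := 16) (leaf ok3 (G89 _ rfl) (G643 _ rfl) (G456 _ rfl) (by decide +kernel))
theorem l433 : HoldsN X3 (Trg.left (Trg.right (Trg.right (Trg.left (chamber 1 1))))) (Trg.right (Trg.left (chamberN 1 2))) :=
  HoldsN.of_red (k := 16) (m := 16) (leaf ok3 (G59 _ rfl) (G457 _ rfl) (G763 _ rfl) (by decide +kernel))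
theorem l434 : HoldsN X3 (Trg.right (Trg.right (Trg.right (Trg.left (chamber 1 1))))) (Trg.right (Trg.left (chamberN 1 2))) :=
  HoldsN.of_red (k := 16) (m := 16) (leaf ok3 (G89 _ rfl) (G624 _ rfl) (G530 _ rfl) (by decide +kernel))
theorem l435 : HoldsN X3 (Trg.left (Trg.left (Trg.left (Trg.left (chamber 1 1))))) (Trg.left (Trg.right (chamberN 1 2))) :=
  HoldsN.of_red (k := 16) (m := 16) (leaf ok3 (G80 _ rfl) (G804 _ rfl) (G330 _ rfl) (by decide +kernel))
theorem l436 : HoldsN X3 (Trg.right (Trg.left (Trg.left (Trg.left (chamber 1 1))))) (Trg.left (Trg.left (Trg.right (chamberN 1 2)))) :=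
  HoldsN.of_red (k := 16) (m := 16) (leaf ok3 (G40 _ rfl) (G803 _ rfl) (G621 _ rfl) (by decide +kernel))
theorem l437 : HoldsN X3 (Trg.right (Trg.left (Trg.left (Trg.left (chamber 1 1))))) (Trg.left (Trg.right (Trg.left (Trg.right (chamberN 1 2))))) :=
  HoldsN.of_red (k := 16) (m := 16) (leaf ok3 (G28 _ rfl) (G871 _ rfl) (G617 _ rfl) (by decide +kernel))
theorem l438 : HoldsN X3 (Trg.right (Trg.left (Trg.left (Trg.left (chamber 1 1))))) (Trg.right (Trg.right (Trg.left (Trg.right (chamberN 1 2))))) :=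
  HoldsN.of_red (k := 16) (m := 16) (leaf ok3 (G40 _ rfl) (G827 _ rfl) (G617 _ rfl) (by decide +kernel))
theorem l439 : HoldsN X3 (Trg.right (Trg.left (Trg.left (chamber 1 1)))) (Trg.left (Trg.right (chamberN 1 2))) :=
  HoldsN.of_red (k := 16) (m := 16) (leaf ok3 (G107 _ rfl) (G623 _ rfl) (G331 _ rfl) (by decide +kernel))

end Vale.Agent.Lib.P154N.D4
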