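import Vale.Agent.Lib.P154N.D4.Data
import Vale.Agent.Lib.P154N.Red

/-!
# Leaves of the tree of triangles
-/

namespace Vale.Agent.Lib.P154N.D4

open Vale.Agent.Lib.P154K Vale.Agent.Lib.P154Neg

theorem l440 : HoldsN X3 (Trg.left (Trg.left (Trg.left (Trg.right (Trg.left (chamber 1 1)))))) (Trg.left (Trg.left (Trg.left (Trg.left (Trg.right (chamberN 1 2)))))) :=
  HoldsN.of_red (k := 16) (m := 16) (leaf ok3 (G70 _ rfl) (G888 _ rfl) (G341 _ rfl) (by decide +kernel))
theorem l441 : HoldsN X3 (Trg.left (Trg.left (Trg.left (Trg.left (Trg.right (Trg.left (chamber 1 1))))))) (Trg.right (Trg.left (Trg.left (Trg.left (Trg.right (chamberN 1 2)))))) :=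
  HoldsN.of_red (k := 16) (m := 16) (leaf ok3 (G163 _ rfl) (G872 _ rfl) (G349 _ rfl) (by decide +kernel))
theorem l442 : HoldsN X3 (Trg.right (Trg.left (Trg.left (Trg.left (Trg.right (Trg.left (chamber 1 1))))))) (Trg.right (Trg.left (Trg.left (Trg.left (Trg.right (chamberN 1 2)))))) :=
  HoldsN.of_red (k := 16) (m := 16) (leaf ok3 (G111 _ rfl) (G877 _ rfl) (G439 _ rfl) (by decide +kernel))
theorem l443 : HoldsN X3 (Trg.left (Trg.left (Trg.left (Trg.right (Trg.left (chamber 1 1)))))) (Trg.right (Trg.left (Trg.left (Trg.right (chamberN 1 2))))) :=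
  HoldsN.of_red (k := 16) (m := 16) (leaf ok3 (G70 _ rfl) (G888 _ rfl) (G342 _ rfl) (by decide +kernel))
theorem l444 : HoldsN X3 (Trg.right (Trg.left (Trg.left (Trg.right (Trg.left (chamber 1 1)))))) (Trg.left (Trg.left (Trg.right (chamberN 1 2)))) :=
  HoldsN.of_red (k := 16) (m := 16) (leaf ok3 (G133 _ rfl) (G823 _ rfl) (G341 _ rfl) (by decide +kernel))
theorem l445 : HoldsN X3 (Trg.right (Trg.left (Trg.right (Trg.left (chamber 1 1))))) (Trg.left (Trg.left (Trg.left (Trg.left (Trg.right (chamberN 1 2)))))) :=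
  HoldsN.of_red (k := 16) (m := 16) (leaf ok3 (G70 _ rfl) (G891 _ rfl) (G268 _ rfl) (by decide +kernel))
theorem l446 : HoldsN X3 (Trg.left (Trg.left (Trg.left (Trg.right (Trg.left (Trg.right (Trg.left (chamber 1 1)))))))) (Trg.right (Trg.left (Trg.left (Trg.left (Trg.right (chamberN 1 2)))))) :=
  HoldsN.of_red (k := 16) (m := 16) (leaf ok3 (G141 _ rfl) (G898 _ rfl) (G311 _ rfl) (by decide +kernel))
theorem l447 : HoldsN X3 (Trg.right (Trg.left (Trg.left (Trg.right (Trg.left (Trg.right (Trg.left (chamber 1 1)))))))) (Trg.right (Trg.left (Trg.left (Trg.left (Trg.right (chamberN 1 2)))))) :=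
  HoldsN.of_red (k := 16) (m := 16) (leaf ok3 (G200 _ rfl) (G873 _ rfl) (G309 _ rfl) (by decide +kernel))
theorem l448 : HoldsN X3 (Trg.right (Trg.left (Trg.right (Trg.left (Trg.right (Trg.left (chamber 1 1))))))) (Trg.left (Trg.right (Trg.left (Trg.left (Trg.left (Trg.right (chamberN 1 2))))))) :=
  HoldsN.of_red (k := 16) (m := 16) (leaf ok3 (G141 _ rfl) (G898 _ rfl) (G289 _ rfl) (by decide +kernel))
theorem l449 : HoldsN X3 (Trg.right (Trg.left (Trg.right (Trg.left (Trg.right (Trg.left (chamber 1 1))))))) (Trg.right (Trg.right (Trg.left (Trg.left (Trg.left (Trg.right (chamberN 1 2))))))) :=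
  HoldsN.of_red (k := 16) (m := 16) (leaf ok3 (G138 _ rfl) (G902 _ rfl) (G292 _ rfl) (by decide +kernel))

end Vale.Agent.Lib.P154N.D4
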