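import Vale.Agent.Lib.P154N.D4.Data
import Vale.Agent.Lib.P154N.Red

/-!
# Leaves of the tree of triangles
-/

namespace Vale.Agent.Lib.P154N.D4

open Vale.Agent.Lib.P154K Vale.Agent.Lib.P154Neg

theorem l460 : HoldsN X3 (Trg.right (Trg.left (Trg.right (Trg.left (chamber 1 1))))) (Trg.right (Trg.left (Trg.left (Trg.right (chamberN 1 2))))) :=
  HoldsN.of_red (k := 16) (m := 16) (leaf ok3 (G70 _ rfl) (G891 _ rfl) (G271 _ rfl) (by decide +kernel))
theorem l461 : HoldsN X3 (Trg.left (Trg.right (Trg.left (chamber 1 1)))) (Trg.left (Trg.right (Trg.left (Trg.right (chamberN 1 2))))) :=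
  HoldsN.of_red (k := 16) (m := 16) (leaf ok3 (G59 _ rfl) (G887 _ rfl) (G150 _ rfl) (by decide +kernel))
theorem l462 : HoldsN X3 (Trg.left (Trg.left (Trg.left (Trg.right (Trg.left (chamber 1 1)))))) (Trg.left (Trg.right (Trg.right (Trg.left (Trg.right (chamberN 1 2)))))) :=
  HoldsN.of_red (k := 16) (m := 16) (leaf ok3 (G99 _ rfl) (G883 _ rfl) (G294 _ rfl) (by decide +kernel))
theorem l463 : HoldsN X3 (Trg.left (Trg.left (Trg.left (Trg.right (Trg.left (chamber 1 1)))))) (Trg.right (Trg.right (Trg.right (Trg.left (Trg.right (chamberN 1 2)))))) :=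
  HoldsN.of_red (k := 16) (m := 16) (leaf ok3 (G70 _ rfl) (G907 _ rfl) (G297 _ rfl) (by decide +kernel))
theorem l464 : HoldsN X3 (Trg.right (Trg.left (Trg.left (Trg.right (Trg.left (chamber 1 1)))))) (Trg.right (Trg.right (Trg.left (Trg.right (chamberN 1 2))))) :=
  HoldsN.of_red (k := 16) (m := 16) (leaf ok3 (G133 _ rfl) (G823 _ rfl) (G292 _ rfl) (by decide +kernel))
theorem l465 : HoldsN X3 (Trg.left (Trg.right (Trg.left (Trg.right (Trg.left (chamber 1 1)))))) (Trg.left (Trg.left (Trg.right (Trg.right (Trg.left (Trg.right (chamberN 1 2))))))) :=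
  HoldsN.of_red (k := 16) (m := 16) (leaf ok3 (G131 _ rfl) (G906 _ rfl) (G211 _ rfl) (by decide +kernel))
theorem l466 : HoldsN X3 (Trg.left (Trg.right (Trg.left (Trg.right (Trg.left (chamber 1 1)))))) (Trg.right (Trg.left (Trg.right (Trg.right (Trg.left (Trg.right (chamberN 1 2))))))) :=
  HoldsN.of_red (k := 16) (m := 16) (leaf ok3 (G142 _ rfl) (G878 _ rfl) (G259 _ rfl) (by decide +kernel))
theorem l467 : HoldsN X3 (Trg.left (Trg.right (Trg.right (Trg.left (Trg.right (Trg.left (chamber 1 1))))))) (Trg.left (Trg.left (Trg.right (Trg.right (Trg.left (Trg.right (chamberN 1 2))))))) :=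
  HoldsN.of_red (k := 16) (m := 16) (leaf ok3 (G92 _ rfl) (G932 _ rfl) (G339 _ rfl) (by decide +kernel))
theorem l468 : HoldsN X3 (Trg.left (Trg.right (Trg.right (Trg.left (Trg.right (Trg.left (chamber 1 1))))))) (Trg.left (Trg.right (Trg.left (Trg.right (Trg.right (Trg.left (Trg.right (chamberN 1 2)))))))) :=
  HoldsN.of_red (k := 16) (m := 16) (leaf ok3 (G124 _ rfl) (G896 _ rfl) (G365 _ rfl) (by decide +kernel))
theorem l469 : HoldsN X3 (Trg.left (Trg.right (Trg.right (Trg.left (Trg.right (Trg.left (chamber 1 1))))))) (Trg.right (Trg.right (Trg.left (Trg.right (Trg.right (Trg.left (Trg.right (chamberN 1 2)))))))) :=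
  HoldsN.of_red (k := 16) (m := 16) (leaf ok3 (G108 _ rfl) (G919 _ rfl) (G366 _ rfl) (by decide +kernel))

end Vale.Agent.Lib.P154N.D4
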