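import Vale.Agent.Lib.P154N.D4.Data
import Vale.Agent.Lib.P154N.Red

/-!
# Leaves of the tree of triangles
-/

namespace Vale.Agent.Lib.P154N.D4

open Vale.Agent.Lib.P154K Vale.Agent.Lib.P154Neg

theorem l470 : HoldsN X3 (Trg.right (Trg.right (Trg.right (Trg.left (Trg.right (Trg.left (chamber 1 1))))))) (Trg.left (Trg.left (Trg.right (Trg.right (Trg.left (Trg.right (chamberN 1 2))))))) :=
  HoldsN.of_red (k := 16) (m := 16) (leaf ok3 (G131 _ rfl) (G906 _ rfl) (G289 _ rfl) (by decide +kernel))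
theorem l471 : HoldsN X3 (Trg.right (Trg.right (Trg.right (Trg.left (Trg.right (Trg.left (chamber 1 1))))))) (Trg.right (Trg.left (Trg.right (Trg.right (Trg.left (Trg.right (chamberN 1 2))))))) :=
  HoldsN.of_red (k := 16) (m := 16) (leaf ok3 (G142 _ rfl) (G878 _ rfl) (G334 _ rfl) (by decide +kernel))
theorem l472 : HoldsN X3 (Trg.right (Trg.left (Trg.right (Trg.left (chamber 1 1))))) (Trg.right (Trg.right (Trg.right (Trg.left (Trg.right (chamberN 1 2)))))) :=
  HoldsN.of_red (k := 16) (m := 16) (leaf ok3 (G70 _ rfl) (G915 _ rfl) (G219 _ rfl) (by decide +kernel))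
theorem l473 : HoldsN X3 (Trg.left (Trg.left (Trg.right (Trg.right (Trg.left (chamber 1 1)))))) (Trg.left (Trg.left (Trg.left (Trg.left (Trg.right (chamberN 1 2)))))) :=
  HoldsN.of_red (k := 16) (m := 16) (leaf ok3 (G52 _ rfl) (G884 _ rfl) (G561 _ rfl) (by decide +kernel))
theorem l474 : HoldsN X3 (Trg.right (Trg.left (Trg.right (Trg.right (Trg.left (chamber 1 1)))))) (Trg.left (Trg.left (Trg.left (Trg.left (Trg.right (chamberN 1 2)))))) :=
  HoldsN.of_red (k := 16) (m := 16) (leaf ok3 (G37 _ rfl) (G883 _ rfl) (G651 _ rfl) (by decide +kernel))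
theorem l475 : HoldsN X3 (Trg.left (Trg.left (Trg.left (Trg.right (Trg.right (Trg.left (chamber 1 1))))))) (Trg.right (Trg.left (Trg.left (Trg.left (Trg.right (chamberN 1 2)))))) :=
  HoldsN.of_red (k := 16) (m := 16) (leaf ok3 (G84 _ rfl) (G876 _ rfl) (G559 _ rfl) (by decide +kernel))
theorem l476 : HoldsN X3 (Trg.right (Trg.left (Trg.left (Trg.right (Trg.right (Trg.left (chamber 1 1))))))) (Trg.left (Trg.right (Trg.left (Trg.left (Trg.left (Trg.right (chamberN 1 2))))))) :=
  HoldsN.of_red (k := 16) (m := 16) (leaf ok3 (G83 _ rfl) (G897 _ rfl) (G513 _ rfl) (by decide +kernel))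
theorem l477 : HoldsN X3 (Trg.right (Trg.left (Trg.left (Trg.right (Trg.right (Trg.left (chamber 1 1))))))) (Trg.right (Trg.right (Trg.left (Trg.left (Trg.left (Trg.right (chamberN 1 2))))))) :=
  HoldsN.of_red (k := 16) (m := 16) (leaf ok3 (G82 _ rfl) (G897 _ rfl) (G559 _ rfl) (by decide +kernel))
theorem l478 : HoldsN X3 (Trg.right (Trg.left (Trg.right (Trg.right (Trg.left (chamber 1 1)))))) (Trg.right (Trg.left (Trg.left (Trg.left (Trg.right (chamberN 1 2)))))) :=
  HoldsN.of_red (k := 16) (m := 16) (leaf ok3 (G61 _ rfl) (G876 _ rfl) (G611 _ rfl) (by decide +kernel))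
theorem l479 : HoldsN X3 (Trg.left (Trg.left (Trg.right (Trg.right (Trg.left (chamber 1 1)))))) (Trg.right (Trg.left (Trg.left (Trg.right (chamberN 1 2))))) :=
  HoldsN.of_red (k := 16) (m := 16) (leaf ok3 (G52 _ rfl) (G884 _ rfl) (G630 _ rfl) (by decide +kernel))

end Vale.Agent.Lib.P154N.D4
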