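import Vale.Agent.Lib.P154N.D4.Data
import Vale.Agent.Lib.P154N.Red

/-!
# Leaves of the tree of triangles
-/

namespace Vale.Agent.Lib.P154N.D4

open Vale.Agent.Lib.P154K Vale.Agent.Lib.P154Neg

theorem l480 : HoldsN X3 (Trg.right (Trg.left (Trg.right (Trg.right (Trg.left (chamber 1 1)))))) (Trg.right (Trg.left (Trg.left (Trg.right (chamberN 1 2))))) :=
  HoldsN.of_red (k := 16) (m := 16) (leaf ok3 (G37 _ rfl) (G883 _ rfl) (G695 _ rfl) (by decide +kernel))
theorem l481 : HoldsN X3 (Trg.left (Trg.right (Trg.right (Trg.left (chamber 1 1))))) (Trg.left (Trg.right (Trg.left (Trg.right (chamberN 1 2))))) :=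
  HoldsN.of_red (k := 16) (m := 16) (leaf ok3 (G27 _ rfl) (G943 _ rfl) (G455 _ rfl) (by decide +kernel))
theorem l482 : HoldsN X3 (Trg.left (Trg.left (Trg.right (Trg.right (Trg.left (chamber 1 1)))))) (Trg.left (Trg.left (Trg.right (Trg.right (Trg.left (Trg.right (chamberN 1 2))))))) :=
  HoldsN.of_red (k := 16) (m := 16) (leaf ok3 (G65 _ rfl) (G906 _ rfl) (G482 _ rfl) (by decide +kernel))
theorem l483 : HoldsN X3 (Trg.left (Trg.left (Trg.right (Trg.right (Trg.left (chamber 1 1)))))) (Trg.right (Trg.left (Trg.right (Trg.right (Trg.left (Trg.right (chamberN 1 2))))))) :=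
  HoldsN.of_red (k := 16) (m := 16) (leaf ok3 (G84 _ rfl) (G877 _ rfl) (G499 _ rfl) (by decide +kernel))
theorem l484 : HoldsN X3 (Trg.right (Trg.left (Trg.right (Trg.right (Trg.left (chamber 1 1)))))) (Trg.left (Trg.right (Trg.right (Trg.left (Trg.right (chamberN 1 2)))))) :=
  HoldsN.of_red (k := 16) (m := 16) (leaf ok3 (G50 _ rfl) (G883 _ rfl) (G607 _ rfl) (by decide +kernel))
theorem l485 : HoldsN X3 (Trg.left (Trg.right (Trg.right (Trg.left (chamber 1 1))))) (Trg.right (Trg.right (Trg.right (Trg.left (Trg.right (chamberN 1 2)))))) :=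
  HoldsN.of_red (k := 16) (m := 16) (leaf ok3 (G36 _ rfl) (G907 _ rfl) (G487 _ rfl) (by decide +kernel))
theorem l486 : HoldsN X3 (Trg.left (Trg.right (Trg.right (Trg.right (Trg.left (chamber 1 1)))))) (Trg.left (Trg.left (Trg.right (chamberN 1 2)))) :=
  HoldsN.of_red (k := 16) (m := 16) (leaf ok3 (G100 _ rfl) (G822 _ rfl) (G415 _ rfl) (by decide +kernel))
theorem l487 : HoldsN X3 (Trg.right (Trg.right (Trg.right (Trg.right (Trg.left (chamber 1 1)))))) (Trg.left (Trg.left (Trg.left (Trg.left (Trg.right (chamberN 1 2)))))) :=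
  HoldsN.of_red (k := 16) (m := 16) (leaf ok3 (G69 _ rfl) (G884 _ rfl) (G481 _ rfl) (by decide +kernel))
theorem l488 : HoldsN X3 (Trg.right (Trg.right (Trg.right (Trg.right (Trg.left (chamber 1 1)))))) (Trg.right (Trg.left (Trg.left (Trg.left (Trg.right (chamberN 1 2)))))) :=
  HoldsN.of_red (k := 16) (m := 16) (leaf ok3 (G111 _ rfl) (G877 _ rfl) (G481 _ rfl) (by decide +kernel))
theorem l489 : HoldsN X3 (Trg.right (Trg.right (Trg.right (Trg.right (Trg.left (chamber 1 1)))))) (Trg.right (Trg.left (Trg.left (Trg.right (chamberN 1 2))))) :=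
  HoldsN.of_red (k := 16) (m := 16) (leaf ok3 (G69 _ rfl) (G884 _ rfl) (G500 _ rfl) (by decide +kernel))

end Vale.Agent.Lib.P154N.D4
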