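import Vale.Agent.Lib.P154N.D4.Data
import Vale.Agent.Lib.P154N.Red

/-!
# Leaves of the tree of triangles
-/

namespace Vale.Agent.Lib.P154N.D4

open Vale.Agent.Lib.P154K Vale.Agent.Lib.P154Neg

theorem l490 : HoldsN X3 (Trg.right (Trg.right (Trg.right (Trg.left (chamber 1 1))))) (Trg.left (Trg.right (Trg.left (Trg.right (chamberN 1 2))))) :=
  HoldsN.of_red (k := 16) (m := 16) (leaf ok3 (G59 _ rfl) (G887 _ rfl) (G323 _ rfl) (by decide +kernel))
theorem l491 : HoldsN X3 (Trg.left (Trg.right (Trg.right (Trg.right (Trg.left (chamber 1 1)))))) (Trg.right (Trg.right (Trg.left (Trg.right (chamberN 1 2))))) :=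
  HoldsN.of_red (k := 16) (m := 16) (leaf ok3 (G100 _ rfl) (G822 _ rfl) (G381 _ rfl) (by decide +kernel))
theorem l492 : HoldsN X3 (Trg.right (Trg.right (Trg.right (Trg.right (Trg.left (chamber 1 1)))))) (Trg.left (Trg.right (Trg.right (Trg.left (Trg.right (chamberN 1 2)))))) :=
  HoldsN.of_red (k := 16) (m := 16) (leaf ok3 (G96 _ rfl) (G883 _ rfl) (G426 _ rfl) (by decide +kernel))
theorem l493 : HoldsN X3 (Trg.right (Trg.right (Trg.right (Trg.right (Trg.left (chamber 1 1)))))) (Trg.right (Trg.right (Trg.right (Trg.left (Trg.right (chamberN 1 2)))))) :=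
  HoldsN.of_red (k := 16) (m := 16) (leaf ok3 (G68 _ rfl) (G907 _ rfl) (G427 _ rfl) (by decide +kernel))
theorem l494 : HoldsN X3 (Trg.left (Trg.left (Trg.left (Trg.left (Trg.left (chamber 1 1)))))) (Trg.left (Trg.left (Trg.right (Trg.right (chamberN 1 2))))) :=
  HoldsN.of_red (k := 16) (m := 16) (leaf ok3 (G213 _ rfl) (G706 _ rfl) (G554 _ rfl) (by decide +kernel))
theorem l495 : HoldsN X3 (Trg.left (Trg.right (Trg.left (Trg.left (Trg.left (Trg.left (chamber 1 1))))))) (Trg.left (Trg.left (Trg.left (Trg.right (Trg.right (chamberN 1 2)))))) :=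
  HoldsN.of_red (k := 16) (m := 16) (leaf ok3 (G336 _ rfl) (G714 _ rfl) (G496 _ rfl) (by decide +kernel))
theorem l496 : HoldsN X3 (Trg.left (Trg.right (Trg.left (Trg.left (Trg.left (Trg.left (chamber 1 1))))))) (Trg.left (Trg.right (Trg.left (Trg.left (Trg.right (Trg.right (chamberN 1 2))))))) :=
  HoldsN.of_red (k := 16) (m := 16) (leaf ok3 (G309 _ rfl) (G769 _ rfl) (G436 _ rfl) (by decide +kernel))
theorem l497 : HoldsN X3 (Trg.left (Trg.right (Trg.left (Trg.left (Trg.left (Trg.left (chamber 1 1))))))) (Trg.right (Trg.right (Trg.left (Trg.left (Trg.right (Trg.right (chamberN 1 2))))))) :=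
  HoldsN.of_red (k := 16) (m := 16) (leaf ok3 (G336 _ rfl) (G714 _ rfl) (G475 _ rfl) (by decide +kernel))
theorem l498 : HoldsN X3 (Trg.right (Trg.right (Trg.left (Trg.left (Trg.left (Trg.left (chamber 1 1))))))) (Trg.left (Trg.left (Trg.right (Trg.right (chamberN 1 2))))) :=
  HoldsN.of_red (k := 16) (m := 16) (leaf ok3 (G213 _ rfl) (G720 _ rfl) (G511 _ rfl) (by decide +kernel))
theorem l499 : HoldsN X3 (Trg.left (Trg.left (Trg.left (Trg.left (chamber 1 1))))) (Trg.right (Trg.left (Trg.right (Trg.right (chamberN 1 2))))) :=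
  HoldsN.of_red (k := 16) (m := 16) (leaf ok3 (G296 _ rfl) (G602 _ rfl) (G514 _ rfl) (by decide +kernel))

end Vale.Agent.Lib.P154N.D4
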