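import Vale.Agent.Lib.P154N.D4.Data
import Vale.Agent.Lib.P154N.Red

/-!
# Leaves of the tree of triangles
-/

namespace Vale.Agent.Lib.P154N.D4

open Vale.Agent.Lib.P154K Vale.Agent.Lib.P154Neg

theorem l50 : HoldsN X2 (Trg.left (Trg.left (Trg.right (chamberN 1 2)))) (Trg.left (Trg.left (Trg.left (chamberN 1 2)))) :=
  HoldsN.of_red (k := 16) (m := 16) (leaf ok2 (G668 _ rfl) (G354 _ rfl) (G228 _ rfl) (by decide +kernel))
theorem l51 : HoldsN X2 (Trg.left (Trg.right (Trg.left (Trg.right (chamberN 1 2))))) (Trg.left (Trg.left (Trg.left (chamberN 1 2)))) :=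
  HoldsN.of_red (k := 16) (m := 16) (leaf ok2 (G698 _ rfl) (G396 _ rfl) (G143 _ rfl) (by decide +kernel))
theorem l52 : HoldsN X2 (Trg.right (Trg.right (Trg.left (Trg.right (chamberN 1 2))))) (Trg.left (Trg.left (Trg.left (chamberN 1 2)))) :=
  HoldsN.of_red (k := 16) (m := 16) (leaf ok2 (G668 _ rfl) (G395 _ rfl) (G212 _ rfl) (by decide +kernel))
theorem l53 : HoldsN X2 (Trg.left (Trg.right (chamberN 1 2))) (Trg.right (Trg.left (Trg.left (chamberN 1 2)))) :=
  HoldsN.of_red (k := 16) (m := 16) (leaf ok2 (G614 _ rfl) (G469 _ rfl) (G316 _ rfl) (by decide +kernel))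
theorem l54 : HoldsN X2 (Trg.left (Trg.left (Trg.right (chamberN 1 2)))) (Trg.right (Trg.left (chamberN 1 2))) :=
  HoldsN.of_red (k := 16) (m := 16) (leaf ok2 (G668 _ rfl) (G357 _ rfl) (G193 _ rfl) (by decide +kernel))
theorem l55 : HoldsN X2 (Trg.right (Trg.left (Trg.right (chamberN 1 2)))) (Trg.right (Trg.left (chamberN 1 2))) :=
  HoldsN.of_red (k := 16) (m := 16) (leaf ok2 (G670 _ rfl) (G397 _ rfl) (G146 _ rfl) (by decide +kernel))
theorem l56 : HoldsN X2 (Trg.left (Trg.left (Trg.right (chamberN 1 2)))) (Trg.left (Trg.right (chamberN 1 2))) :=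
  HoldsN.of_red (k := 16) (m := 16) (leaf ok2 (G829 _ rfl) (G148 _ rfl) (G231 _ rfl) (by decide +kernel))
theorem l57 : HoldsN X2 (Trg.left (Trg.right (Trg.left (Trg.right (chamberN 1 2))))) (Trg.left (Trg.left (Trg.left (Trg.left (Trg.right (chamberN 1 2)))))) :=
  HoldsN.of_red (k := 16) (m := 16) (leaf ok2 (G891 _ rfl) (G238 _ rfl) (G140 _ rfl) (by decide +kernel))
theorem l58 : HoldsN X2 (Trg.left (Trg.left (Trg.right (Trg.left (Trg.right (chamberN 1 2)))))) (Trg.right (Trg.left (Trg.left (Trg.left (Trg.right (chamberN 1 2)))))) :=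
  HoldsN.of_red (k := 16) (m := 16) (leaf ok2 (G875 _ rfl) (G277 _ rfl) (G247 _ rfl) (by decide +kernel))
theorem l59 : HoldsN X2 (Trg.left (Trg.right (Trg.left (Trg.right (Trg.left (Trg.right (chamberN 1 2))))))) (Trg.left (Trg.right (Trg.left (Trg.left (Trg.left (Trg.right (chamberN 1 2))))))) :=
  HoldsN.of_red (k := 16) (m := 16) (leaf ok2 (G898 _ rfl) (G275 _ rfl) (G208 _ rfl) (by decide +kernel))

end Vale.Agent.Lib.P154N.D4
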