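import Vale.Agent.Lib.P154N.D4.Data
import Vale.Agent.Lib.P154N.Red

/-!
# Leaves of the tree of triangles
-/

namespace Vale.Agent.Lib.P154N.D4

open Vale.Agent.Lib.P154K Vale.Agent.Lib.P154Neg

theorem l500 : HoldsN X3 (Trg.right (Trg.left (Trg.left (Trg.left (chamber 1 1))))) (Trg.left (Trg.left (Trg.right (Trg.right (chamberN 1 2))))) :=
  HoldsN.of_red (k := 16) (m := 16) (leaf ok3 (G106 _ rfl) (G710 _ rfl) (G605 _ rfl) (by decide +kernel))
theorem l501 : HoldsN X3 (Trg.right (Trg.left (Trg.left (Trg.left (chamber 1 1))))) (Trg.right (Trg.left (Trg.right (Trg.right (chamberN 1 2))))) :=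
  HoldsN.of_red (k := 16) (m := 16) (leaf ok3 (G179 _ rfl) (G608 _ rfl) (G606 _ rfl) (by decide +kernel))
theorem l502 : HoldsN X3 (Trg.left (Trg.left (Trg.left (Trg.left (chamber 1 1))))) (Trg.left (Trg.right (Trg.right (Trg.right (chamberN 1 2))))) :=
  HoldsN.of_red (k := 16) (m := 16) (leaf ok3 (G122 _ rfl) (G706 _ rfl) (G485 _ rfl) (by decide +kernel))
theorem l503 : HoldsN X3 (Trg.left (Trg.left (Trg.left (Trg.left (Trg.left (chamber 1 1)))))) (Trg.right (Trg.right (Trg.right (Trg.right (chamberN 1 2))))) :=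
  HoldsN.of_red (k := 16) (m := 16) (leaf ok3 (G158 _ rfl) (G706 _ rfl) (G557 _ rfl) (by decide +kernel))
theorem l504 : HoldsN X3 (Trg.left (Trg.right (Trg.left (Trg.left (Trg.left (Trg.left (chamber 1 1))))))) (Trg.right (Trg.right (Trg.right (Trg.right (chamberN 1 2))))) :=
  HoldsN.of_red (k := 16) (m := 16) (leaf ok3 (G249 _ rfl) (G719 _ rfl) (G439 _ rfl) (by decide +kernel))
theorem l505 : HoldsN X3 (Trg.right (Trg.right (Trg.left (Trg.left (Trg.left (Trg.left (chamber 1 1))))))) (Trg.right (Trg.right (Trg.right (Trg.right (chamberN 1 2))))) :=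
  HoldsN.of_red (k := 16) (m := 16) (leaf ok3 (G158 _ rfl) (G720 _ rfl) (G511 _ rfl) (by decide +kernel))
theorem l506 : HoldsN X3 (Trg.left (Trg.right (Trg.left (Trg.left (Trg.left (chamber 1 1)))))) (Trg.left (Trg.left (Trg.right (Trg.right (Trg.right (chamberN 1 2)))))) :=
  HoldsN.of_red (k := 16) (m := 16) (leaf ok3 (G76 _ rfl) (G756 _ rfl) (G691 _ rfl) (by decide +kernel))
theorem l507 : HoldsN X3 (Trg.left (Trg.right (Trg.left (Trg.left (Trg.left (chamber 1 1)))))) (Trg.right (Trg.left (Trg.right (Trg.right (Trg.right (chamberN 1 2)))))) :=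
  HoldsN.of_red (k := 16) (m := 16) (leaf ok3 (G55 _ rfl) (G809 _ rfl) (G695 _ rfl) (by decide +kernel))
theorem l508 : HoldsN X3 (Trg.left (Trg.right (Trg.left (Trg.left (Trg.left (chamber 1 1)))))) (Trg.right (Trg.right (Trg.right (Trg.right (chamberN 1 2))))) :=
  HoldsN.of_red (k := 16) (m := 16) (leaf ok3 (G76 _ rfl) (G758 _ rfl) (G611 _ rfl) (by decide +kernel))
theorem l509 : HoldsN X3 (Trg.right (Trg.right (Trg.left (Trg.left (Trg.left (chamber 1 1)))))) (Trg.right (Trg.right (Trg.right (chamberN 1 2)))) :=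
  HoldsN.of_red (k := 16) (m := 16) (leaf ok3 (G97 _ rfl) (G706 _ rfl) (G615 _ rfl) (by decide +kernel))

end Vale.Agent.Lib.P154N.D4
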