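import Vale.Agent.Lib.P154N.D4.Data
import Vale.Agent.Lib.P154N.Red

/-!
# Leaves of the tree of triangles
-/

namespace Vale.Agent.Lib.P154N.D4

open Vale.Agent.Lib.P154K Vale.Agent.Lib.P154Neg

theorem l510 : HoldsN X3 (Trg.right (Trg.left (Trg.left (chamber 1 1)))) (Trg.left (Trg.left (Trg.right (Trg.right (chamberN 1 2))))) :=
  HoldsN.of_red (k := 16) (m := 16) (leaf ok3 (G266 _ rfl) (G608 _ rfl) (G446 _ rfl) (by decide +kernel))
theorem l511 : HoldsN X3 (Trg.right (Trg.left (Trg.left (chamber 1 1)))) (Trg.right (Trg.left (Trg.right (Trg.right (chamberN 1 2))))) :=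
  HoldsN.of_red (k := 16) (m := 16) (leaf ok3 (G350 _ rfl) (G598 _ rfl) (G514 _ rfl) (by decide +kernel))
theorem l512 : HoldsN X3 (Trg.right (Trg.left (Trg.left (chamber 1 1)))) (Trg.right (Trg.right (Trg.right (chamberN 1 2)))) :=
  HoldsN.of_red (k := 16) (m := 16) (leaf ok3 (G179 _ rfl) (G614 _ rfl) (G450 _ rfl) (by decide +kernel))
theorem l513 : HoldsN X3 (Trg.left (Trg.left (Trg.left (Trg.right (Trg.left (chamber 1 1)))))) (Trg.left (Trg.left (Trg.right (Trg.right (chamberN 1 2))))) :=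
  HoldsN.of_red (k := 16) (m := 16) (leaf ok3 (G175 _ rfl) (G778 _ rfl) (G380 _ rfl) (by decide +kernel))
theorem l514 : HoldsN X3 (Trg.right (Trg.left (Trg.left (Trg.right (Trg.left (chamber 1 1)))))) (Trg.left (Trg.left (Trg.left (Trg.right (Trg.right (chamberN 1 2)))))) :=
  HoldsN.of_red (k := 16) (m := 16) (leaf ok3 (G303 _ rfl) (G718 _ rfl) (G437 _ rfl) (by decide +kernel))
theorem l515 : HoldsN X3 (Trg.left (Trg.left (Trg.left (Trg.right (Trg.left (Trg.left (Trg.right (Trg.left (chamber 1 1))))))))) (Trg.left (Trg.right (Trg.left (Trg.left (Trg.right (Trg.right (chamberN 1 2))))))) :=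
  HoldsN.of_red (k := 16) (m := 16) (leaf ok3 (G344 _ rfl) (G805 _ rfl) (G401 _ rfl) (by decide +kernel))
theorem l516 : HoldsN X3 (Trg.right (Trg.left (Trg.left (Trg.right (Trg.left (Trg.left (Trg.right (Trg.left (chamber 1 1))))))))) (Trg.left (Trg.right (Trg.left (Trg.left (Trg.right (Trg.right (chamberN 1 2))))))) :=
  HoldsN.of_red (k := 16) (m := 16) (leaf ok3 (G287 _ rfl) (G806 _ rfl) (G432 _ rfl) (by decide +kernel))
theorem l517 : HoldsN X3 (Trg.right (Trg.left (Trg.right (Trg.left (Trg.left (Trg.right (Trg.left (chamber 1 1)))))))) (Trg.left (Trg.right (Trg.left (Trg.left (Trg.right (Trg.right (chamberN 1 2))))))) :=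
  HoldsN.of_red (k := 16) (m := 16) (leaf ok3 (G361 _ rfl) (G769 _ rfl) (G401 _ rfl) (by decide +kernel))
theorem l518 : HoldsN X3 (Trg.left (Trg.right (Trg.right (Trg.left (Trg.left (Trg.right (Trg.left (chamber 1 1)))))))) (Trg.left (Trg.left (Trg.right (Trg.left (Trg.left (Trg.right (Trg.right (chamberN 1 2)))))))) :=
  HoldsN.of_red (k := 16) (m := 16) (leaf ok3 (G334 _ rfl) (G805 _ rfl) (G400 _ rfl) (by decide +kernel))
theorem l519 : HoldsN X3 (Trg.left (Trg.right (Trg.right (Trg.left (Trg.left (Trg.right (Trg.left (chamber 1 1)))))))) (Trg.left (Trg.right (Trg.left (Trg.right (Trg.left (Trg.left (Trg.right (Trg.right (chamberN 1 2))))))))) :=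
  HoldsN.of_red (k := 16) (m := 16) (leaf ok3 (G333 _ rfl) (G833 _ rfl) (G369 _ rfl) (by decide +kernel))

end Vale.Agent.Lib.P154N.D4
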