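import Vale.Agent.Lib.P154N.D4.Data
import Vale.Agent.Lib.P154N.Red

/-!
# Leaves of the tree of triangles
-/

namespace Vale.Agent.Lib.P154N.D4

open Vale.Agent.Lib.P154K Vale.Agent.Lib.P154Neg

theorem l520 : HoldsN X3 (Trg.left (Trg.right (Trg.right (Trg.left (Trg.left (Trg.right (Trg.left (chamber 1 1)))))))) (Trg.right (Trg.right (Trg.left (Trg.right (Trg.left (Trg.left (Trg.right (Trg.right (chamberN 1 2))))))))) :=
  HoldsN.of_red (k := 16) (m := 16) (leaf ok3 (G334 _ rfl) (G805 _ rfl) (G388 _ rfl) (by decide +kernel))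
theorem l521 : HoldsN X3 (Trg.left (Trg.right (Trg.right (Trg.right (Trg.left (Trg.left (Trg.right (Trg.left (chamber 1 1))))))))) (Trg.left (Trg.right (Trg.left (Trg.left (Trg.right (Trg.right (chamberN 1 2))))))) :=
  HoldsN.of_red (k := 16) (m := 16) (leaf ok3 (G286 _ rfl) (G818 _ rfl) (G421 _ rfl) (by decide +kernel))
theorem l522 : HoldsN X3 (Trg.right (Trg.right (Trg.right (Trg.right (Trg.left (Trg.left (Trg.right (Trg.left (chamber 1 1))))))))) (Trg.left (Trg.right (Trg.left (Trg.left (Trg.right (Trg.right (chamberN 1 2))))))) :=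
  HoldsN.of_red (k := 16) (m := 16) (leaf ok3 (G334 _ rfl) (G806 _ rfl) (G400 _ rfl) (by decide +kernel))
theorem l523 : HoldsN X3 (Trg.right (Trg.left (Trg.left (Trg.right (Trg.left (chamber 1 1)))))) (Trg.right (Trg.right (Trg.left (Trg.left (Trg.right (Trg.right (chamberN 1 2))))))) :=
  HoldsN.of_red (k := 16) (m := 16) (leaf ok3 (G303 _ rfl) (G718 _ rfl) (G421 _ rfl) (by decide +kernel))
theorem l524 : HoldsN X3 (Trg.right (Trg.left (Trg.right (Trg.left (chamber 1 1))))) (Trg.left (Trg.left (Trg.right (Trg.right (chamberN 1 2))))) :=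
  HoldsN.of_red (k := 16) (m := 16) (leaf ok3 (G175 _ rfl) (G778 _ rfl) (G322 _ rfl) (by decide +kernel))
theorem l525 : HoldsN X3 (Trg.left (Trg.right (Trg.left (chamber 1 1)))) (Trg.right (Trg.left (Trg.right (Trg.right (chamberN 1 2))))) :=
  HoldsN.of_red (k := 16) (m := 16) (leaf ok3 (G241 _ rfl) (G614 _ rfl) (G443 _ rfl) (by decide +kernel))
theorem l526 : HoldsN X3 (Trg.left (Trg.right (Trg.right (Trg.left (chamber 1 1))))) (Trg.left (Trg.left (Trg.right (Trg.right (chamberN 1 2))))) :=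
  HoldsN.of_red (k := 16) (m := 16) (leaf ok3 (G105 _ rfl) (G778 _ rfl) (G521 _ rfl) (by decide +kernel))
theorem l527 : HoldsN X3 (Trg.left (Trg.right (Trg.right (Trg.left (chamber 1 1))))) (Trg.right (Trg.left (Trg.right (Trg.right (chamberN 1 2))))) :=
  HoldsN.of_red (k := 16) (m := 16) (leaf ok3 (G179 _ rfl) (G610 _ rfl) (G564 _ rfl) (by decide +kernel))
theorem l528 : HoldsN X3 (Trg.left (Trg.left (Trg.right (Trg.right (Trg.right (Trg.left (chamber 1 1))))))) (Trg.left (Trg.left (Trg.left (Trg.right (Trg.right (chamberN 1 2)))))) :=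
  HoldsN.of_red (k := 16) (m := 16) (leaf ok3 (G249 _ rfl) (G745 _ rfl) (G540 _ rfl) (by decide +kernel))
theorem l529 : HoldsN X3 (Trg.left (Trg.left (Trg.right (Trg.right (Trg.right (Trg.left (chamber 1 1))))))) (Trg.right (Trg.left (Trg.left (Trg.right (Trg.right (chamberN 1 2)))))) :=
  HoldsN.of_red (k := 16) (m := 16) (leaf ok3 (G212 _ rfl) (G750 _ rfl) (G477 _ rfl) (by decide +kernel))

end Vale.Agent.Lib.P154N.D4
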