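import Vale.Agent.Lib.P154N.D4.Data
import Vale.Agent.Lib.P154N.Red

/-!
# Leaves of the tree of triangles
-/

namespace Vale.Agent.Lib.P154N.D4

open Vale.Agent.Lib.P154K Vale.Agent.Lib.P154Neg

theorem l530 : HoldsN X3 (Trg.right (Trg.left (Trg.right (Trg.right (Trg.right (Trg.left (chamber 1 1))))))) (Trg.left (Trg.left (Trg.left (Trg.right (Trg.right (chamberN 1 2)))))) :=
  HoldsN.of_red (k := 16) (m := 16) (leaf ok3 (G303 _ rfl) (G717 _ rfl) (G494 _ rfl) (by decide +kernel))
theorem l531 : HoldsN X3 (Trg.left (Trg.right (Trg.left (Trg.right (Trg.right (Trg.right (Trg.left (chamber 1 1)))))))) (Trg.left (Trg.right (Trg.left (Trg.left (Trg.right (Trg.right (chamberN 1 2))))))) :=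
  HoldsN.of_red (k := 16) (m := 16) (leaf ok3 (G309 _ rfl) (G769 _ rfl) (G433 _ rfl) (by decide +kernel))
theorem l532 : HoldsN X3 (Trg.right (Trg.right (Trg.left (Trg.right (Trg.right (Trg.right (Trg.left (chamber 1 1)))))))) (Trg.left (Trg.right (Trg.left (Trg.left (Trg.right (Trg.right (chamberN 1 2))))))) :=
  HoldsN.of_red (k := 16) (m := 16) (leaf ok3 (G287 _ rfl) (G806 _ rfl) (G461 _ rfl) (by decide +kernel))
theorem l533 : HoldsN X3 (Trg.right (Trg.left (Trg.right (Trg.right (Trg.right (Trg.left (chamber 1 1))))))) (Trg.right (Trg.right (Trg.left (Trg.left (Trg.right (Trg.right (chamberN 1 2))))))) :=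
  HoldsN.of_red (k := 16) (m := 16) (leaf ok3 (G303 _ rfl) (G717 _ rfl) (G472 _ rfl) (by decide +kernel))
theorem l534 : HoldsN X3 (Trg.right (Trg.right (Trg.right (Trg.right (Trg.left (chamber 1 1)))))) (Trg.left (Trg.left (Trg.right (Trg.right (chamberN 1 2))))) :=
  HoldsN.of_red (k := 16) (m := 16) (leaf ok3 (G172 _ rfl) (G778 _ rfl) (G481 _ rfl) (by decide +kernel))
theorem l535 : HoldsN X3 (Trg.right (Trg.right (Trg.right (Trg.left (chamber 1 1))))) (Trg.right (Trg.left (Trg.right (Trg.right (chamberN 1 2))))) :=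
  HoldsN.of_red (k := 16) (m := 16) (leaf ok3 (G241 _ rfl) (G610 _ rfl) (G512 _ rfl) (by decide +kernel))
theorem l536 : HoldsN X3 (Trg.left (Trg.left (Trg.left (Trg.right (Trg.left (chamber 1 1)))))) (Trg.left (Trg.right (Trg.right (Trg.right (chamberN 1 2))))) :=
  HoldsN.of_red (k := 16) (m := 16) (leaf ok3 (G87 _ rfl) (G796 _ rfl) (G429 _ rfl) (by decide +kernel))
theorem l537 : HoldsN X3 (Trg.left (Trg.left (Trg.left (Trg.left (Trg.right (Trg.left (chamber 1 1))))))) (Trg.right (Trg.right (Trg.right (Trg.right (chamberN 1 2))))) :=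
  HoldsN.of_red (k := 16) (m := 16) (leaf ok3 (G183 _ rfl) (G793 _ rfl) (G377 _ rfl) (by decide +kernel))
theorem l538 : HoldsN X3 (Trg.left (Trg.right (Trg.left (Trg.left (Trg.left (Trg.right (Trg.left (chamber 1 1)))))))) (Trg.left (Trg.left (Trg.right (Trg.right (Trg.right (Trg.right (chamberN 1 2))))))) :=
  HoldsN.of_red (k := 16) (m := 16) (leaf ok3 (G118 _ rfl) (G856 _ rfl) (G477 _ rfl) (by decide +kernel))
theorem l539 : HoldsN X3 (Trg.left (Trg.right (Trg.left (Trg.left (Trg.left (Trg.right (Trg.left (chamber 1 1)))))))) (Trg.right (Trg.left (Trg.right (Trg.right (Trg.right (Trg.right (chamberN 1 2))))))) :=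
  HoldsN.of_red (k := 16) (m := 16) (leaf ok3 (G137 _ rfl) (G856 _ rfl) (G436 _ rfl) (by decide +kernel))

end Vale.Agent.Lib.P154N.D4
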