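import Vale.Agent.Lib.P154N.D4.Data
import Vale.Agent.Lib.P154N.Red

/-!
# Leaves of the tree of triangles
-/

namespace Vale.Agent.Lib.P154N.D4

open Vale.Agent.Lib.P154K Vale.Agent.Lib.P154Neg

theorem l540 : HoldsN X3 (Trg.right (Trg.right (Trg.left (Trg.left (Trg.left (Trg.right (Trg.left (chamber 1 1)))))))) (Trg.left (Trg.right (Trg.right (Trg.right (Trg.right (chamberN 1 2)))))) :=
  HoldsN.of_red (k := 16) (m := 16) (leaf ok3 (G155 _ rfl) (G836 _ rfl) (G436 _ rfl) (by decide +kernel))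
theorem l541 : HoldsN X3 (Trg.right (Trg.left (Trg.left (Trg.left (Trg.right (Trg.left (chamber 1 1))))))) (Trg.right (Trg.right (Trg.right (Trg.right (Trg.right (chamberN 1 2)))))) :=
  HoldsN.of_red (k := 16) (m := 16) (leaf ok3 (G120 _ rfl) (G795 _ rfl) (G510 _ rfl) (by decide +kernel))
theorem l542 : HoldsN X3 (Trg.right (Trg.left (Trg.left (Trg.right (Trg.left (chamber 1 1)))))) (Trg.left (Trg.right (Trg.right (Trg.right (chamberN 1 2))))) :=
  HoldsN.of_red (k := 16) (m := 16) (leaf ok3 (G159 _ rfl) (G756 _ rfl) (G426 _ rfl) (by decide +kernel))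
theorem l543 : HoldsN X3 (Trg.right (Trg.left (Trg.left (Trg.right (Trg.left (chamber 1 1)))))) (Trg.left (Trg.right (Trg.right (Trg.right (Trg.right (chamberN 1 2)))))) :=
  HoldsN.of_red (k := 16) (m := 16) (leaf ok3 (G212 _ rfl) (G791 _ rfl) (G374 _ rfl) (by decide +kernel))
theorem l544 : HoldsN X3 (Trg.right (Trg.left (Trg.left (Trg.right (Trg.left (chamber 1 1)))))) (Trg.right (Trg.right (Trg.right (Trg.right (Trg.right (chamberN 1 2)))))) :=
  HoldsN.of_red (k := 16) (m := 16) (leaf ok3 (G212 _ rfl) (G753 _ rfl) (G425 _ rfl) (by decide +kernel))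
theorem l545 : HoldsN X3 (Trg.right (Trg.left (Trg.right (Trg.left (chamber 1 1))))) (Trg.left (Trg.right (Trg.right (Trg.right (chamberN 1 2))))) :=
  HoldsN.of_red (k := 16) (m := 16) (leaf ok3 (G87 _ rfl) (G815 _ rfl) (G385 _ rfl) (by decide +kernel))
theorem l546 : HoldsN X3 (Trg.left (Trg.right (Trg.left (Trg.right (Trg.left (chamber 1 1)))))) (Trg.right (Trg.right (Trg.right (Trg.right (chamberN 1 2))))) :=
  HoldsN.of_red (k := 16) (m := 16) (leaf ok3 (G157 _ rfl) (G813 _ rfl) (G317 _ rfl) (by decide +kernel))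
theorem l547 : HoldsN X3 (Trg.left (Trg.right (Trg.right (Trg.left (Trg.right (Trg.left (chamber 1 1))))))) (Trg.left (Trg.left (Trg.left (Trg.right (Trg.right (Trg.right (Trg.right (chamberN 1 2)))))))) :=
  HoldsN.of_red (k := 16) (m := 16) (leaf ok3 (G137 _ rfl) (G866 _ rfl) (G437 _ rfl) (by decide +kernel))
theorem l548 : HoldsN X3 (Trg.left (Trg.right (Trg.right (Trg.left (Trg.right (Trg.left (chamber 1 1))))))) (Trg.right (Trg.left (Trg.left (Trg.right (Trg.right (Trg.right (Trg.right (chamberN 1 2)))))))) :=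
  HoldsN.of_red (k := 16) (m := 16) (leaf ok3 (G116 _ rfl) (G889 _ rfl) (G439 _ rfl) (by decide +kernel))
theorem l549 : HoldsN X3 (Trg.left (Trg.left (Trg.right (Trg.right (Trg.left (Trg.right (Trg.left (chamber 1 1)))))))) (Trg.right (Trg.left (Trg.right (Trg.right (Trg.right (Trg.right (chamberN 1 2))))))) :=
  HoldsN.of_red (k := 16) (m := 16) (leaf ok3 (G161 _ rfl) (G866 _ rfl) (G402 _ rfl) (by decide +kernel))

end Vale.Agent.Lib.P154N.D4
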