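import Vale.Agent.Lib.P154N.D4.Data
import Vale.Agent.Lib.P154N.Red

/-!
# Leaves of the tree of triangles
-/

namespace Vale.Agent.Lib.P154N.D4

open Vale.Agent.Lib.P154K Vale.Agent.Lib.P154Neg

theorem l550 : HoldsN X3 (Trg.right (Trg.left (Trg.right (Trg.right (Trg.left (Trg.right (Trg.left (chamber 1 1)))))))) (Trg.right (Trg.left (Trg.right (Trg.right (Trg.right (Trg.right (chamberN 1 2))))))) :=
  HoldsN.of_red (k := 16) (m := 16) (leaf ok3 (G137 _ rfl) (G865 _ rfl) (G436 _ rfl) (by decide +kernel))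
theorem l551 : HoldsN X3 (Trg.left (Trg.right (Trg.right (Trg.left (Trg.right (Trg.left (chamber 1 1))))))) (Trg.right (Trg.right (Trg.right (Trg.right (Trg.right (chamberN 1 2)))))) :=
  HoldsN.of_red (k := 16) (m := 16) (leaf ok3 (G119 _ rfl) (G820 _ rfl) (G497 _ rfl) (by decide +kernel))
theorem l552 : HoldsN X3 (Trg.right (Trg.right (Trg.right (Trg.left (Trg.right (Trg.left (chamber 1 1))))))) (Trg.right (Trg.right (Trg.right (Trg.right (chamberN 1 2))))) :=
  HoldsN.of_red (k := 16) (m := 16) (leaf ok3 (G157 _ rfl) (G812 _ rfl) (G376 _ rfl) (by decide +kernel))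
theorem l553 : HoldsN X3 (Trg.left (Trg.right (Trg.right (Trg.left (chamber 1 1))))) (Trg.left (Trg.left (Trg.right (Trg.right (Trg.right (chamberN 1 2)))))) :=
  HoldsN.of_red (k := 16) (m := 16) (leaf ok3 (G76 _ rfl) (G779 _ rfl) (G650 _ rfl) (by decide +kernel))
theorem l554 : HoldsN X3 (Trg.left (Trg.right (Trg.right (Trg.left (chamber 1 1))))) (Trg.right (Trg.left (Trg.right (Trg.right (Trg.right (chamberN 1 2)))))) :=
  HoldsN.of_red (k := 16) (m := 16) (leaf ok3 (G55 _ rfl) (G838 _ rfl) (G653 _ rfl) (by decide +kernel))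
theorem l555 : HoldsN X3 (Trg.left (Trg.left (Trg.left (Trg.right (Trg.right (Trg.left (chamber 1 1))))))) (Trg.left (Trg.right (Trg.right (Trg.right (Trg.right (chamberN 1 2)))))) :=
  HoldsN.of_red (k := 16) (m := 16) (leaf ok3 (G95 _ rfl) (G837 _ rfl) (G559 _ rfl) (by decide +kernel))
theorem l556 : HoldsN X3 (Trg.right (Trg.left (Trg.left (Trg.right (Trg.right (Trg.left (chamber 1 1))))))) (Trg.left (Trg.left (Trg.right (Trg.right (Trg.right (Trg.right (chamberN 1 2))))))) :=
  HoldsN.of_red (k := 16) (m := 16) (leaf ok3 (G94 _ rfl) (G856 _ rfl) (G581 _ rfl) (by decide +kernel))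
theorem l557 : HoldsN X3 (Trg.right (Trg.left (Trg.left (Trg.right (Trg.right (Trg.left (chamber 1 1))))))) (Trg.right (Trg.left (Trg.right (Trg.right (Trg.right (Trg.right (chamberN 1 2))))))) :=
  HoldsN.of_red (k := 16) (m := 16) (leaf ok3 (G114 _ rfl) (G856 _ rfl) (G513 _ rfl) (by decide +kernel))
theorem l558 : HoldsN X3 (Trg.left (Trg.left (Trg.right (Trg.right (Trg.left (chamber 1 1)))))) (Trg.right (Trg.right (Trg.right (Trg.right (Trg.right (chamberN 1 2)))))) :=
  HoldsN.of_red (k := 16) (m := 16) (leaf ok3 (G96 _ rfl) (G779 _ rfl) (G599 _ rfl) (by decide +kernel))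
theorem l559 : HoldsN X3 (Trg.right (Trg.left (Trg.right (Trg.right (Trg.left (chamber 1 1)))))) (Trg.right (Trg.right (Trg.right (Trg.right (chamberN 1 2))))) :=
  HoldsN.of_red (k := 16) (m := 16) (leaf ok3 (G76 _ rfl) (G778 _ rfl) (G611 _ rfl) (by decide +kernel))

end Vale.Agent.Lib.P154N.D4
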