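import Vale.Agent.Lib.P154N.D4.Data
import Vale.Agent.Lib.P154N.Red

/-!
# Leaves of the tree of triangles
-/

namespace Vale.Agent.Lib.P154N.D4

open Vale.Agent.Lib.P154K Vale.Agent.Lib.P154Neg

theorem l560 : HoldsN X3 (Trg.left (Trg.right (Trg.right (Trg.right (Trg.left (chamber 1 1)))))) (Trg.left (Trg.right (Trg.right (Trg.right (chamberN 1 2))))) :=
  HoldsN.of_red (k := 16) (m := 16) (leaf ok3 (G122 _ rfl) (G753 _ rfl) (G484 _ rfl) (by decide +kernel))
theorem l561 : HoldsN X3 (Trg.left (Trg.left (Trg.right (Trg.right (Trg.right (Trg.left (chamber 1 1))))))) (Trg.right (Trg.right (Trg.right (Trg.right (chamberN 1 2))))) :=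
  HoldsN.of_red (k := 16) (m := 16) (leaf ok3 (G156 _ rfl) (G767 _ rfl) (G481 _ rfl) (by decide +kernel))
theorem l562 : HoldsN X3 (Trg.right (Trg.left (Trg.right (Trg.right (Trg.right (Trg.left (chamber 1 1))))))) (Trg.left (Trg.right (Trg.right (Trg.right (Trg.right (chamberN 1 2)))))) :=
  HoldsN.of_red (k := 16) (m := 16) (leaf ok3 (G212 _ rfl) (G790 _ rfl) (G434 _ rfl) (by decide +kernel))
theorem l563 : HoldsN X3 (Trg.right (Trg.left (Trg.right (Trg.right (Trg.right (Trg.left (chamber 1 1))))))) (Trg.right (Trg.right (Trg.right (Trg.right (Trg.right (chamberN 1 2)))))) :=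
  HoldsN.of_red (k := 16) (m := 16) (leaf ok3 (G212 _ rfl) (G752 _ rfl) (G476 _ rfl) (by decide +kernel))
theorem l564 : HoldsN X3 (Trg.right (Trg.right (Trg.right (Trg.right (Trg.left (chamber 1 1)))))) (Trg.left (Trg.right (Trg.right (Trg.right (chamberN 1 2))))) :=
  HoldsN.of_red (k := 16) (m := 16) (leaf ok3 (G86 _ rfl) (G780 _ rfl) (G561 _ rfl) (by decide +kernel))
theorem l565 : HoldsN X3 (Trg.left (Trg.left (Trg.right (Trg.right (Trg.right (Trg.right (Trg.left (chamber 1 1)))))))) (Trg.left (Trg.right (Trg.right (Trg.right (Trg.right (chamberN 1 2)))))) :=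
  HoldsN.of_red (k := 16) (m := 16) (leaf ok3 (G130 _ rfl) (G836 _ rfl) (G480 _ rfl) (by decide +kernel))
theorem l566 : HoldsN X3 (Trg.right (Trg.left (Trg.right (Trg.right (Trg.right (Trg.right (Trg.left (chamber 1 1)))))))) (Trg.left (Trg.right (Trg.right (Trg.right (Trg.right (chamberN 1 2)))))) :=
  HoldsN.of_red (k := 16) (m := 16) (leaf ok3 (G117 _ rfl) (G856 _ rfl) (G497 _ rfl) (by decide +kernel))
theorem l567 : HoldsN X3 (Trg.right (Trg.right (Trg.right (Trg.right (Trg.right (Trg.left (chamber 1 1))))))) (Trg.left (Trg.right (Trg.right (Trg.right (Trg.right (chamberN 1 2)))))) :=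
  HoldsN.of_red (k := 16) (m := 16) (leaf ok3 (G130 _ rfl) (G835 _ rfl) (G481 _ rfl) (by decide +kernel))
theorem l568 : HoldsN X3 (Trg.right (Trg.right (Trg.right (Trg.right (Trg.left (chamber 1 1)))))) (Trg.right (Trg.right (Trg.right (Trg.right (Trg.right (chamberN 1 2)))))) :=
  HoldsN.of_red (k := 16) (m := 16) (leaf ok3 (G120 _ rfl) (G779 _ rfl) (G540 _ rfl) (by decide +kernel))
theorem l569 : HoldsN X3 (Trg.left (Trg.left (Trg.right (chamber 1 1)))) (Trg.left (Trg.left (Trg.left (Trg.left (chamberN 1 2))))) :=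
  HoldsN.of_red (k := 16) (m := 16) (leaf ok3 (G100 _ rfl) (G416 _ rfl) (G801 _ rfl) (by decide +kernel))

end Vale.Agent.Lib.P154N.D4
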