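import Vale.Agent.Lib.P154N.D4.Data
import Vale.Agent.Lib.P154N.Red

/-!
# Leaves of the tree of triangles
-/

namespace Vale.Agent.Lib.P154N.D4

open Vale.Agent.Lib.P154K Vale.Agent.Lib.P154Neg

theorem l570 : HoldsN X3 (Trg.left (Trg.left (Trg.right (chamber 1 1)))) (Trg.right (Trg.left (Trg.left (Trg.left (chamberN 1 2))))) :=
  HoldsN.of_red (k := 16) (m := 16) (leaf ok3 (G40 _ rfl) (G621 _ rfl) (G803 _ rfl) (by decide +kernel))
theorem l571 : HoldsN X3 (Trg.left (Trg.right (Trg.left (Trg.right (chamber 1 1))))) (Trg.left (Trg.left (Trg.left (chamberN 1 2)))) :=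
  HoldsN.of_red (k := 16) (m := 16) (leaf ok3 (G29 _ rfl) (G332 _ rfl) (G871 _ rfl) (by decide +kernel))
theorem l572 : HoldsN X3 (Trg.right (Trg.right (Trg.left (Trg.right (chamber 1 1))))) (Trg.left (Trg.left (Trg.left (Trg.left (chamberN 1 2))))) :=
  HoldsN.of_red (k := 16) (m := 16) (leaf ok3 (G100 _ rfl) (G386 _ rfl) (G821 _ rfl) (by decide +kernel))
theorem l573 : HoldsN X3 (Trg.right (Trg.right (Trg.left (Trg.right (chamber 1 1))))) (Trg.right (Trg.left (Trg.left (Trg.left (chamberN 1 2))))) :=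
  HoldsN.of_red (k := 16) (m := 16) (leaf ok3 (G40 _ rfl) (G617 _ rfl) (G827 _ rfl) (by decide +kernel))
theorem l574 : HoldsN X3 (Trg.left (Trg.right (chamber 1 1))) (Trg.right (Trg.left (Trg.left (chamberN 1 2)))) :=
  HoldsN.of_red (k := 16) (m := 16) (leaf ok3 (G107 _ rfl) (G331 _ rfl) (G623 _ rfl) (by decide +kernel))
theorem l575 : HoldsN X3 (Trg.left (Trg.left (Trg.right (chamber 1 1)))) (Trg.left (Trg.right (Trg.left (chamberN 1 2)))) :=
  HoldsN.of_red (k := 16) (m := 16) (leaf ok3 (G72 _ rfl) (G271 _ rfl) (G829 _ rfl) (by decide +kernel))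
theorem l576 : HoldsN X3 (Trg.left (Trg.left (Trg.right (chamber 1 1)))) (Trg.left (Trg.right (Trg.right (Trg.left (chamberN 1 2))))) :=
  HoldsN.of_red (k := 16) (m := 16) (leaf ok3 (G39 _ rfl) (G530 _ rfl) (G884 _ rfl) (by decide +kernel))
theorem l577 : HoldsN X3 (Trg.left (Trg.left (Trg.right (chamber 1 1)))) (Trg.right (Trg.right (Trg.right (Trg.left (chamberN 1 2))))) :=
  HoldsN.of_red (k := 16) (m := 16) (leaf ok3 (G72 _ rfl) (G415 _ rfl) (G828 _ rfl) (by decide +kernel))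
theorem l578 : HoldsN X3 (Trg.left (Trg.right (Trg.left (Trg.right (chamber 1 1))))) (Trg.right (Trg.left (chamberN 1 2))) :=
  HoldsN.of_red (k := 16) (m := 16) (leaf ok3 (G29 _ rfl) (G152 _ rfl) (G887 _ rfl) (by decide +kernel))
theorem l579 : HoldsN X3 (Trg.right (Trg.right (Trg.left (Trg.right (chamber 1 1))))) (Trg.left (Trg.right (Trg.left (chamberN 1 2)))) :=
  HoldsN.of_red (k := 16) (m := 16) (leaf ok3 (G72 _ rfl) (G219 _ rfl) (G829 _ rfl) (by decide +kernel))

end Vale.Agent.Lib.P154N.D4
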