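import Vale.Agent.Lib.P154N.D4.Data
import Vale.Agent.Lib.P154N.Red

/-!
# Leaves of the tree of triangles
-/

namespace Vale.Agent.Lib.P154N.D4

open Vale.Agent.Lib.P154K Vale.Agent.Lib.P154Neg

theorem l580 : HoldsN X3 (Trg.right (Trg.right (Trg.left (Trg.right (chamber 1 1))))) (Trg.left (Trg.right (Trg.right (Trg.left (chamberN 1 2))))) :=
  HoldsN.of_red (k := 16) (m := 16) (leaf ok3 (G39 _ rfl) (G487 _ rfl) (G884 _ rfl) (by decide +kernel))
theorem l581 : HoldsN X3 (Trg.right (Trg.right (Trg.left (Trg.right (chamber 1 1))))) (Trg.right (Trg.right (Trg.right (Trg.left (chamberN 1 2))))) :=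
  HoldsN.of_red (k := 16) (m := 16) (leaf ok3 (G72 _ rfl) (G381 _ rfl) (G828 _ rfl) (by decide +kernel))
theorem l582 : HoldsN X3 (Trg.left (Trg.left (Trg.right (chamber 1 1)))) (Trg.left (Trg.left (Trg.right (chamberN 1 2)))) :=
  HoldsN.of_red (k := 16) (m := 16) (leaf ok3 (G21 _ rfl) (G725 _ rfl) (G725 _ rfl) (by decide +kernel))
theorem l583 : HoldsN X3 (Trg.left (Trg.left (Trg.left (Trg.right (chamber 1 1))))) (Trg.left (Trg.right (Trg.left (Trg.right (chamberN 1 2))))) :=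
  HoldsN.of_red (k := 16) (m := 16) (leaf ok3 (G11 _ rfl) (G855 _ rfl) (G843 _ rfl) (by decide +kernel))
theorem l584 : HoldsN X3 (Trg.right (Trg.left (Trg.left (Trg.right (chamber 1 1))))) (Trg.left (Trg.right (Trg.left (Trg.right (chamberN 1 2))))) :=
  HoldsN.of_red (k := 16) (m := 16) (leaf ok3 (G10 _ rfl) (G925 _ rfl) (G786 _ rfl) (by decide +kernel))
theorem l585 : HoldsN X3 (Trg.left (Trg.left (Trg.right (chamber 1 1)))) (Trg.right (Trg.right (Trg.left (Trg.right (chamberN 1 2))))) :=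
  HoldsN.of_red (k := 16) (m := 16) (leaf ok3 (G21 _ rfl) (G827 _ rfl) (G724 _ rfl) (by decide +kernel))
theorem l586 : HoldsN X3 (Trg.left (Trg.right (Trg.left (Trg.right (chamber 1 1))))) (Trg.left (Trg.left (Trg.left (Trg.left (Trg.right (chamberN 1 2)))))) :=
  HoldsN.of_red (k := 16) (m := 16) (leaf ok3 (G10 _ rfl) (G843 _ rfl) (G918 _ rfl) (by decide +kernel))
theorem l587 : HoldsN X3 (Trg.left (Trg.right (Trg.left (Trg.right (chamber 1 1))))) (Trg.right (Trg.left (Trg.left (Trg.left (Trg.right (chamberN 1 2)))))) :=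
  HoldsN.of_red (k := 16) (m := 16) (leaf ok3 (G22 _ rfl) (G841 _ rfl) (G854 _ rfl) (by decide +kernel))
theorem l588 : HoldsN X3 (Trg.left (Trg.right (Trg.left (Trg.right (chamber 1 1))))) (Trg.right (Trg.left (Trg.left (Trg.right (chamberN 1 2))))) :=
  HoldsN.of_red (k := 16) (m := 16) (leaf ok3 (G10 _ rfl) (G786 _ rfl) (G925 _ rfl) (by decide +kernel))
theorem l589 : HoldsN X3 (Trg.left (Trg.left (Trg.right (Trg.left (Trg.right (chamber 1 1)))))) (Trg.left (Trg.left (Trg.right (Trg.left (Trg.right (chamberN 1 2)))))) :=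
  HoldsN.of_red (k := 16) (m := 16) (leaf ok3 (G5 _ rfl) (G909 _ rfl) (G909 _ rfl) (by decide +kernel))

end Vale.Agent.Lib.P154N.D4
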