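import Vale.Agent.Lib.P154N.D4.Data
import Vale.Agent.Lib.P154N.Red

/-!
# Leaves of the tree of triangles
-/

namespace Vale.Agent.Lib.P154N.D4

open Vale.Agent.Lib.P154K Vale.Agent.Lib.P154Neg

theorem l590 : HoldsN X3 (Trg.left (Trg.left (Trg.left (Trg.left (Trg.right (Trg.left (Trg.right (chamber 1 1)))))))) (Trg.left (Trg.right (Trg.left (Trg.right (Trg.left (Trg.right (chamberN 1 2))))))) :=
  HoldsN.of_red (k := 16) (m := 16) (leaf ok3 top3 (G966 _ rfl) (G949 _ rfl) (by decide +kernel))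
theorem l591 : HoldsN X3 (Trg.right (Trg.left (Trg.left (Trg.left (Trg.right (Trg.left (Trg.right (chamber 1 1)))))))) (Trg.left (Trg.right (Trg.left (Trg.right (Trg.left (Trg.right (chamberN 1 2))))))) :=
  HoldsN.of_red (k := 16) (m := 16) (leaf ok3 (G4 _ rfl) (G951 _ rfl) (G947 _ rfl) (by decide +kernel))
theorem l592 : HoldsN X3 (Trg.right (Trg.left (Trg.left (Trg.right (Trg.left (Trg.right (chamber 1 1))))))) (Trg.left (Trg.right (Trg.left (Trg.right (Trg.left (Trg.right (chamberN 1 2))))))) :=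
  HoldsN.of_red (k := 16) (m := 16) (leaf ok3 top3 (G968 _ rfl) (G936 _ rfl) (by decide +kernel))
theorem l593 : HoldsN X3 (Trg.left (Trg.left (Trg.right (Trg.left (Trg.right (chamber 1 1)))))) (Trg.right (Trg.right (Trg.left (Trg.right (Trg.left (Trg.right (chamberN 1 2))))))) :=
  HoldsN.of_red (k := 16) (m := 16) (leaf ok3 (G5 _ rfl) (G940 _ rfl) (G908 _ rfl) (by decide +kernel))
theorem l594 : HoldsN X3 (Trg.left (Trg.right (Trg.left (Trg.right (Trg.left (Trg.right (chamber 1 1))))))) (Trg.left (Trg.right (Trg.left (Trg.right (chamberN 1 2))))) :=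
  HoldsN.of_red (k := 16) (m := 16) (leaf ok3 top3 (G937 _ rfl) (G952 _ rfl) (by decide +kernel))
theorem l595 : HoldsN X3 (Trg.right (Trg.right (Trg.left (Trg.right (Trg.left (Trg.right (chamber 1 1))))))) (Trg.left (Trg.left (Trg.right (Trg.left (Trg.right (chamberN 1 2)))))) :=
  HoldsN.of_red (k := 16) (m := 16) (leaf ok3 (G5 _ rfl) (G908 _ rfl) (G940 _ rfl) (by decide +kernel))
theorem l596 : HoldsN X3 (Trg.right (Trg.right (Trg.left (Trg.right (Trg.left (Trg.right (chamber 1 1))))))) (Trg.left (Trg.right (Trg.left (Trg.right (Trg.left (Trg.right (chamberN 1 2))))))) :=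
  HoldsN.of_red (k := 16) (m := 16) (leaf ok3 top3 (G952 _ rfl) (G960 _ rfl) (by decide +kernel))
theorem l597 : HoldsN X3 (Trg.right (Trg.right (Trg.left (Trg.right (Trg.left (Trg.right (chamber 1 1))))))) (Trg.right (Trg.right (Trg.left (Trg.right (Trg.left (Trg.right (chamberN 1 2))))))) :=
  HoldsN.of_red (k := 16) (m := 16) (leaf ok3 (G5 _ rfl) (G940 _ rfl) (G940 _ rfl) (by decide +kernel))
theorem l598 : HoldsN X3 (Trg.left (Trg.right (Trg.left (Trg.right (chamber 1 1))))) (Trg.left (Trg.right (Trg.right (Trg.left (Trg.right (chamberN 1 2)))))) :=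
  HoldsN.of_red (k := 16) (m := 16) (leaf ok3 (G12 _ rfl) (G883 _ rfl) (G854 _ rfl) (by decide +kernel))
theorem l599 : HoldsN X3 (Trg.left (Trg.right (Trg.left (Trg.right (chamber 1 1))))) (Trg.right (Trg.right (Trg.right (Trg.left (Trg.right (chamberN 1 2)))))) :=
  HoldsN.of_red (k := 16) (m := 16) (leaf ok3 (G9 _ rfl) (G890 _ rfl) (G911 _ rfl) (by decide +kernel))

end Vale.Agent.Lib.P154N.D4
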