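import Vale.Agent.Lib.P154N.D4.Data
import Vale.Agent.Lib.P154N.Red

/-!
# Leaves of the tree of triangles
-/

namespace Vale.Agent.Lib.P154N.D4

open Vale.Agent.Lib.P154K Vale.Agent.Lib.P154Neg

theorem l600 : HoldsN X3 (Trg.right (Trg.right (Trg.left (Trg.right (chamber 1 1))))) (Trg.left (Trg.left (Trg.right (chamberN 1 2)))) :=
  HoldsN.of_red (k := 16) (m := 16) (leaf ok3 (G21 _ rfl) (G724 _ rfl) (G827 _ rfl) (by decide +kernel))
theorem l601 : HoldsN X3 (Trg.right (Trg.right (Trg.left (Trg.right (chamber 1 1))))) (Trg.left (Trg.right (Trg.left (Trg.right (chamberN 1 2))))) :=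
  HoldsN.of_red (k := 16) (m := 16) (leaf ok3 (G11 _ rfl) (G855 _ rfl) (G883 _ rfl) (by decide +kernel))
theorem l602 : HoldsN X3 (Trg.right (Trg.right (Trg.left (Trg.right (chamber 1 1))))) (Trg.right (Trg.right (Trg.left (Trg.right (chamberN 1 2))))) :=
  HoldsN.of_red (k := 16) (m := 16) (leaf ok3 (G21 _ rfl) (G827 _ rfl) (G827 _ rfl) (by decide +kernel))
theorem l603 : HoldsN X3 (Trg.left (Trg.left (Trg.right (chamber 1 1)))) (Trg.left (Trg.right (Trg.right (chamberN 1 2)))) :=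
  HoldsN.of_red (k := 16) (m := 16) (leaf ok3 (G64 _ rfl) (G623 _ rfl) (G618 _ rfl) (by decide +kernel))
theorem l604 : HoldsN X3 (Trg.left (Trg.right (Trg.left (Trg.right (chamber 1 1))))) (Trg.left (Trg.right (Trg.right (chamberN 1 2)))) :=
  HoldsN.of_red (k := 16) (m := 16) (leaf ok3 (G43 _ rfl) (G623 _ rfl) (G623 _ rfl) (by decide +kernel))
theorem l605 : HoldsN X3 (Trg.right (Trg.right (Trg.left (Trg.right (chamber 1 1))))) (Trg.left (Trg.right (Trg.right (chamberN 1 2)))) :=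
  HoldsN.of_red (k := 16) (m := 16) (leaf ok3 (G64 _ rfl) (G623 _ rfl) (G619 _ rfl) (by decide +kernel))
theorem l606 : HoldsN X3 (Trg.left (Trg.left (Trg.right (chamber 1 1)))) (Trg.right (Trg.right (Trg.right (chamberN 1 2)))) :=
  HoldsN.of_red (k := 16) (m := 16) (leaf ok3 (G40 _ rfl) (G667 _ rfl) (G725 _ rfl) (by decide +kernel))
theorem l607 : HoldsN X3 (Trg.left (Trg.right (Trg.left (Trg.right (chamber 1 1))))) (Trg.right (Trg.right (Trg.right (chamberN 1 2)))) :=
  HoldsN.of_red (k := 16) (m := 16) (leaf ok3 (G28 _ rfl) (G697 _ rfl) (G855 _ rfl) (by decide +kernel))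
theorem l608 : HoldsN X3 (Trg.right (Trg.right (Trg.left (Trg.right (chamber 1 1))))) (Trg.right (Trg.right (Trg.right (chamberN 1 2)))) :=
  HoldsN.of_red (k := 16) (m := 16) (leaf ok3 (G40 _ rfl) (G667 _ rfl) (G827 _ rfl) (by decide +kernel))
theorem l609 : HoldsN X3 (Trg.left (Trg.left (Trg.left (Trg.right (Trg.right (chamber 1 1)))))) (Trg.left (Trg.left (Trg.left (Trg.left (chamberN 1 2))))) :=
  HoldsN.of_red (k := 16) (m := 16) (leaf ok3 (G251 _ rfl) (G499 _ rfl) (G704 _ rfl) (by decide +kernel))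

end Vale.Agent.Lib.P154N.D4
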