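import Vale.Agent.Lib.P154N.D4.Data
import Vale.Agent.Lib.P154N.Red

/-!
# Leaves of the tree of triangles
-/

namespace Vale.Agent.Lib.P154N.D4

open Vale.Agent.Lib.P154K Vale.Agent.Lib.P154Neg

theorem l610 : HoldsN X3 (Trg.left (Trg.right (Trg.left (Trg.left (Trg.right (Trg.right (chamber 1 1))))))) (Trg.left (Trg.left (Trg.left (Trg.left (chamberN 1 2))))) :=
  HoldsN.of_red (k := 16) (m := 16) (leaf ok3 (G214 _ rfl) (G444 _ rfl) (G766 _ rfl) (by decide +kernel))
theorem l611 : HoldsN X3 (Trg.right (Trg.right (Trg.left (Trg.left (Trg.right (Trg.right (chamber 1 1))))))) (Trg.left (Trg.left (Trg.left (Trg.left (chamberN 1 2))))) :=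
  HoldsN.of_red (k := 16) (m := 16) (leaf ok3 (G251 _ rfl) (G481 _ rfl) (G716 _ rfl) (by decide +kernel))
theorem l612 : HoldsN X3 (Trg.left (Trg.left (Trg.right (Trg.right (chamber 1 1))))) (Trg.right (Trg.left (Trg.left (Trg.left (chamberN 1 2))))) :=
  HoldsN.of_red (k := 16) (m := 16) (leaf ok3 (G106 _ rfl) (G605 _ rfl) (G710 _ rfl) (by decide +kernel))
theorem l613 : HoldsN X3 (Trg.right (Trg.left (Trg.right (Trg.right (chamber 1 1))))) (Trg.left (Trg.left (Trg.left (chamberN 1 2)))) :=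
  HoldsN.of_red (k := 16) (m := 16) (leaf ok3 (G179 _ rfl) (G522 _ rfl) (G608 _ rfl) (by decide +kernel))
theorem l614 : HoldsN X3 (Trg.left (Trg.left (Trg.left (Trg.right (Trg.right (chamber 1 1)))))) (Trg.left (Trg.left (Trg.right (Trg.left (Trg.left (chamberN 1 2)))))) :=
  HoldsN.of_red (k := 16) (m := 16) (leaf ok3 (G304 _ rfl) (G541 _ rfl) (G647 _ rfl) (by decide +kernel))
theorem l615 : HoldsN X3 (Trg.left (Trg.right (Trg.left (Trg.left (Trg.right (Trg.right (chamber 1 1))))))) (Trg.left (Trg.left (Trg.right (Trg.left (Trg.left (chamberN 1 2)))))) :=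
  HoldsN.of_red (k := 16) (m := 16) (leaf ok3 (G263 _ rfl) (G511 _ rfl) (G674 _ rfl) (by decide +kernel))
theorem l616 : HoldsN X3 (Trg.right (Trg.right (Trg.left (Trg.left (Trg.right (Trg.right (chamber 1 1))))))) (Trg.left (Trg.left (Trg.right (Trg.left (Trg.left (chamberN 1 2)))))) :=
  HoldsN.of_red (k := 16) (m := 16) (leaf ok3 (G304 _ rfl) (G540 _ rfl) (G654 _ rfl) (by decide +kernel))
theorem l617 : HoldsN X3 (Trg.left (Trg.left (Trg.right (Trg.right (chamber 1 1))))) (Trg.right (Trg.left (Trg.right (Trg.left (Trg.left (chamberN 1 2)))))) :=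
  HoldsN.of_red (k := 16) (m := 16) (leaf ok3 (G404 _ rfl) (G509 _ rfl) (G594 _ rfl) (by decide +kernel))
theorem l618 : HoldsN X3 (Trg.left (Trg.left (Trg.left (Trg.right (Trg.right (chamber 1 1)))))) (Trg.right (Trg.right (Trg.left (Trg.left (chamberN 1 2))))) :=
  HoldsN.of_red (k := 16) (m := 16) (leaf ok3 (G304 _ rfl) (G499 _ rfl) (G655 _ rfl) (by decide +kernel))
theorem l619 : HoldsN X3 (Trg.left (Trg.right (Trg.left (Trg.left (Trg.right (Trg.right (chamber 1 1))))))) (Trg.right (Trg.right (Trg.left (Trg.left (chamberN 1 2))))) :=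
  HoldsN.of_red (k := 16) (m := 16) (leaf ok3 (G263 _ rfl) (G444 _ rfl) (G687 _ rfl) (by decide +kernel))

end Vale.Agent.Lib.P154N.D4
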