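import Vale.Agent.Lib.P154N.D4.Data
import Vale.Agent.Lib.P154N.Red

/-!
# Leaves of the tree of triangles
-/

namespace Vale.Agent.Lib.P154N.D4

open Vale.Agent.Lib.P154K Vale.Agent.Lib.P154Neg

theorem l620 : HoldsN X3 (Trg.right (Trg.right (Trg.left (Trg.left (Trg.right (Trg.right (chamber 1 1))))))) (Trg.right (Trg.right (Trg.left (Trg.left (chamberN 1 2))))) :=
  HoldsN.of_red (k := 16) (m := 16) (leaf ok3 (G304 _ rfl) (G481 _ rfl) (G655 _ rfl) (by decide +kernel))
theorem l621 : HoldsN X3 (Trg.right (Trg.left (Trg.right (Trg.right (chamber 1 1))))) (Trg.right (Trg.left (Trg.left (chamberN 1 2)))) :=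
  HoldsN.of_red (k := 16) (m := 16) (leaf ok3 (G350 _ rfl) (G514 _ rfl) (G598 _ rfl) (by decide +kernel))
theorem l622 : HoldsN X3 (Trg.left (Trg.left (Trg.right (Trg.right (chamber 1 1))))) (Trg.left (Trg.left (Trg.left (Trg.right (Trg.left (chamberN 1 2)))))) :=
  HoldsN.of_red (k := 16) (m := 16) (leaf ok3 (G175 _ rfl) (G380 _ rfl) (G778 _ rfl) (by decide +kernel))
theorem l623 : HoldsN X3 (Trg.left (Trg.left (Trg.left (Trg.right (Trg.right (chamber 1 1)))))) (Trg.right (Trg.left (Trg.left (Trg.right (Trg.left (chamberN 1 2)))))) :=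
  HoldsN.of_red (k := 16) (m := 16) (leaf ok3 (G303 _ rfl) (G437 _ rfl) (G718 _ rfl) (by decide +kernel))
theorem l624 : HoldsN X3 (Trg.left (Trg.right (Trg.left (Trg.left (Trg.right (Trg.right (chamber 1 1))))))) (Trg.right (Trg.left (Trg.left (Trg.right (Trg.left (chamberN 1 2)))))) :=
  HoldsN.of_red (k := 16) (m := 16) (leaf ok3 (G290 _ rfl) (G373 _ rfl) (G772 _ rfl) (by decide +kernel))
theorem l625 : HoldsN X3 (Trg.right (Trg.right (Trg.left (Trg.left (Trg.right (Trg.right (chamber 1 1))))))) (Trg.right (Trg.left (Trg.left (Trg.right (Trg.left (chamberN 1 2)))))) :=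
  HoldsN.of_red (k := 16) (m := 16) (leaf ok3 (G303 _ rfl) (G421 _ rfl) (G718 _ rfl) (by decide +kernel))
theorem l626 : HoldsN X3 (Trg.left (Trg.left (Trg.right (Trg.right (chamber 1 1))))) (Trg.right (Trg.left (Trg.right (Trg.left (chamberN 1 2))))) :=
  HoldsN.of_red (k := 16) (m := 16) (leaf ok3 (G175 _ rfl) (G322 _ rfl) (G778 _ rfl) (by decide +kernel))
theorem l627 : HoldsN X3 (Trg.left (Trg.left (Trg.right (Trg.right (chamber 1 1))))) (Trg.left (Trg.right (Trg.right (Trg.left (chamberN 1 2))))) :=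
  HoldsN.of_red (k := 16) (m := 16) (leaf ok3 (G105 _ rfl) (G521 _ rfl) (G778 _ rfl) (by decide +kernel))
theorem l628 : HoldsN X3 (Trg.left (Trg.left (Trg.left (Trg.right (Trg.right (chamber 1 1)))))) (Trg.left (Trg.right (Trg.right (Trg.right (Trg.left (chamberN 1 2)))))) :=
  HoldsN.of_red (k := 16) (m := 16) (leaf ok3 (G251 _ rfl) (G498 _ rfl) (G717 _ rfl) (by decide +kernel))
theorem l629 : HoldsN X3 (Trg.right (Trg.left (Trg.left (Trg.right (Trg.right (chamber 1 1)))))) (Trg.left (Trg.right (Trg.right (Trg.right (Trg.left (chamberN 1 2)))))) :=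
  HoldsN.of_red (k := 16) (m := 16) (leaf ok3 (G215 _ rfl) (G439 _ rfl) (G720 _ rfl) (by decide +kernel))

end Vale.Agent.Lib.P154N.D4
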