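import Vale.Agent.Lib.P154N.D4.Data
import Vale.Agent.Lib.P154N.Red

/-!
# Leaves of the tree of triangles
-/

namespace Vale.Agent.Lib.P154N.D4

open Vale.Agent.Lib.P154K Vale.Agent.Lib.P154Neg

theorem l630 : HoldsN X3 (Trg.left (Trg.left (Trg.right (Trg.right (chamber 1 1))))) (Trg.right (Trg.right (Trg.right (Trg.right (Trg.left (chamberN 1 2)))))) :=
  HoldsN.of_red (k := 16) (m := 16) (leaf ok3 (G172 _ rfl) (G481 _ rfl) (G778 _ rfl) (by decide +kernel))
theorem l631 : HoldsN X3 (Trg.right (Trg.left (Trg.right (Trg.right (chamber 1 1))))) (Trg.right (Trg.left (chamberN 1 2))) :=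
  HoldsN.of_red (k := 16) (m := 16) (leaf ok3 (G179 _ rfl) (G450 _ rfl) (G614 _ rfl) (by decide +kernel))
theorem l632 : HoldsN X3 (Trg.right (Trg.right (Trg.right (chamber 1 1)))) (Trg.left (Trg.left (Trg.left (Trg.left (chamberN 1 2))))) :=
  HoldsN.of_red (k := 16) (m := 16) (leaf ok3 (G122 _ rfl) (G449 _ rfl) (G706 _ rfl) (by decide +kernel))
theorem l633 : HoldsN X3 (Trg.left (Trg.left (Trg.right (Trg.right (Trg.right (chamber 1 1)))))) (Trg.right (Trg.left (Trg.left (Trg.left (chamberN 1 2))))) :=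
  HoldsN.of_red (k := 16) (m := 16) (leaf ok3 (G77 _ rfl) (G691 _ rfl) (G709 _ rfl) (by decide +kernel))
theorem l634 : HoldsN X3 (Trg.right (Trg.left (Trg.right (Trg.right (Trg.right (chamber 1 1)))))) (Trg.right (Trg.left (Trg.left (Trg.left (chamberN 1 2))))) :=
  HoldsN.of_red (k := 16) (m := 16) (leaf ok3 (G57 _ rfl) (G695 _ rfl) (G756 _ rfl) (by decide +kernel))
theorem l635 : HoldsN X3 (Trg.right (Trg.right (Trg.right (Trg.right (chamber 1 1))))) (Trg.right (Trg.left (Trg.left (Trg.left (chamberN 1 2))))) :=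
  HoldsN.of_red (k := 16) (m := 16) (leaf ok3 (G77 _ rfl) (G611 _ rfl) (G710 _ rfl) (by decide +kernel))
theorem l636 : HoldsN X3 (Trg.right (Trg.right (Trg.right (chamber 1 1)))) (Trg.right (Trg.left (Trg.left (chamberN 1 2)))) :=
  HoldsN.of_red (k := 16) (m := 16) (leaf ok3 (G179 _ rfl) (G450 _ rfl) (G614 _ rfl) (by decide +kernel))
theorem l637 : HoldsN X3 (Trg.right (Trg.right (Trg.right (chamber 1 1)))) (Trg.left (Trg.right (Trg.left (chamberN 1 2)))) :=
  HoldsN.of_red (k := 16) (m := 16) (leaf ok3 (G89 _ rfl) (G327 _ rfl) (G763 _ rfl) (by decide +kernel))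
theorem l638 : HoldsN X3 (Trg.right (Trg.right (Trg.right (chamber 1 1)))) (Trg.left (Trg.right (Trg.right (Trg.left (chamberN 1 2))))) :=
  HoldsN.of_red (k := 16) (m := 16) (leaf ok3 (G58 _ rfl) (G530 _ rfl) (G780 _ rfl) (by decide +kernel))
theorem l639 : HoldsN X3 (Trg.right (Trg.right (Trg.right (chamber 1 1)))) (Trg.right (Trg.right (Trg.right (Trg.left (chamberN 1 2))))) :=
  HoldsN.of_red (k := 16) (m := 16) (leaf ok3 (G89 _ rfl) (G448 _ rfl) (G760 _ rfl) (by decide +kernel))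

end Vale.Agent.Lib.P154N.D4
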