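import Vale.Agent.Lib.P154N.D4.Data
import Vale.Agent.Lib.P154N.Red

/-!
# Leaves of the tree of triangles
-/

namespace Vale.Agent.Lib.P154N.D4

open Vale.Agent.Lib.P154K Vale.Agent.Lib.P154Neg

theorem l650 : HoldsN X3 (Trg.left (Trg.left (Trg.right (Trg.right (chamber 1 1))))) (Trg.right (Trg.right (Trg.right (chamberN 1 2)))) :=
  HoldsN.of_red (k := 16) (m := 16) (leaf ok3 (G106 _ rfl) (G638 _ rfl) (G667 _ rfl) (by decide +kernel))
theorem l651 : HoldsN X3 (Trg.right (Trg.left (Trg.right (Trg.right (chamber 1 1))))) (Trg.right (Trg.right (Trg.right (chamberN 1 2)))) :=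
  HoldsN.of_red (k := 16) (m := 16) (leaf ok3 (G179 _ rfl) (G608 _ rfl) (G608 _ rfl) (by decide +kernel))
theorem l652 : HoldsN X3 (Trg.right (Trg.right (Trg.right (chamber 1 1)))) (Trg.left (Trg.left (Trg.right (Trg.right (chamberN 1 2))))) :=
  HoldsN.of_red (k := 16) (m := 16) (leaf ok3 (G106 _ rfl) (G667 _ rfl) (G638 _ rfl) (by decide +kernel))
theorem l653 : HoldsN X3 (Trg.right (Trg.right (Trg.right (chamber 1 1)))) (Trg.right (Trg.left (Trg.right (Trg.right (chamberN 1 2))))) :=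
  HoldsN.of_red (k := 16) (m := 16) (leaf ok3 (G179 _ rfl) (G608 _ rfl) (G608 _ rfl) (by decide +kernel))
theorem l654 : HoldsN X3 (Trg.left (Trg.left (Trg.right (Trg.right (Trg.right (chamber 1 1)))))) (Trg.right (Trg.right (Trg.right (chamberN 1 2)))) :=
  HoldsN.of_red (k := 16) (m := 16) (leaf ok3 (G77 _ rfl) (G706 _ rfl) (G665 _ rfl) (by decide +kernel))
theorem l655 : HoldsN X3 (Trg.right (Trg.left (Trg.right (Trg.right (Trg.right (chamber 1 1)))))) (Trg.right (Trg.right (Trg.right (chamberN 1 2)))) :=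
  HoldsN.of_red (k := 16) (m := 16) (leaf ok3 (G57 _ rfl) (G740 _ rfl) (G696 _ rfl) (by decide +kernel))
theorem l656 : HoldsN X3 (Trg.right (Trg.right (Trg.right (Trg.right (chamber 1 1))))) (Trg.right (Trg.right (Trg.right (chamberN 1 2)))) :=
  HoldsN.of_red (k := 16) (m := 16) (leaf ok3 (G77 _ rfl) (G663 _ rfl) (G667 _ rfl) (by decide +kernel))
theorem l657 : HoldsN X3 (Trg.left (Trg.left (Trg.left (Trg.left (chamber 1 1))))) (Trg.left (Trg.left (Trg.left (chamberNR 1 2)))) :=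
  HoldsN.of_red (k := 16) (m := 16) (leaf ok3 (G220 _ rfl) (G669 _ rfl) (G313 _ rfl) (by decide +kernel))
theorem l658 : HoldsN X3 (Trg.right (Trg.left (Trg.left (Trg.left (chamber 1 1))))) (Trg.left (Trg.left (Trg.left (Trg.left (chamberNR 1 2))))) :=
  HoldsN.of_red (k := 16) (m := 16) (leaf ok3 (G218 _ rfl) (G762 _ rfl) (G313 _ rfl) (by decide +kernel))
theorem l659 : HoldsN X3 (Trg.right (Trg.left (Trg.left (Trg.left (chamber 1 1))))) (Trg.right (Trg.left (Trg.left (Trg.left (chamberNR 1 2))))) :=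
  HoldsN.of_red (k := 16) (m := 16) (leaf ok3 (G88 _ rfl) (G797 _ rfl) (G373 _ rfl) (by decide +kernel))

end Vale.Agent.Lib.P154N.D4
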