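import Vale.Agent.Lib.P154N.D4.Data
import Vale.Agent.Lib.P154N.Red

/-!
# Leaves of the tree of triangles
-/

namespace Vale.Agent.Lib.P154N.D4

open Vale.Agent.Lib.P154K Vale.Agent.Lib.P154Neg

theorem l670 : HoldsN X3 (Trg.right (Trg.right (Trg.right (Trg.left (chamber 1 1))))) (Trg.left (Trg.left (Trg.left (chamberNR 1 2)))) :=
  HoldsN.of_red (k := 16) (m := 16) (leaf ok3 (G197 _ rfl) (G671 _ rfl) (G260 _ rfl) (by decide +kernel))
theorem l671 : HoldsN X3 (Trg.right (Trg.left (chamber 1 1))) (Trg.right (Trg.left (Trg.left (chamberNR 1 2)))) :=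
  HoldsN.of_red (k := 16) (m := 16) (leaf ok3 (G243 _ rfl) (G620 _ rfl) (G316 _ rfl) (by decide +kernel))
theorem l672 : HoldsN X3 (Trg.left (Trg.right (Trg.left (chamber 1 1)))) (Trg.right (Trg.left (chamberNR 1 2))) :=
  HoldsN.of_red (k := 16) (m := 16) (leaf ok3 (G199 _ rfl) (G671 _ rfl) (G146 _ rfl) (by decide +kernel))
theorem l673 : HoldsN X3 (Trg.left (Trg.right (Trg.right (Trg.left (chamber 1 1))))) (Trg.right (Trg.left (chamberNR 1 2))) :=
  HoldsN.of_red (k := 16) (m := 16) (leaf ok3 (G91 _ rfl) (G788 _ rfl) (G146 _ rfl) (by decide +kernel))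
theorem l674 : HoldsN X3 (Trg.right (Trg.right (Trg.right (Trg.left (chamber 1 1))))) (Trg.right (Trg.left (chamberNR 1 2))) :=
  HoldsN.of_red (k := 16) (m := 16) (leaf ok3 (G198 _ rfl) (G671 _ rfl) (G146 _ rfl) (by decide +kernel))
theorem l675 : HoldsN X3 (Trg.left (Trg.left (Trg.left (Trg.left (chamber 1 1))))) (Trg.left (Trg.right (chamberNR 1 2))) :=
  HoldsN.of_red (k := 16) (m := 16) (leaf ok3 (G81 _ rfl) (G827 _ rfl) (G325 _ rfl) (by decide +kernel))
theorem l676 : HoldsN X3 (Trg.right (Trg.left (Trg.left (Trg.left (chamber 1 1))))) (Trg.left (Trg.left (Trg.right (chamberNR 1 2)))) :=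
  HoldsN.of_red (k := 16) (m := 16) (leaf ok3 (G47 _ rfl) (G831 _ rfl) (G383 _ rfl) (by decide +kernel))
theorem l677 : HoldsN X3 (Trg.right (Trg.left (Trg.left (Trg.left (chamber 1 1))))) (Trg.left (Trg.right (Trg.left (Trg.right (chamberNR 1 2))))) :=
  HoldsN.of_red (k := 16) (m := 16) (leaf ok3 (G28 _ rfl) (G887 _ rfl) (G486 _ rfl) (by decide +kernel))
theorem l678 : HoldsN X3 (Trg.right (Trg.left (Trg.left (Trg.left (chamber 1 1))))) (Trg.right (Trg.right (Trg.left (Trg.right (chamberNR 1 2))))) :=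
  HoldsN.of_red (k := 16) (m := 16) (leaf ok3 (G47 _ rfl) (G831 _ rfl) (G484 _ rfl) (by decide +kernel))
theorem l679 : HoldsN X3 (Trg.right (Trg.left (Trg.left (chamber 1 1)))) (Trg.left (Trg.right (chamberNR 1 2))) :=
  HoldsN.of_red (k := 16) (m := 16) (leaf ok3 (G107 _ rfl) (G623 _ rfl) (G326 _ rfl) (by decide +kernel))

end Vale.Agent.Lib.P154N.D4
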