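import Vale.Agent.Lib.P154N.D4.Data
import Vale.Agent.Lib.P154N.Red

/-!
# Leaves of the tree of triangles
-/

namespace Vale.Agent.Lib.P154N.D4

open Vale.Agent.Lib.P154K Vale.Agent.Lib.P154Neg

theorem l680 : HoldsN X3 (Trg.left (Trg.left (Trg.right (Trg.left (chamber 1 1))))) (Trg.left (Trg.left (Trg.right (chamberNR 1 2)))) :=
  HoldsN.of_red (k := 16) (m := 16) (leaf ok3 (G103 _ rfl) (G830 _ rfl) (G215 _ rfl) (by decide +kernel))
theorem l681 : HoldsN X3 (Trg.right (Trg.left (Trg.right (Trg.left (chamber 1 1))))) (Trg.left (Trg.left (Trg.left (Trg.left (Trg.right (chamberNR 1 2)))))) :=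
  HoldsN.of_red (k := 16) (m := 16) (leaf ok3 (G101 _ rfl) (G892 _ rfl) (G145 _ rfl) (by decide +kernel))
theorem l682 : HoldsN X3 (Trg.right (Trg.left (Trg.right (Trg.left (chamber 1 1))))) (Trg.right (Trg.left (Trg.left (Trg.left (Trg.right (chamberNR 1 2)))))) :=
  HoldsN.of_red (k := 16) (m := 16) (leaf ok3 (G125 _ rfl) (G880 _ rfl) (G215 _ rfl) (by decide +kernel))
theorem l683 : HoldsN X3 (Trg.right (Trg.left (Trg.right (Trg.left (chamber 1 1))))) (Trg.right (Trg.left (Trg.left (Trg.right (chamberNR 1 2))))) :=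
  HoldsN.of_red (k := 16) (m := 16) (leaf ok3 (G102 _ rfl) (G892 _ rfl) (G142 _ rfl) (by decide +kernel))
theorem l684 : HoldsN X3 (Trg.left (Trg.right (Trg.left (chamber 1 1)))) (Trg.left (Trg.right (Trg.left (Trg.right (chamberNR 1 2))))) :=
  HoldsN.of_red (k := 16) (m := 16) (leaf ok3 (G60 _ rfl) (G887 _ rfl) (G147 _ rfl) (by decide +kernel))
theorem l685 : HoldsN X3 (Trg.left (Trg.left (Trg.right (Trg.left (chamber 1 1))))) (Trg.right (Trg.right (Trg.left (Trg.right (chamberNR 1 2))))) :=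
  HoldsN.of_red (k := 16) (m := 16) (leaf ok3 (G100 _ rfl) (G830 _ rfl) (G215 _ rfl) (by decide +kernel))
theorem l686 : HoldsN X3 (Trg.left (Trg.right (Trg.left (Trg.right (Trg.left (chamber 1 1)))))) (Trg.left (Trg.left (Trg.right (Trg.right (Trg.left (Trg.right (chamberNR 1 2))))))) :=
  HoldsN.of_red (k := 16) (m := 16) (leaf ok3 (G132 _ rfl) (G906 _ rfl) (G209 _ rfl) (by decide +kernel))
theorem l687 : HoldsN X3 (Trg.left (Trg.right (Trg.left (Trg.right (Trg.left (chamber 1 1)))))) (Trg.right (Trg.left (Trg.right (Trg.right (Trg.left (Trg.right (chamberNR 1 2))))))) :=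
  HoldsN.of_red (k := 16) (m := 16) (leaf ok3 (G170 _ rfl) (G879 _ rfl) (G210 _ rfl) (by decide +kernel))
theorem l688 : HoldsN X3 (Trg.left (Trg.right (Trg.right (Trg.left (Trg.right (Trg.left (chamber 1 1))))))) (Trg.left (Trg.left (Trg.right (Trg.right (Trg.left (Trg.right (chamberNR 1 2))))))) :=
  HoldsN.of_red (k := 16) (m := 16) (leaf ok3 (G93 _ rfl) (G932 _ rfl) (G302 _ rfl) (by decide +kernel))
theorem l689 : HoldsN X3 (Trg.left (Trg.right (Trg.right (Trg.left (Trg.right (Trg.left (chamber 1 1))))))) (Trg.right (Trg.left (Trg.right (Trg.right (Trg.left (Trg.right (chamberNR 1 2))))))) :=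
  HoldsN.of_red (k := 16) (m := 16) (leaf ok3 (G124 _ rfl) (G899 _ rfl) (G303 _ rfl) (by decide +kernel))

end Vale.Agent.Lib.P154N.D4
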