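import Vale.Agent.Lib.P154N.D4.Data
import Vale.Agent.Lib.P154N.Red

/-!
# Leaves of the tree of triangles
-/

namespace Vale.Agent.Lib.P154N.D4

open Vale.Agent.Lib.P154K Vale.Agent.Lib.P154Neg

theorem l690 : HoldsN X3 (Trg.right (Trg.right (Trg.right (Trg.left (Trg.right (Trg.left (chamber 1 1))))))) (Trg.left (Trg.left (Trg.right (Trg.right (Trg.left (Trg.right (chamberNR 1 2))))))) :=
  HoldsN.of_red (k := 16) (m := 16) (leaf ok3 (G132 _ rfl) (G906 _ rfl) (G286 _ rfl) (by decide +kernel))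
theorem l691 : HoldsN X3 (Trg.right (Trg.right (Trg.right (Trg.left (Trg.right (Trg.left (chamber 1 1))))))) (Trg.right (Trg.left (Trg.right (Trg.right (Trg.left (Trg.right (chamberNR 1 2))))))) :=
  HoldsN.of_red (k := 16) (m := 16) (leaf ok3 (G170 _ rfl) (G879 _ rfl) (G288 _ rfl) (by decide +kernel))
theorem l692 : HoldsN X3 (Trg.right (Trg.left (Trg.right (Trg.left (chamber 1 1))))) (Trg.right (Trg.right (Trg.right (Trg.left (Trg.right (chamberNR 1 2)))))) :=
  HoldsN.of_red (k := 16) (m := 16) (leaf ok3 (G98 _ rfl) (G917 _ rfl) (G147 _ rfl) (by decide +kernel))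
theorem l693 : HoldsN X3 (Trg.left (Trg.right (Trg.right (Trg.left (chamber 1 1))))) (Trg.left (Trg.left (Trg.left (Trg.left (Trg.right (chamberNR 1 2)))))) :=
  HoldsN.of_red (k := 16) (m := 16) (leaf ok3 (G45 _ rfl) (G910 _ rfl) (G355 _ rfl) (by decide +kernel))
theorem l694 : HoldsN X3 (Trg.left (Trg.right (Trg.right (Trg.left (chamber 1 1))))) (Trg.right (Trg.left (Trg.left (Trg.left (Trg.right (chamberNR 1 2)))))) :=
  HoldsN.of_red (k := 16) (m := 16) (leaf ok3 (G66 _ rfl) (G881 _ rfl) (G383 _ rfl) (by decide +kernel))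
theorem l695 : HoldsN X3 (Trg.left (Trg.right (Trg.right (Trg.left (chamber 1 1))))) (Trg.right (Trg.left (Trg.left (Trg.right (chamberNR 1 2))))) :=
  HoldsN.of_red (k := 16) (m := 16) (leaf ok3 (G45 _ rfl) (G910 _ rfl) (G269 _ rfl) (by decide +kernel))
theorem l696 : HoldsN X3 (Trg.left (Trg.right (Trg.right (Trg.left (chamber 1 1))))) (Trg.left (Trg.right (Trg.left (Trg.right (chamberNR 1 2))))) :=
  HoldsN.of_red (k := 16) (m := 16) (leaf ok3 (G27 _ rfl) (G943 _ rfl) (G359 _ rfl) (by decide +kernel))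
theorem l697 : HoldsN X3 (Trg.left (Trg.left (Trg.right (Trg.right (Trg.left (chamber 1 1)))))) (Trg.left (Trg.right (Trg.right (Trg.left (Trg.right (chamberNR 1 2)))))) :=
  HoldsN.of_red (k := 16) (m := 16) (leaf ok3 (G66 _ rfl) (G883 _ rfl) (G426 _ rfl) (by decide +kernel))
theorem l698 : HoldsN X3 (Trg.right (Trg.left (Trg.right (Trg.right (Trg.left (chamber 1 1)))))) (Trg.left (Trg.right (Trg.right (Trg.left (Trg.right (chamberNR 1 2)))))) :=
  HoldsN.of_red (k := 16) (m := 16) (leaf ok3 (G50 _ rfl) (G883 _ rfl) (G543 _ rfl) (by decide +kernel))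
theorem l699 : HoldsN X3 (Trg.left (Trg.right (Trg.right (Trg.left (chamber 1 1))))) (Trg.right (Trg.right (Trg.right (Trg.left (Trg.right (chamberNR 1 2)))))) :=
  HoldsN.of_red (k := 16) (m := 16) (leaf ok3 (G44 _ rfl) (G923 _ rfl) (G358 _ rfl) (by decide +kernel))

end Vale.Agent.Lib.P154N.D4
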