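import Vale.Agent.Lib.P154N.D4.Data
import Vale.Agent.Lib.P154N.Red

/-!
# Leaves of the tree of triangles
-/

namespace Vale.Agent.Lib.P154N.D4

open Vale.Agent.Lib.P154K Vale.Agent.Lib.P154Neg

theorem l700 : HoldsN X3 (Trg.right (Trg.right (Trg.right (Trg.left (chamber 1 1))))) (Trg.left (Trg.left (Trg.right (chamberNR 1 2)))) :=
  HoldsN.of_red (k := 16) (m := 16) (leaf ok3 (G103 _ rfl) (G830 _ rfl) (G265 _ rfl) (by decide +kernel))
theorem l701 : HoldsN X3 (Trg.right (Trg.right (Trg.right (Trg.left (chamber 1 1))))) (Trg.left (Trg.right (Trg.left (Trg.right (chamberNR 1 2))))) :=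
  HoldsN.of_red (k := 16) (m := 16) (leaf ok3 (G60 _ rfl) (G887 _ rfl) (G315 _ rfl) (by decide +kernel))
theorem l702 : HoldsN X3 (Trg.right (Trg.right (Trg.right (Trg.left (chamber 1 1))))) (Trg.right (Trg.right (Trg.left (Trg.right (chamberNR 1 2))))) :=
  HoldsN.of_red (k := 16) (m := 16) (leaf ok3 (G100 _ rfl) (G830 _ rfl) (G315 _ rfl) (by decide +kernel))
theorem l703 : HoldsN X3 (Trg.left (Trg.left (Trg.left (Trg.left (Trg.left (chamber 1 1)))))) (Trg.left (Trg.left (Trg.right (Trg.right (chamberNR 1 2))))) :=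
  HoldsN.of_red (k := 16) (m := 16) (leaf ok3 (G214 _ rfl) (G720 _ rfl) (G478 _ rfl) (by decide +kernel))
theorem l704 : HoldsN X3 (Trg.left (Trg.right (Trg.left (Trg.left (Trg.left (Trg.left (chamber 1 1))))))) (Trg.left (Trg.left (Trg.left (Trg.right (Trg.right (chamberNR 1 2)))))) :=
  HoldsN.of_red (k := 16) (m := 16) (leaf ok3 (G373 _ rfl) (G715 _ rfl) (G433 _ rfl) (by decide +kernel))
theorem l705 : HoldsN X3 (Trg.left (Trg.right (Trg.left (Trg.left (Trg.left (Trg.left (chamber 1 1))))))) (Trg.right (Trg.left (Trg.left (Trg.right (Trg.right (chamberNR 1 2)))))) :=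
  HoldsN.of_red (k := 16) (m := 16) (leaf ok3 (G311 _ rfl) (G718 _ rfl) (G433 _ rfl) (by decide +kernel))
theorem l706 : HoldsN X3 (Trg.right (Trg.right (Trg.left (Trg.left (Trg.left (Trg.left (chamber 1 1))))))) (Trg.left (Trg.left (Trg.right (Trg.right (chamberNR 1 2))))) :=
  HoldsN.of_red (k := 16) (m := 16) (leaf ok3 (G214 _ rfl) (G720 _ rfl) (G462 _ rfl) (by decide +kernel))
theorem l707 : HoldsN X3 (Trg.left (Trg.left (Trg.left (Trg.left (chamber 1 1))))) (Trg.right (Trg.left (Trg.right (Trg.right (chamberNR 1 2))))) :=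
  HoldsN.of_red (k := 16) (m := 16) (leaf ok3 (G375 _ rfl) (G612 _ rfl) (G438 _ rfl) (by decide +kernel))
theorem l708 : HoldsN X3 (Trg.right (Trg.left (Trg.left (Trg.left (chamber 1 1))))) (Trg.left (Trg.left (Trg.right (Trg.right (chamberNR 1 2))))) :=
  HoldsN.of_red (k := 16) (m := 16) (leaf ok3 (G106 _ rfl) (G722 _ rfl) (G483 _ rfl) (by decide +kernel))
theorem l709 : HoldsN X3 (Trg.right (Trg.left (Trg.left (Trg.left (chamber 1 1))))) (Trg.right (Trg.left (Trg.right (Trg.right (chamberNR 1 2))))) :=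
  HoldsN.of_red (k := 16) (m := 16) (leaf ok3 (G241 _ rfl) (G620 _ rfl) (G479 _ rfl) (by decide +kernel))

end Vale.Agent.Lib.P154N.D4
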