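import Vale.Agent.Lib.P154N.D4.Data
import Vale.Agent.Lib.P154N.Red

/-!
# Leaves of the tree of triangles
-/

namespace Vale.Agent.Lib.P154N.D4

open Vale.Agent.Lib.P154K Vale.Agent.Lib.P154Neg

theorem l710 : HoldsN X3 (Trg.left (Trg.left (Trg.left (Trg.left (chamber 1 1))))) (Trg.right (Trg.right (Trg.right (chamberNR 1 2)))) :=
  HoldsN.of_red (k := 16) (m := 16) (leaf ok3 (G216 _ rfl) (G762 _ rfl) (G320 _ rfl) (by decide +kernel))
theorem l711 : HoldsN X3 (Trg.right (Trg.left (Trg.left (Trg.left (chamber 1 1))))) (Trg.right (Trg.right (Trg.right (chamberNR 1 2)))) :=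
  HoldsN.of_red (k := 16) (m := 16) (leaf ok3 (G88 _ rfl) (G797 _ rfl) (G383 _ rfl) (by decide +kernel))
theorem l712 : HoldsN X3 (Trg.right (Trg.left (Trg.left (chamber 1 1)))) (Trg.left (Trg.left (Trg.right (Trg.right (chamberNR 1 2))))) :=
  HoldsN.of_red (k := 16) (m := 16) (leaf ok3 (G266 _ rfl) (G608 _ rfl) (G441 _ rfl) (by decide +kernel))
theorem l713 : HoldsN X3 (Trg.right (Trg.left (Trg.left (chamber 1 1)))) (Trg.right (Trg.left (Trg.right (Trg.right (chamberNR 1 2))))) :=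
  HoldsN.of_red (k := 16) (m := 16) (leaf ok3 (G393 _ rfl) (G604 _ rfl) (G438 _ rfl) (by decide +kernel))
theorem l714 : HoldsN X3 (Trg.right (Trg.left (Trg.left (chamber 1 1)))) (Trg.right (Trg.right (Trg.right (chamberNR 1 2)))) :=
  HoldsN.of_red (k := 16) (m := 16) (leaf ok3 (G241 _ rfl) (G620 _ rfl) (G321 _ rfl) (by decide +kernel))
theorem l715 : HoldsN X3 (Trg.left (Trg.left (Trg.left (Trg.right (Trg.left (chamber 1 1)))))) (Trg.left (Trg.left (Trg.right (Trg.right (chamberNR 1 2))))) :=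
  HoldsN.of_red (k := 16) (m := 16) (leaf ok3 (G177 _ rfl) (G778 _ rfl) (G373 _ rfl) (by decide +kernel))
theorem l716 : HoldsN X3 (Trg.right (Trg.left (Trg.left (Trg.right (Trg.left (chamber 1 1)))))) (Trg.left (Trg.left (Trg.left (Trg.right (Trg.right (chamberNR 1 2)))))) :=
  HoldsN.of_red (k := 16) (m := 16) (leaf ok3 (G365 _ rfl) (G719 _ rfl) (G372 _ rfl) (by decide +kernel))
theorem l717 : HoldsN X3 (Trg.left (Trg.left (Trg.left (Trg.right (Trg.left (Trg.left (Trg.right (Trg.left (chamber 1 1))))))))) (Trg.left (Trg.right (Trg.left (Trg.left (Trg.right (Trg.right (chamberNR 1 2))))))) :=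
  HoldsN.of_red (k := 16) (m := 16) (leaf ok3 (G345 _ rfl) (G805 _ rfl) (G399 _ rfl) (by decide +kernel))
theorem l718 : HoldsN X3 (Trg.right (Trg.left (Trg.left (Trg.right (Trg.left (Trg.left (Trg.right (Trg.left (chamber 1 1))))))))) (Trg.left (Trg.right (Trg.left (Trg.left (Trg.right (Trg.right (chamberNR 1 2))))))) :=
  HoldsN.of_red (k := 16) (m := 16) (leaf ok3 (G288 _ rfl) (G806 _ rfl) (G419 _ rfl) (by decide +kernel))
theorem l719 : HoldsN X3 (Trg.right (Trg.left (Trg.right (Trg.left (Trg.left (Trg.right (Trg.left (chamber 1 1)))))))) (Trg.left (Trg.right (Trg.left (Trg.left (Trg.right (Trg.right (chamberNR 1 2))))))) :=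
  HoldsN.of_red (k := 16) (m := 16) (leaf ok3 (G362 _ rfl) (G769 _ rfl) (G399 _ rfl) (by decide +kernel))

end Vale.Agent.Lib.P154N.D4
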