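import Vale.Agent.Lib.P154N.D4.Data
import Vale.Agent.Lib.P154N.Red

/-!
# Leaves of the tree of triangles
-/

namespace Vale.Agent.Lib.P154N.D4

open Vale.Agent.Lib.P154K Vale.Agent.Lib.P154Neg

theorem l720 : HoldsN X3 (Trg.left (Trg.right (Trg.right (Trg.left (Trg.left (Trg.right (Trg.left (chamber 1 1)))))))) (Trg.left (Trg.left (Trg.right (Trg.left (Trg.left (Trg.right (Trg.right (chamberNR 1 2)))))))) :=
  HoldsN.of_red (k := 16) (m := 16) (leaf ok3 (G361 _ rfl) (G805 _ rfl) (G369 _ rfl) (by decide +kernel))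
theorem l721 : HoldsN X3 (Trg.left (Trg.right (Trg.right (Trg.left (Trg.left (Trg.right (Trg.left (chamber 1 1)))))))) (Trg.left (Trg.right (Trg.left (Trg.right (Trg.left (Trg.left (Trg.right (Trg.right (chamberNR 1 2))))))))) :=
  HoldsN.of_red (k := 16) (m := 16) (leaf ok3 (G333 _ rfl) (G833 _ rfl) (G368 _ rfl) (by decide +kernel))
theorem l722 : HoldsN X3 (Trg.left (Trg.right (Trg.right (Trg.left (Trg.left (Trg.right (Trg.left (chamber 1 1)))))))) (Trg.right (Trg.right (Trg.left (Trg.right (Trg.left (Trg.left (Trg.right (Trg.right (chamberNR 1 2))))))))) :=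
  HoldsN.of_red (k := 16) (m := 16) (leaf ok3 (G344 _ rfl) (G805 _ rfl) (G369 _ rfl) (by decide +kernel))
theorem l723 : HoldsN X3 (Trg.left (Trg.right (Trg.right (Trg.right (Trg.left (Trg.left (Trg.right (Trg.left (chamber 1 1))))))))) (Trg.left (Trg.right (Trg.left (Trg.left (Trg.right (Trg.right (chamberNR 1 2))))))) :=
  HoldsN.of_red (k := 16) (m := 16) (leaf ok3 (G287 _ rfl) (G818 _ rfl) (G400 _ rfl) (by decide +kernel))
theorem l724 : HoldsN X3 (Trg.right (Trg.right (Trg.right (Trg.right (Trg.left (Trg.left (Trg.right (Trg.left (chamber 1 1))))))))) (Trg.left (Trg.right (Trg.left (Trg.left (Trg.right (Trg.right (chamberNR 1 2))))))) :=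
  HoldsN.of_red (k := 16) (m := 16) (leaf ok3 (G335 _ rfl) (G806 _ rfl) (G398 _ rfl) (by decide +kernel))
theorem l725 : HoldsN X3 (Trg.right (Trg.left (Trg.left (Trg.right (Trg.left (chamber 1 1)))))) (Trg.right (Trg.right (Trg.left (Trg.left (Trg.right (Trg.right (chamberNR 1 2))))))) :=
  HoldsN.of_red (k := 16) (m := 16) (leaf ok3 (G347 _ rfl) (G719 _ rfl) (G372 _ rfl) (by decide +kernel))
theorem l726 : HoldsN X3 (Trg.right (Trg.left (Trg.right (Trg.left (chamber 1 1))))) (Trg.left (Trg.left (Trg.right (Trg.right (chamberNR 1 2))))) :=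
  HoldsN.of_red (k := 16) (m := 16) (leaf ok3 (G177 _ rfl) (G778 _ rfl) (G313 _ rfl) (by decide +kernel))
theorem l727 : HoldsN X3 (Trg.left (Trg.right (Trg.left (chamber 1 1)))) (Trg.right (Trg.left (Trg.right (Trg.right (chamberNR 1 2))))) :=
  HoldsN.of_red (k := 16) (m := 16) (leaf ok3 (G350 _ rfl) (G618 _ rfl) (G316 _ rfl) (by decide +kernel))
theorem l728 : HoldsN X3 (Trg.left (Trg.right (Trg.right (Trg.left (chamber 1 1))))) (Trg.left (Trg.left (Trg.right (Trg.right (chamberNR 1 2))))) :=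
  HoldsN.of_red (k := 16) (m := 16) (leaf ok3 (G105 _ rfl) (G778 _ rfl) (G413 _ rfl) (by decide +kernel))
theorem l729 : HoldsN X3 (Trg.left (Trg.right (Trg.right (Trg.left (chamber 1 1))))) (Trg.right (Trg.left (Trg.right (Trg.right (chamberNR 1 2))))) :=
  HoldsN.of_red (k := 16) (m := 16) (leaf ok3 (G241 _ rfl) (G620 _ rfl) (G410 _ rfl) (by decide +kernel))

end Vale.Agent.Lib.P154N.D4
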