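import Vale.Agent.Lib.P154N.D4.Data
import Vale.Agent.Lib.P154N.Red

/-!
# Leaves of the tree of triangles
-/

namespace Vale.Agent.Lib.P154N.D4

open Vale.Agent.Lib.P154K Vale.Agent.Lib.P154Neg

theorem l730 : HoldsN X3 (Trg.left (Trg.left (Trg.right (Trg.right (Trg.right (Trg.left (chamber 1 1))))))) (Trg.left (Trg.left (Trg.right (Trg.right (chamberNR 1 2))))) :=
  HoldsN.of_red (k := 16) (m := 16) (leaf ok3 (G213 _ rfl) (G750 _ rfl) (G423 _ rfl) (by decide +kernel))
theorem l731 : HoldsN X3 (Trg.right (Trg.left (Trg.right (Trg.right (Trg.right (Trg.left (chamber 1 1))))))) (Trg.left (Trg.left (Trg.left (Trg.right (Trg.right (chamberNR 1 2)))))) :=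
  HoldsN.of_red (k := 16) (m := 16) (leaf ok3 (G365 _ rfl) (G719 _ rfl) (G421 _ rfl) (by decide +kernel))
theorem l732 : HoldsN X3 (Trg.right (Trg.left (Trg.right (Trg.right (Trg.right (Trg.left (chamber 1 1))))))) (Trg.left (Trg.right (Trg.left (Trg.left (Trg.right (Trg.right (chamberNR 1 2))))))) :=
  HoldsN.of_red (k := 16) (m := 16) (leaf ok3 (G291 _ rfl) (G772 _ rfl) (G431 _ rfl) (by decide +kernel))
theorem l733 : HoldsN X3 (Trg.right (Trg.left (Trg.right (Trg.right (Trg.right (Trg.left (chamber 1 1))))))) (Trg.right (Trg.right (Trg.left (Trg.left (Trg.right (Trg.right (chamberNR 1 2))))))) :=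
  HoldsN.of_red (k := 16) (m := 16) (leaf ok3 (G347 _ rfl) (G719 _ rfl) (G432 _ rfl) (by decide +kernel))
theorem l734 : HoldsN X3 (Trg.right (Trg.right (Trg.right (Trg.right (Trg.left (chamber 1 1)))))) (Trg.left (Trg.left (Trg.right (Trg.right (chamberNR 1 2))))) :=
  HoldsN.of_red (k := 16) (m := 16) (leaf ok3 (G174 _ rfl) (G778 _ rfl) (G403 _ rfl) (by decide +kernel))
theorem l735 : HoldsN X3 (Trg.right (Trg.right (Trg.right (Trg.left (chamber 1 1))))) (Trg.right (Trg.left (Trg.right (Trg.right (chamberNR 1 2))))) :=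
  HoldsN.of_red (k := 16) (m := 16) (leaf ok3 (G350 _ rfl) (G618 _ rfl) (G404 _ rfl) (by decide +kernel))
theorem l736 : HoldsN X3 (Trg.left (Trg.left (Trg.left (Trg.right (Trg.left (chamber 1 1)))))) (Trg.right (Trg.right (Trg.right (chamberNR 1 2)))) :=
  HoldsN.of_red (k := 16) (m := 16) (leaf ok3 (G177 _ rfl) (G817 _ rfl) (G215 _ rfl) (by decide +kernel))
theorem l737 : HoldsN X3 (Trg.right (Trg.left (Trg.left (Trg.right (Trg.left (chamber 1 1)))))) (Trg.left (Trg.right (Trg.right (Trg.right (chamberNR 1 2))))) :=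
  HoldsN.of_red (k := 16) (m := 16) (leaf ok3 (G304 _ rfl) (G759 _ rfl) (G212 _ rfl) (by decide +kernel))
theorem l738 : HoldsN X3 (Trg.right (Trg.left (Trg.left (Trg.right (Trg.left (chamber 1 1)))))) (Trg.left (Trg.right (Trg.right (Trg.right (Trg.right (chamberNR 1 2)))))) :=
  HoldsN.of_red (k := 16) (m := 16) (leaf ok3 (G291 _ rfl) (G792 _ rfl) (G290 _ rfl) (by decide +kernel))
theorem l739 : HoldsN X3 (Trg.right (Trg.left (Trg.left (Trg.right (Trg.left (chamber 1 1)))))) (Trg.right (Trg.right (Trg.right (Trg.right (Trg.right (chamberNR 1 2)))))) :=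
  HoldsN.of_red (k := 16) (m := 16) (leaf ok3 (G304 _ rfl) (G755 _ rfl) (G289 _ rfl) (by decide +kernel))

end Vale.Agent.Lib.P154N.D4
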