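import Vale.Agent.Lib.P154N.D4.Data
import Vale.Agent.Lib.P154N.Red

/-!
# Leaves of the tree of triangles
-/

namespace Vale.Agent.Lib.P154N.D4

open Vale.Agent.Lib.P154K Vale.Agent.Lib.P154Neg

theorem l750 : HoldsN X3 (Trg.left (Trg.right (chamber 1 1))) (Trg.right (Trg.left (Trg.left (chamberNR 1 2)))) :=
  HoldsN.of_red (k := 16) (m := 16) (leaf ok3 (G107 _ rfl) (G623 _ rfl) (G326 _ rfl) (by decide +kernel))
theorem l751 : HoldsN X3 (Trg.left (Trg.left (Trg.right (chamber 1 1)))) (Trg.left (Trg.right (Trg.left (chamberNR 1 2)))) :=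
  HoldsN.of_red (k := 16) (m := 16) (leaf ok3 (G103 _ rfl) (G830 _ rfl) (G148 _ rfl) (by decide +kernel))
theorem l752 : HoldsN X3 (Trg.left (Trg.left (Trg.right (chamber 1 1)))) (Trg.left (Trg.right (Trg.right (Trg.left (chamberNR 1 2))))) :=
  HoldsN.of_red (k := 16) (m := 16) (leaf ok3 (G45 _ rfl) (G886 _ rfl) (G270 _ rfl) (by decide +kernel))
theorem l753 : HoldsN X3 (Trg.left (Trg.left (Trg.right (chamber 1 1)))) (Trg.right (Trg.right (Trg.right (Trg.left (chamberNR 1 2))))) :=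
  HoldsN.of_red (k := 16) (m := 16) (leaf ok3 (G103 _ rfl) (G830 _ rfl) (G265 _ rfl) (by decide +kernel))
theorem l754 : HoldsN X3 (Trg.left (Trg.right (Trg.left (Trg.right (chamber 1 1))))) (Trg.right (Trg.left (chamberNR 1 2))) :=
  HoldsN.of_red (k := 16) (m := 16) (leaf ok3 (G30 _ rfl) (G887 _ rfl) (G151 _ rfl) (by decide +kernel))
theorem l755 : HoldsN X3 (Trg.right (Trg.right (Trg.left (Trg.right (chamber 1 1))))) (Trg.left (Trg.right (Trg.left (chamberNR 1 2)))) :=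
  HoldsN.of_red (k := 16) (m := 16) (leaf ok3 (G100 _ rfl) (G830 _ rfl) (G148 _ rfl) (by decide +kernel))
theorem l756 : HoldsN X3 (Trg.right (Trg.right (Trg.left (Trg.right (chamber 1 1))))) (Trg.left (Trg.right (Trg.right (Trg.left (chamberNR 1 2))))) :=
  HoldsN.of_red (k := 16) (m := 16) (leaf ok3 (G45 _ rfl) (G886 _ rfl) (G358 _ rfl) (by decide +kernel))
theorem l757 : HoldsN X3 (Trg.right (Trg.right (Trg.left (Trg.right (chamber 1 1))))) (Trg.right (Trg.right (Trg.right (Trg.left (chamberNR 1 2))))) :=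
  HoldsN.of_red (k := 16) (m := 16) (leaf ok3 (G100 _ rfl) (G830 _ rfl) (G315 _ rfl) (by decide +kernel))
theorem l758 : HoldsN X3 (Trg.left (Trg.left (Trg.right (chamber 1 1)))) (Trg.left (Trg.left (Trg.right (chamberNR 1 2)))) :=
  HoldsN.of_red (k := 16) (m := 16) (leaf ok3 (G25 _ rfl) (G832 _ rfl) (G455 _ rfl) (by decide +kernel))
theorem l759 : HoldsN X3 (Trg.left (Trg.left (Trg.left (Trg.right (chamber 1 1))))) (Trg.left (Trg.right (Trg.left (Trg.right (chamberNR 1 2))))) :=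
  HoldsN.of_red (k := 16) (m := 16) (leaf ok3 (G11 _ rfl) (G887 _ rfl) (G784 _ rfl) (by decide +kernel))

end Vale.Agent.Lib.P154N.D4
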