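import Vale.Agent.Lib.P154N.D4.Data
import Vale.Agent.Lib.P154N.Red

/-!
# Leaves of the tree of triangles
-/

namespace Vale.Agent.Lib.P154N.D4

open Vale.Agent.Lib.P154K Vale.Agent.Lib.P154Neg

theorem l760 : HoldsN X3 (Trg.right (Trg.left (Trg.left (Trg.right (chamber 1 1))))) (Trg.left (Trg.right (Trg.left (Trg.right (chamberNR 1 2))))) :=
  HoldsN.of_red (k := 16) (m := 16) (leaf ok3 (G10 _ rfl) (G943 _ rfl) (G670 _ rfl) (by decide +kernel))
theorem l761 : HoldsN X3 (Trg.left (Trg.left (Trg.right (chamber 1 1)))) (Trg.right (Trg.right (Trg.left (Trg.right (chamberNR 1 2))))) :=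
  HoldsN.of_red (k := 16) (m := 16) (leaf ok3 (G25 _ rfl) (G832 _ rfl) (G665 _ rfl) (by decide +kernel))
theorem l762 : HoldsN X3 (Trg.left (Trg.right (Trg.left (Trg.right (chamber 1 1))))) (Trg.left (Trg.left (Trg.left (Trg.left (Trg.right (chamberNR 1 2)))))) :=
  HoldsN.of_red (k := 16) (m := 16) (leaf ok3 (G10 _ rfl) (G943 _ rfl) (G784 _ rfl) (by decide +kernel))
theorem l763 : HoldsN X3 (Trg.left (Trg.right (Trg.left (Trg.right (chamber 1 1))))) (Trg.right (Trg.left (Trg.left (Trg.left (Trg.right (chamberNR 1 2)))))) :=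
  HoldsN.of_red (k := 16) (m := 16) (leaf ok3 (G22 _ rfl) (G883 _ rfl) (G781 _ rfl) (by decide +kernel))
theorem l764 : HoldsN X3 (Trg.left (Trg.right (Trg.left (Trg.right (chamber 1 1))))) (Trg.right (Trg.left (Trg.left (Trg.right (chamberNR 1 2))))) :=
  HoldsN.of_red (k := 16) (m := 16) (leaf ok3 (G10 _ rfl) (G943 _ rfl) (G670 _ rfl) (by decide +kernel))
theorem l765 : HoldsN X3 (Trg.left (Trg.left (Trg.right (Trg.left (Trg.right (chamber 1 1)))))) (Trg.left (Trg.left (Trg.right (Trg.left (Trg.right (chamberNR 1 2)))))) :=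
  HoldsN.of_red (k := 16) (m := 16) (leaf ok3 (G6 _ rfl) (G943 _ rfl) (G868 _ rfl) (by decide +kernel))
theorem l766 : HoldsN X3 (Trg.left (Trg.left (Trg.right (Trg.left (Trg.right (chamber 1 1)))))) (Trg.left (Trg.right (Trg.left (Trg.right (Trg.left (Trg.right (chamberNR 1 2))))))) :=
  HoldsN.of_red (k := 16) (m := 16) (leaf ok3 top3 (G962 _ rfl) (G915 _ rfl) (by decide +kernel))
theorem l767 : HoldsN X3 (Trg.left (Trg.left (Trg.right (Trg.left (Trg.right (chamber 1 1)))))) (Trg.right (Trg.right (Trg.left (Trg.right (Trg.left (Trg.right (chamberNR 1 2))))))) :=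
  HoldsN.of_red (k := 16) (m := 16) (leaf ok3 (G6 _ rfl) (G943 _ rfl) (G905 _ rfl) (by decide +kernel))
theorem l768 : HoldsN X3 (Trg.left (Trg.right (Trg.left (Trg.right (Trg.left (Trg.right (chamber 1 1))))))) (Trg.left (Trg.right (Trg.left (Trg.right (chamberNR 1 2))))) :=
  HoldsN.of_red (k := 16) (m := 16) (leaf ok3 top3 (G962 _ rfl) (G918 _ rfl) (by decide +kernel))
theorem l769 : HoldsN X3 (Trg.right (Trg.right (Trg.left (Trg.right (Trg.left (Trg.right (chamber 1 1))))))) (Trg.left (Trg.left (Trg.right (Trg.left (Trg.right (chamberNR 1 2)))))) :=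
  HoldsN.of_red (k := 16) (m := 16) (leaf ok3 (G6 _ rfl) (G943 _ rfl) (G905 _ rfl) (by decide +kernel))

end Vale.Agent.Lib.P154N.D4
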