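import Vale.Agent.Lib.P154N.D4.Data
import Vale.Agent.Lib.P154N.Red

/-!
# Leaves of the tree of triangles
-/

namespace Vale.Agent.Lib.P154N.D4

open Vale.Agent.Lib.P154K Vale.Agent.Lib.P154Neg

theorem l780 : HoldsN X3 (Trg.left (Trg.left (Trg.right (chamber 1 1)))) (Trg.right (Trg.right (Trg.right (chamberNR 1 2)))) :=
  HoldsN.of_red (k := 16) (m := 16) (leaf ok3 (G47 _ rfl) (G831 _ rfl) (G454 _ rfl) (by decide +kernel))
theorem l781 : HoldsN X3 (Trg.left (Trg.right (Trg.left (Trg.right (chamber 1 1))))) (Trg.right (Trg.right (Trg.right (chamberNR 1 2)))) :=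
  HoldsN.of_red (k := 16) (m := 16) (leaf ok3 (G28 _ rfl) (G887 _ rfl) (G642 _ rfl) (by decide +kernel))
theorem l782 : HoldsN X3 (Trg.right (Trg.right (Trg.left (Trg.right (chamber 1 1))))) (Trg.right (Trg.right (Trg.right (chamberNR 1 2)))) :=
  HoldsN.of_red (k := 16) (m := 16) (leaf ok3 (G47 _ rfl) (G831 _ rfl) (G641 _ rfl) (by decide +kernel))
theorem l783 : HoldsN X3 (Trg.left (Trg.left (Trg.left (Trg.right (Trg.right (chamber 1 1)))))) (Trg.left (Trg.left (Trg.left (Trg.left (chamberNR 1 2))))) :=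
  HoldsN.of_red (k := 16) (m := 16) (leaf ok3 (G293 _ rfl) (G719 _ rfl) (G437 _ rfl) (by decide +kernel))
theorem l784 : HoldsN X3 (Trg.right (Trg.left (Trg.left (Trg.right (Trg.right (chamber 1 1)))))) (Trg.left (Trg.left (Trg.left (Trg.left (chamberNR 1 2))))) :=
  HoldsN.of_red (k := 16) (m := 16) (leaf ok3 (G215 _ rfl) (G720 _ rfl) (G440 _ rfl) (by decide +kernel))
theorem l785 : HoldsN X3 (Trg.left (Trg.left (Trg.right (Trg.right (chamber 1 1))))) (Trg.right (Trg.left (Trg.left (Trg.left (chamberNR 1 2))))) :=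
  HoldsN.of_red (k := 16) (m := 16) (leaf ok3 (G106 _ rfl) (G722 _ rfl) (G483 _ rfl) (by decide +kernel))
theorem l786 : HoldsN X3 (Trg.right (Trg.left (Trg.right (Trg.right (chamber 1 1))))) (Trg.left (Trg.left (Trg.left (chamberNR 1 2)))) :=
  HoldsN.of_red (k := 16) (m := 16) (leaf ok3 (G241 _ rfl) (G620 _ rfl) (G441 _ rfl) (by decide +kernel))
theorem l787 : HoldsN X3 (Trg.left (Trg.left (Trg.left (Trg.right (Trg.right (chamber 1 1)))))) (Trg.left (Trg.left (Trg.right (Trg.left (Trg.left (chamberNR 1 2)))))) :=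
  HoldsN.of_red (k := 16) (m := 16) (leaf ok3 (G314 _ rfl) (G656 _ rfl) (G505 _ rfl) (by decide +kernel))
theorem l788 : HoldsN X3 (Trg.left (Trg.right (Trg.left (Trg.left (Trg.right (Trg.right (chamber 1 1))))))) (Trg.left (Trg.left (Trg.right (Trg.left (Trg.left (chamberNR 1 2)))))) :=
  HoldsN.of_red (k := 16) (m := 16) (leaf ok3 (G264 _ rfl) (G687 _ rfl) (G508 _ rfl) (by decide +kernel))
theorem l789 : HoldsN X3 (Trg.right (Trg.right (Trg.left (Trg.left (Trg.right (Trg.right (chamber 1 1))))))) (Trg.left (Trg.left (Trg.right (Trg.left (Trg.left (chamberNR 1 2)))))) :=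
  HoldsN.of_red (k := 16) (m := 16) (leaf ok3 (G313 _ rfl) (G656 _ rfl) (G507 _ rfl) (by decide +kernel))

end Vale.Agent.Lib.P154N.D4
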