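import Vale.Agent.Lib.P154N.D4.Data
import Vale.Agent.Lib.P154N.Red

/-!
# Leaves of the tree of triangles
-/

namespace Vale.Agent.Lib.P154N.D4

open Vale.Agent.Lib.P154K Vale.Agent.Lib.P154Neg

theorem l790 : HoldsN X3 (Trg.left (Trg.left (Trg.right (Trg.right (chamber 1 1))))) (Trg.right (Trg.left (Trg.right (Trg.left (Trg.left (chamberNR 1 2)))))) :=
  HoldsN.of_red (k := 16) (m := 16) (leaf ok3 (G404 _ rfl) (G594 _ rfl) (G506 _ rfl) (by decide +kernel))
theorem l791 : HoldsN X3 (Trg.left (Trg.left (Trg.left (Trg.right (Trg.right (chamber 1 1)))))) (Trg.right (Trg.right (Trg.left (Trg.left (chamberNR 1 2))))) :=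
  HoldsN.of_red (k := 16) (m := 16) (leaf ok3 (G314 _ rfl) (G656 _ rfl) (G437 _ rfl) (by decide +kernel))
theorem l792 : HoldsN X3 (Trg.left (Trg.right (Trg.left (Trg.left (Trg.right (Trg.right (chamber 1 1))))))) (Trg.right (Trg.right (Trg.left (Trg.left (chamberNR 1 2))))) :=
  HoldsN.of_red (k := 16) (m := 16) (leaf ok3 (G264 _ rfl) (G687 _ rfl) (G440 _ rfl) (by decide +kernel))
theorem l793 : HoldsN X3 (Trg.right (Trg.right (Trg.left (Trg.left (Trg.right (Trg.right (chamber 1 1))))))) (Trg.right (Trg.right (Trg.left (Trg.left (chamberNR 1 2))))) :=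
  HoldsN.of_red (k := 16) (m := 16) (leaf ok3 (G313 _ rfl) (G656 _ rfl) (G439 _ rfl) (by decide +kernel))
theorem l794 : HoldsN X3 (Trg.right (Trg.left (Trg.right (Trg.right (chamber 1 1))))) (Trg.right (Trg.left (Trg.left (chamberNR 1 2)))) :=
  HoldsN.of_red (k := 16) (m := 16) (leaf ok3 (G393 _ rfl) (G604 _ rfl) (G438 _ rfl) (by decide +kernel))
theorem l795 : HoldsN X3 (Trg.left (Trg.left (Trg.right (Trg.right (chamber 1 1))))) (Trg.left (Trg.left (Trg.left (Trg.right (Trg.left (chamberNR 1 2)))))) :=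
  HoldsN.of_red (k := 16) (m := 16) (leaf ok3 (G177 _ rfl) (G778 _ rfl) (G373 _ rfl) (by decide +kernel))
theorem l796 : HoldsN X3 (Trg.left (Trg.left (Trg.left (Trg.right (Trg.right (chamber 1 1)))))) (Trg.right (Trg.left (Trg.left (Trg.right (Trg.left (chamberNR 1 2)))))) :=
  HoldsN.of_red (k := 16) (m := 16) (leaf ok3 (G365 _ rfl) (G719 _ rfl) (G372 _ rfl) (by decide +kernel))
theorem l797 : HoldsN X3 (Trg.right (Trg.left (Trg.left (Trg.right (Trg.right (chamber 1 1)))))) (Trg.right (Trg.left (Trg.left (Trg.right (Trg.left (chamberNR 1 2)))))) :=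
  HoldsN.of_red (k := 16) (m := 16) (leaf ok3 (G292 _ rfl) (G720 _ rfl) (G372 _ rfl) (by decide +kernel))
theorem l798 : HoldsN X3 (Trg.left (Trg.left (Trg.right (Trg.right (chamber 1 1))))) (Trg.right (Trg.left (Trg.right (Trg.left (chamberNR 1 2))))) :=
  HoldsN.of_red (k := 16) (m := 16) (leaf ok3 (G177 _ rfl) (G778 _ rfl) (G313 _ rfl) (by decide +kernel))
theorem l799 : HoldsN X3 (Trg.left (Trg.left (Trg.right (Trg.right (chamber 1 1))))) (Trg.left (Trg.right (Trg.right (Trg.left (chamberNR 1 2))))) :=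
  HoldsN.of_red (k := 16) (m := 16) (leaf ok3 (G105 _ rfl) (G778 _ rfl) (G413 _ rfl) (by decide +kernel))

end Vale.Agent.Lib.P154N.D4
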