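import Vale.Agent.Lib.P154N.D4.Data
import Vale.Agent.Lib.P154N.Red

/-!
# Leaves of the tree of triangles
-/

namespace Vale.Agent.Lib.P154N.D4

open Vale.Agent.Lib.P154K Vale.Agent.Lib.P154Neg

theorem l80 : HoldsN X2 (Trg.right (Trg.right (Trg.left (Trg.right (Trg.left (Trg.right (Trg.left (Trg.right (chamberN 1 2))))))))) (Trg.left (Trg.right (Trg.left (Trg.right (Trg.right (Trg.left (Trg.right (chamberN 1 2)))))))) :=
  HoldsN.of_red (k := 16) (m := 16) (leaf ok2 (G895 _ rfl) (G255 _ rfl) (G273 _ rfl) (by decide +kernel))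
theorem l81 : HoldsN X2 (Trg.left (Trg.right (Trg.left (Trg.right (Trg.left (Trg.right (chamberN 1 2))))))) (Trg.right (Trg.right (Trg.left (Trg.right (Trg.right (Trg.left (Trg.right (chamberN 1 2)))))))) :=
  HoldsN.of_red (k := 16) (m := 16) (leaf ok2 (G919 _ rfl) (G255 _ rfl) (G205 _ rfl) (by decide +kernel))
theorem l82 : HoldsN X2 (Trg.right (Trg.right (Trg.left (Trg.right (Trg.left (Trg.right (chamberN 1 2))))))) (Trg.left (Trg.right (Trg.right (Trg.left (Trg.right (chamberN 1 2)))))) :=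
  HoldsN.of_red (k := 16) (m := 16) (leaf ok2 (G880 _ rfl) (G209 _ rfl) (G246 _ rfl) (by decide +kernel))
theorem l83 : HoldsN X2 (Trg.left (Trg.right (Trg.left (Trg.right (chamberN 1 2))))) (Trg.right (Trg.right (Trg.right (Trg.left (Trg.right (chamberN 1 2)))))) :=
  HoldsN.of_red (k := 16) (m := 16) (leaf ok2 (G915 _ rfl) (G208 _ rfl) (G140 _ rfl) (by decide +kernel))
theorem l84 : HoldsN X2 (Trg.right (Trg.right (Trg.left (Trg.right (chamberN 1 2))))) (Trg.left (Trg.right (chamberN 1 2))) :=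
  HoldsN.of_red (k := 16) (m := 16) (leaf ok2 (G829 _ rfl) (G148 _ rfl) (G212 _ rfl) (by decide +kernel))
theorem l85 : HoldsN X2 (Trg.left (Trg.left (Trg.left (Trg.left (Trg.left (Trg.right (chamberN 1 2))))))) (Trg.left (Trg.left (Trg.left (Trg.right (Trg.right (chamberN 1 2)))))) :=
  HoldsN.of_red (k := 16) (m := 16) (leaf ok2 (G732 _ rfl) (G401 _ rfl) (G401 _ rfl) (by decide +kernel))
theorem l86 : HoldsN X2 (Trg.left (Trg.left (Trg.left (Trg.left (Trg.left (Trg.right (chamberN 1 2))))))) (Trg.left (Trg.right (Trg.left (Trg.left (Trg.right (Trg.right (chamberN 1 2))))))) :=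
  HoldsN.of_red (k := 16) (m := 16) (leaf ok2 (G789 _ rfl) (G344 _ rfl) (G400 _ rfl) (by decide +kernel))
theorem l87 : HoldsN X2 (Trg.left (Trg.left (Trg.left (Trg.left (Trg.left (Trg.right (chamberN 1 2))))))) (Trg.right (Trg.right (Trg.left (Trg.left (Trg.right (Trg.right (chamberN 1 2))))))) :=
  HoldsN.of_red (k := 16) (m := 16) (leaf ok2 (G732 _ rfl) (G388 _ rfl) (G401 _ rfl) (by decide +kernel))
theorem l88 : HoldsN X2 (Trg.right (Trg.left (Trg.left (Trg.left (Trg.left (Trg.right (chamberN 1 2))))))) (Trg.left (Trg.left (Trg.left (Trg.right (Trg.right (chamberN 1 2)))))) :=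
  HoldsN.of_red (k := 16) (m := 16) (leaf ok2 (G748 _ rfl) (G390 _ rfl) (G371 _ rfl) (by decide +kernel))
theorem l89 : HoldsN X2 (Trg.right (Trg.left (Trg.left (Trg.left (Trg.left (Trg.right (chamberN 1 2))))))) (Trg.left (Trg.right (Trg.left (Trg.left (Trg.right (Trg.right (chamberN 1 2))))))) :=
  HoldsN.of_red (k := 16) (m := 16) (leaf ok2 (G808 _ rfl) (G308 _ rfl) (G388 _ rfl) (by decide +kernel))

end Vale.Agent.Lib.P154N.D4
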