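import Vale.Agent.Lib.P154N.D4.Data
import Vale.Agent.Lib.P154N.Red

/-!
# Leaves of the tree of triangles
-/

namespace Vale.Agent.Lib.P154N.D4

open Vale.Agent.Lib.P154K Vale.Agent.Lib.P154Neg

theorem l800 : HoldsN X3 (Trg.left (Trg.left (Trg.left (Trg.right (Trg.right (chamber 1 1)))))) (Trg.left (Trg.right (Trg.right (Trg.right (Trg.left (chamberNR 1 2)))))) :=
  HoldsN.of_red (k := 16) (m := 16) (leaf ok3 (G293 _ rfl) (G719 _ rfl) (G423 _ rfl) (by decide +kernel))
theorem l801 : HoldsN X3 (Trg.right (Trg.left (Trg.left (Trg.right (Trg.right (chamber 1 1)))))) (Trg.left (Trg.right (Trg.right (Trg.right (Trg.left (chamberNR 1 2)))))) :=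
  HoldsN.of_red (k := 16) (m := 16) (leaf ok3 (G215 _ rfl) (G720 _ rfl) (G434 _ rfl) (by decide +kernel))
theorem l802 : HoldsN X3 (Trg.left (Trg.left (Trg.right (Trg.right (chamber 1 1))))) (Trg.right (Trg.right (Trg.right (Trg.right (Trg.left (chamberNR 1 2)))))) :=
  HoldsN.of_red (k := 16) (m := 16) (leaf ok3 (G174 _ rfl) (G778 _ rfl) (G403 _ rfl) (by decide +kernel))
theorem l803 : HoldsN X3 (Trg.right (Trg.left (Trg.right (Trg.right (chamber 1 1))))) (Trg.right (Trg.left (chamberNR 1 2))) :=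
  HoldsN.of_red (k := 16) (m := 16) (leaf ok3 (G241 _ rfl) (G620 _ rfl) (G321 _ rfl) (by decide +kernel))
theorem l804 : HoldsN X3 (Trg.right (Trg.right (Trg.right (chamber 1 1)))) (Trg.left (Trg.left (Trg.left (Trg.left (chamberNR 1 2))))) :=
  HoldsN.of_red (k := 16) (m := 16) (leaf ok3 (G216 _ rfl) (G762 _ rfl) (G320 _ rfl) (by decide +kernel))
theorem l805 : HoldsN X3 (Trg.right (Trg.right (Trg.right (chamber 1 1)))) (Trg.right (Trg.left (Trg.left (Trg.left (chamberNR 1 2))))) :=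
  HoldsN.of_red (k := 16) (m := 16) (leaf ok3 (G88 _ rfl) (G797 _ rfl) (G383 _ rfl) (by decide +kernel))
theorem l806 : HoldsN X3 (Trg.right (Trg.right (Trg.right (chamber 1 1)))) (Trg.right (Trg.left (Trg.left (chamberNR 1 2)))) :=
  HoldsN.of_red (k := 16) (m := 16) (leaf ok3 (G241 _ rfl) (G620 _ rfl) (G321 _ rfl) (by decide +kernel))
theorem l807 : HoldsN X3 (Trg.right (Trg.right (Trg.right (chamber 1 1)))) (Trg.left (Trg.right (Trg.left (chamberNR 1 2)))) :=
  HoldsN.of_red (k := 16) (m := 16) (leaf ok3 (G178 _ rfl) (G764 _ rfl) (G148 _ rfl) (by decide +kernel))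
theorem l808 : HoldsN X3 (Trg.right (Trg.right (Trg.right (chamber 1 1)))) (Trg.left (Trg.right (Trg.right (Trg.left (chamberNR 1 2))))) :=
  HoldsN.of_red (k := 16) (m := 16) (leaf ok3 (G87 _ rfl) (G847 _ rfl) (G270 _ rfl) (by decide +kernel))
theorem l809 : HoldsN X3 (Trg.right (Trg.right (Trg.right (chamber 1 1)))) (Trg.right (Trg.right (Trg.right (Trg.left (chamberNR 1 2))))) :=
  HoldsN.of_red (k := 16) (m := 16) (leaf ok3 (G178 _ rfl) (G764 _ rfl) (G265 _ rfl) (by decide +kernel))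

end Vale.Agent.Lib.P154N.D4
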