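import Vale.Agent.Lib.P154N.D4.Data
import Vale.Agent.Lib.P154N.Red

/-!
# Leaves of the tree of triangles
-/

namespace Vale.Agent.Lib.P154N.D4

open Vale.Agent.Lib.P154K Vale.Agent.Lib.P154Neg

theorem l810 : HoldsN X3 (Trg.left (Trg.left (Trg.right (Trg.right (chamber 1 1))))) (Trg.left (Trg.right (chamberNR 1 2))) :=
  HoldsN.of_red (k := 16) (m := 16) (leaf ok3 (G42 _ rfl) (G722 _ rfl) (G531 _ rfl) (by decide +kernel))
theorem l811 : HoldsN X3 (Trg.right (Trg.left (Trg.right (Trg.right (chamber 1 1))))) (Trg.left (Trg.right (chamberNR 1 2))) :=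
  HoldsN.of_red (k := 16) (m := 16) (leaf ok3 (G107 _ rfl) (G623 _ rfl) (G524 _ rfl) (by decide +kernel))
theorem l812 : HoldsN X3 (Trg.right (Trg.right (Trg.right (chamber 1 1)))) (Trg.left (Trg.left (Trg.right (chamberNR 1 2)))) :=
  HoldsN.of_red (k := 16) (m := 16) (leaf ok3 (G47 _ rfl) (G831 _ rfl) (G454 _ rfl) (by decide +kernel))
theorem l813 : HoldsN X3 (Trg.right (Trg.right (Trg.right (chamber 1 1)))) (Trg.left (Trg.right (Trg.left (Trg.right (chamberNR 1 2))))) :=
  HoldsN.of_red (k := 16) (m := 16) (leaf ok3 (G28 _ rfl) (G887 _ rfl) (G642 _ rfl) (by decide +kernel))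
theorem l814 : HoldsN X3 (Trg.right (Trg.right (Trg.right (chamber 1 1)))) (Trg.right (Trg.right (Trg.left (Trg.right (chamberNR 1 2))))) :=
  HoldsN.of_red (k := 16) (m := 16) (leaf ok3 (G47 _ rfl) (G831 _ rfl) (G641 _ rfl) (by decide +kernel))
theorem l815 : HoldsN X3 (Trg.left (Trg.left (Trg.right (Trg.right (chamber 1 1))))) (Trg.left (Trg.left (Trg.right (Trg.right (chamberNR 1 2))))) :=
  HoldsN.of_red (k := 16) (m := 16) (leaf ok3 (G146 _ rfl) (G657 _ rfl) (G565 _ rfl) (by decide +kernel))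
theorem l816 : HoldsN X3 (Trg.left (Trg.left (Trg.left (Trg.right (Trg.right (chamber 1 1)))))) (Trg.left (Trg.right (Trg.left (Trg.right (Trg.right (chamberNR 1 2)))))) :=
  HoldsN.of_red (k := 16) (m := 16) (leaf ok3 (G367 _ rfl) (G594 _ rfl) (G578 _ rfl) (by decide +kernel))
theorem l817 : HoldsN X3 (Trg.left (Trg.right (Trg.left (Trg.left (Trg.right (Trg.right (chamber 1 1))))))) (Trg.left (Trg.right (Trg.left (Trg.right (Trg.right (chamberNR 1 2)))))) :=
  HoldsN.of_red (k := 16) (m := 16) (leaf ok3 (G316 _ rfl) (G594 _ rfl) (G594 _ rfl) (by decide +kernel))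
theorem l818 : HoldsN X3 (Trg.right (Trg.right (Trg.left (Trg.left (Trg.right (Trg.right (chamber 1 1))))))) (Trg.left (Trg.right (Trg.left (Trg.right (Trg.right (chamberNR 1 2)))))) :=
  HoldsN.of_red (k := 16) (m := 16) (leaf ok3 (G367 _ rfl) (G594 _ rfl) (G591 _ rfl) (by decide +kernel))
theorem l819 : HoldsN X3 (Trg.left (Trg.left (Trg.right (Trg.right (chamber 1 1))))) (Trg.right (Trg.right (Trg.left (Trg.right (Trg.right (chamberNR 1 2)))))) :=
  HoldsN.of_red (k := 16) (m := 16) (leaf ok3 (G261 _ rfl) (G657 _ rfl) (G555 _ rfl) (by decide +kernel))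

end Vale.Agent.Lib.P154N.D4
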