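import Vale.Agent.Lib.P154N.D4.Data
import Vale.Agent.Lib.P154N.Red

/-!
# Leaves of the tree of triangles
-/

namespace Vale.Agent.Lib.P154N.D4

open Vale.Agent.Lib.P154K Vale.Agent.Lib.P154Neg

theorem l820 : HoldsN X3 (Trg.right (Trg.left (Trg.right (Trg.right (chamber 1 1))))) (Trg.left (Trg.right (Trg.right (chamberNR 1 2)))) :=
  HoldsN.of_red (k := 16) (m := 16) (leaf ok3 (G266 _ rfl) (G608 _ rfl) (G556 _ rfl) (by decide +kernel))
theorem l821 : HoldsN X3 (Trg.left (Trg.left (Trg.right (Trg.right (chamber 1 1))))) (Trg.right (Trg.right (Trg.right (chamberNR 1 2)))) :=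
  HoldsN.of_red (k := 16) (m := 16) (leaf ok3 (G106 _ rfl) (G722 _ rfl) (G523 _ rfl) (by decide +kernel))
theorem l822 : HoldsN X3 (Trg.right (Trg.left (Trg.right (Trg.right (chamber 1 1))))) (Trg.right (Trg.right (Trg.right (chamberNR 1 2)))) :=
  HoldsN.of_red (k := 16) (m := 16) (leaf ok3 (G241 _ rfl) (G620 _ rfl) (G515 _ rfl) (by decide +kernel))
theorem l823 : HoldsN X3 (Trg.right (Trg.right (Trg.right (chamber 1 1)))) (Trg.left (Trg.left (Trg.right (Trg.right (chamberNR 1 2))))) :=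
  HoldsN.of_red (k := 16) (m := 16) (leaf ok3 (G106 _ rfl) (G722 _ rfl) (G523 _ rfl) (by decide +kernel))
theorem l824 : HoldsN X3 (Trg.right (Trg.right (Trg.right (chamber 1 1)))) (Trg.right (Trg.left (Trg.right (Trg.right (chamberNR 1 2))))) :=
  HoldsN.of_red (k := 16) (m := 16) (leaf ok3 (G241 _ rfl) (G620 _ rfl) (G515 _ rfl) (by decide +kernel))
theorem l825 : HoldsN X3 (Trg.right (Trg.right (Trg.right (chamber 1 1)))) (Trg.right (Trg.right (Trg.right (chamberNR 1 2)))) :=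
  HoldsN.of_red (k := 16) (m := 16) (leaf ok3 (G88 _ rfl) (G797 _ rfl) (G451 _ rfl) (by decide +kernel))
theorem l826 : HoldsN X4 (Trg.left (Trg.left (Trg.left (Trg.left (chamber 1 1))))) (Trg.left (Trg.left (Trg.left (chamberN 1 2)))) :=
  HoldsN.of_red (k := 16) (m := 16) (leaf ok4 (G122 _ rfl) (G569 _ rfl) (G521 _ rfl) (by decide +kernel))
theorem l827 : HoldsN X4 (Trg.right (Trg.left (Trg.left (Trg.left (chamber 1 1))))) (Trg.left (Trg.left (Trg.left (Trg.left (chamberN 1 2))))) :=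
  HoldsN.of_red (k := 16) (m := 16) (leaf ok4 (G122 _ rfl) (G521 _ rfl) (G693 _ rfl) (by decide +kernel))
theorem l828 : HoldsN X4 (Trg.left (Trg.right (Trg.left (Trg.left (Trg.left (chamber 1 1)))))) (Trg.left (Trg.right (Trg.left (Trg.left (Trg.left (chamberN 1 2)))))) :=
  HoldsN.of_red (k := 16) (m := 16) (leaf ok4 (G56 _ rfl) (G738 _ rfl) (G738 _ rfl) (by decide +kernel))
theorem l829 : HoldsN X4 (Trg.left (Trg.right (Trg.left (Trg.left (Trg.left (chamber 1 1)))))) (Trg.right (Trg.right (Trg.left (Trg.left (Trg.left (chamberN 1 2)))))) :=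
  HoldsN.of_red (k := 16) (m := 16) (leaf ok4 (G96 _ rfl) (G733 _ rfl) (G693 _ rfl) (by decide +kernel))

end Vale.Agent.Lib.P154N.D4
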