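import Vale.Agent.Lib.P154N.D4.Data
import Vale.Agent.Lib.P154N.Red

/-!
# Leaves of the tree of triangles
-/

namespace Vale.Agent.Lib.P154N.D4

open Vale.Agent.Lib.P154K Vale.Agent.Lib.P154Neg

theorem l830 : HoldsN X4 (Trg.right (Trg.right (Trg.left (Trg.left (Trg.left (chamber 1 1)))))) (Trg.right (Trg.left (Trg.left (Trg.left (chamberN 1 2))))) :=
  HoldsN.of_red (k := 16) (m := 16) (leaf ok4 (G97 _ rfl) (G693 _ rfl) (G691 _ rfl) (by decide +kernel))
theorem l831 : HoldsN X4 (Trg.left (Trg.left (Trg.left (chamber 1 1)))) (Trg.right (Trg.left (Trg.left (chamberN 1 2)))) :=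
  HoldsN.of_red (k := 16) (m := 16) (leaf ok4 (G179 _ rfl) (G522 _ rfl) (G567 _ rfl) (by decide +kernel))
theorem l832 : HoldsN X4 (Trg.left (Trg.left (Trg.left (Trg.left (chamber 1 1))))) (Trg.right (Trg.left (chamberN 1 2))) :=
  HoldsN.of_red (k := 16) (m := 16) (leaf ok4 (G122 _ rfl) (G529 _ rfl) (G529 _ rfl) (by decide +kernel))
theorem l833 : HoldsN X4 (Trg.right (Trg.left (Trg.left (Trg.left (chamber 1 1))))) (Trg.left (Trg.right (Trg.left (chamberN 1 2)))) :=
  HoldsN.of_red (k := 16) (m := 16) (leaf ok4 (G89 _ rfl) (G448 _ rfl) (G763 _ rfl) (by decide +kernel))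
theorem l834 : HoldsN X4 (Trg.right (Trg.left (Trg.left (Trg.left (chamber 1 1))))) (Trg.left (Trg.right (Trg.right (Trg.left (chamberN 1 2))))) :=
  HoldsN.of_red (k := 16) (m := 16) (leaf ok4 (G58 _ rfl) (G681 _ rfl) (G780 _ rfl) (by decide +kernel))
theorem l835 : HoldsN X4 (Trg.right (Trg.left (Trg.left (Trg.left (chamber 1 1))))) (Trg.right (Trg.right (Trg.right (Trg.left (chamberN 1 2))))) :=
  HoldsN.of_red (k := 16) (m := 16) (leaf ok4 (G89 _ rfl) (G520 _ rfl) (G760 _ rfl) (by decide +kernel))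
theorem l836 : HoldsN X4 (Trg.right (Trg.left (Trg.left (chamber 1 1)))) (Trg.left (Trg.left (chamberN 1 2))) :=
  HoldsN.of_red (k := 16) (m := 16) (leaf ok4 (G179 _ rfl) (G567 _ rfl) (G522 _ rfl) (by decide +kernel))
theorem l837 : HoldsN X4 (Trg.right (Trg.left (Trg.left (chamber 1 1)))) (Trg.right (Trg.left (chamberN 1 2))) :=
  HoldsN.of_red (k := 16) (m := 16) (leaf ok4 (G179 _ rfl) (G528 _ rfl) (G528 _ rfl) (by decide +kernel))
theorem l838 : HoldsN X4 (Trg.left (Trg.right (Trg.left (chamber 1 1)))) (Trg.left (Trg.left (Trg.left (Trg.left (chamberN 1 2))))) :=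
  HoldsN.of_red (k := 16) (m := 16) (leaf ok4 (G159 _ rfl) (G641 _ rfl) (G521 _ rfl) (by decide +kernel))
theorem l839 : HoldsN X4 (Trg.left (Trg.left (Trg.left (Trg.right (Trg.left (chamber 1 1)))))) (Trg.right (Trg.left (Trg.left (Trg.left (chamberN 1 2))))) :=
  HoldsN.of_red (k := 16) (m := 16) (leaf ok4 (G87 _ rfl) (G796 _ rfl) (G484 _ rfl) (by decide +kernel))

end Vale.Agent.Lib.P154N.D4
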