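import Vale.Agent.Lib.P154N.D4.Data
import Vale.Agent.Lib.P154N.Red

/-!
# Leaves of the tree of triangles
-/

namespace Vale.Agent.Lib.P154N.D4

open Vale.Agent.Lib.P154K Vale.Agent.Lib.P154Neg

theorem l850 : HoldsN X4 (Trg.left (Trg.right (Trg.right (Trg.left (chamber 1 1))))) (Trg.left (Trg.right (Trg.left (chamberN 1 2)))) :=
  HoldsN.of_red (k := 16) (m := 16) (leaf ok4 (G87 _ rfl) (G453 _ rfl) (G784 _ rfl) (by decide +kernel))
theorem l851 : HoldsN X4 (Trg.left (Trg.right (Trg.right (Trg.left (chamber 1 1))))) (Trg.left (Trg.right (Trg.right (Trg.left (chamberN 1 2))))) :=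
  HoldsN.of_red (k := 16) (m := 16) (leaf ok4 (G56 _ rfl) (G760 _ rfl) (G760 _ rfl) (by decide +kernel))
theorem l852 : HoldsN X4 (Trg.left (Trg.right (Trg.right (Trg.left (chamber 1 1))))) (Trg.right (Trg.right (Trg.right (Trg.left (chamberN 1 2))))) :=
  HoldsN.of_red (k := 16) (m := 16) (leaf ok4 (G87 _ rfl) (G526 _ rfl) (G780 _ rfl) (by decide +kernel))
theorem l853 : HoldsN X4 (Trg.right (Trg.right (Trg.right (Trg.left (chamber 1 1))))) (Trg.right (Trg.left (chamberN 1 2))) :=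
  HoldsN.of_red (k := 16) (m := 16) (leaf ok4 (G89 _ rfl) (G624 _ rfl) (G530 _ rfl) (by decide +kernel))
theorem l854 : HoldsN X4 (Trg.left (Trg.left (Trg.left (Trg.left (chamber 1 1))))) (Trg.left (Trg.right (chamberN 1 2))) :=
  HoldsN.of_red (k := 16) (m := 16) (leaf ok4 (G80 _ rfl) (G804 _ rfl) (G330 _ rfl) (by decide +kernel))
theorem l855 : HoldsN X4 (Trg.left (Trg.right (Trg.left (Trg.left (Trg.left (chamber 1 1)))))) (Trg.left (Trg.left (Trg.left (Trg.left (Trg.right (chamberN 1 2)))))) :=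
  HoldsN.of_red (k := 16) (m := 16) (leaf ok4 (G37 _ rfl) (G869 _ rfl) (G651 _ rfl) (by decide +kernel))
theorem l856 : HoldsN X4 (Trg.left (Trg.right (Trg.left (Trg.left (Trg.left (chamber 1 1)))))) (Trg.right (Trg.left (Trg.left (Trg.left (Trg.right (chamberN 1 2)))))) :=
  HoldsN.of_red (k := 16) (m := 16) (leaf ok4 (G61 _ rfl) (G867 _ rfl) (G611 _ rfl) (by decide +kernel))
theorem l857 : HoldsN X4 (Trg.left (Trg.right (Trg.left (Trg.left (Trg.left (chamber 1 1)))))) (Trg.right (Trg.left (Trg.left (Trg.right (chamberN 1 2))))) :=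
  HoldsN.of_red (k := 16) (m := 16) (leaf ok4 (G37 _ rfl) (G860 _ rfl) (G695 _ rfl) (by decide +kernel))
theorem l858 : HoldsN X4 (Trg.right (Trg.right (Trg.left (Trg.left (Trg.left (chamber 1 1)))))) (Trg.left (Trg.left (Trg.right (chamberN 1 2)))) :=
  HoldsN.of_red (k := 16) (m := 16) (leaf ok4 (G67 _ rfl) (G801 _ rfl) (G615 _ rfl) (by decide +kernel))
theorem l859 : HoldsN X4 (Trg.right (Trg.left (Trg.left (Trg.left (chamber 1 1))))) (Trg.left (Trg.right (Trg.left (Trg.right (chamberN 1 2))))) :=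
  HoldsN.of_red (k := 16) (m := 16) (leaf ok4 (G28 _ rfl) (G871 _ rfl) (G617 _ rfl) (by decide +kernel))

end Vale.Agent.Lib.P154N.D4
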