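import Vale.Agent.Lib.P154N.D4.Data
import Vale.Agent.Lib.P154N.Red

/-!
# Leaves of the tree of triangles
-/

namespace Vale.Agent.Lib.P154N.D4

open Vale.Agent.Lib.P154K Vale.Agent.Lib.P154Neg

theorem l860 : HoldsN X4 (Trg.left (Trg.right (Trg.left (Trg.left (Trg.left (chamber 1 1)))))) (Trg.left (Trg.right (Trg.right (Trg.left (Trg.right (chamberN 1 2)))))) :=
  HoldsN.of_red (k := 16) (m := 16) (leaf ok4 (G50 _ rfl) (G883 _ rfl) (G607 _ rfl) (by decide +kernel))
theorem l861 : HoldsN X4 (Trg.left (Trg.right (Trg.left (Trg.left (Trg.left (chamber 1 1)))))) (Trg.right (Trg.right (Trg.right (Trg.left (Trg.right (chamberN 1 2)))))) :=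
  HoldsN.of_red (k := 16) (m := 16) (leaf ok4 (G36 _ rfl) (G903 _ rfl) (G617 _ rfl) (by decide +kernel))
theorem l862 : HoldsN X4 (Trg.right (Trg.right (Trg.left (Trg.left (Trg.left (chamber 1 1)))))) (Trg.right (Trg.right (Trg.left (Trg.right (chamberN 1 2))))) :=
  HoldsN.of_red (k := 16) (m := 16) (leaf ok4 (G67 _ rfl) (G821 _ rfl) (G609 _ rfl) (by decide +kernel))
theorem l863 : HoldsN X4 (Trg.right (Trg.left (Trg.left (chamber 1 1)))) (Trg.left (Trg.right (chamberN 1 2))) :=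
  HoldsN.of_red (k := 16) (m := 16) (leaf ok4 (G107 _ rfl) (G623 _ rfl) (G331 _ rfl) (by decide +kernel))
theorem l864 : HoldsN X4 (Trg.left (Trg.left (Trg.left (Trg.right (Trg.left (chamber 1 1)))))) (Trg.left (Trg.left (Trg.left (Trg.left (Trg.right (chamberN 1 2)))))) :=
  HoldsN.of_red (k := 16) (m := 16) (leaf ok4 (G70 _ rfl) (G888 _ rfl) (G341 _ rfl) (by decide +kernel))
theorem l865 : HoldsN X4 (Trg.left (Trg.left (Trg.left (Trg.right (Trg.left (chamber 1 1)))))) (Trg.right (Trg.left (Trg.left (Trg.left (Trg.right (chamberN 1 2)))))) :=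
  HoldsN.of_red (k := 16) (m := 16) (leaf ok4 (G112 _ rfl) (G877 _ rfl) (G352 _ rfl) (by decide +kernel))
theorem l866 : HoldsN X4 (Trg.left (Trg.left (Trg.left (Trg.right (Trg.left (chamber 1 1)))))) (Trg.right (Trg.left (Trg.left (Trg.right (chamberN 1 2))))) :=
  HoldsN.of_red (k := 16) (m := 16) (leaf ok4 (G70 _ rfl) (G888 _ rfl) (G342 _ rfl) (by decide +kernel))
theorem l867 : HoldsN X4 (Trg.right (Trg.left (Trg.left (Trg.right (Trg.left (chamber 1 1)))))) (Trg.left (Trg.left (Trg.right (chamberN 1 2)))) :=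
  HoldsN.of_red (k := 16) (m := 16) (leaf ok4 (G133 _ rfl) (G823 _ rfl) (G341 _ rfl) (by decide +kernel))
theorem l868 : HoldsN X4 (Trg.right (Trg.left (Trg.right (Trg.left (chamber 1 1))))) (Trg.left (Trg.left (Trg.left (Trg.left (Trg.right (chamberN 1 2)))))) :=
  HoldsN.of_red (k := 16) (m := 16) (leaf ok4 (G70 _ rfl) (G891 _ rfl) (G268 _ rfl) (by decide +kernel))
theorem l869 : HoldsN X4 (Trg.left (Trg.left (Trg.right (Trg.left (Trg.right (Trg.left (chamber 1 1))))))) (Trg.right (Trg.left (Trg.left (Trg.left (Trg.right (chamberN 1 2)))))) :=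
  HoldsN.of_red (k := 16) (m := 16) (leaf ok4 (G142 _ rfl) (G878 _ rfl) (G311 _ rfl) (by decide +kernel))

end Vale.Agent.Lib.P154N.D4
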