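import Vale.Agent.Lib.P154N.D4.Data
import Vale.Agent.Lib.P154N.Red

/-!
# Leaves of the tree of triangles
-/

namespace Vale.Agent.Lib.P154N.D4

open Vale.Agent.Lib.P154K Vale.Agent.Lib.P154Neg

theorem l870 : HoldsN X4 (Trg.right (Trg.left (Trg.right (Trg.left (Trg.right (Trg.left (chamber 1 1))))))) (Trg.left (Trg.left (Trg.right (Trg.left (Trg.left (Trg.left (Trg.right (chamberN 1 2)))))))) :=
  HoldsN.of_red (k := 16) (m := 16) (leaf ok4 (G138 _ rfl) (G902 _ rfl) (G289 _ rfl) (by decide +kernel))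
theorem l871 : HoldsN X4 (Trg.right (Trg.left (Trg.right (Trg.left (Trg.right (Trg.left (chamber 1 1))))))) (Trg.right (Trg.left (Trg.right (Trg.left (Trg.left (Trg.left (Trg.right (chamberN 1 2)))))))) :=
  HoldsN.of_red (k := 16) (m := 16) (leaf ok4 (G182 _ rfl) (G893 _ rfl) (G301 _ rfl) (by decide +kernel))
theorem l872 : HoldsN X4 (Trg.right (Trg.left (Trg.right (Trg.left (Trg.right (Trg.left (chamber 1 1))))))) (Trg.right (Trg.right (Trg.left (Trg.left (Trg.left (Trg.right (chamberN 1 2))))))) :=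
  HoldsN.of_red (k := 16) (m := 16) (leaf ok4 (G138 _ rfl) (G902 _ rfl) (G292 _ rfl) (by decide +kernel))
theorem l873 : HoldsN X4 (Trg.right (Trg.right (Trg.left (Trg.right (Trg.left (chamber 1 1)))))) (Trg.right (Trg.left (Trg.left (Trg.left (Trg.right (chamberN 1 2)))))) :=
  HoldsN.of_red (k := 16) (m := 16) (leaf ok4 (G112 _ rfl) (G878 _ rfl) (G352 _ rfl) (by decide +kernel))
theorem l874 : HoldsN X4 (Trg.right (Trg.left (Trg.right (Trg.left (chamber 1 1))))) (Trg.right (Trg.left (Trg.left (Trg.right (chamberN 1 2))))) :=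
  HoldsN.of_red (k := 16) (m := 16) (leaf ok4 (G70 _ rfl) (G891 _ rfl) (G271 _ rfl) (by decide +kernel))
theorem l875 : HoldsN X4 (Trg.left (Trg.right (Trg.left (chamber 1 1)))) (Trg.left (Trg.right (Trg.left (Trg.right (chamberN 1 2))))) :=
  HoldsN.of_red (k := 16) (m := 16) (leaf ok4 (G59 _ rfl) (G887 _ rfl) (G150 _ rfl) (by decide +kernel))
theorem l876 : HoldsN X4 (Trg.left (Trg.left (Trg.left (Trg.right (Trg.left (chamber 1 1)))))) (Trg.left (Trg.right (Trg.right (Trg.left (Trg.right (chamberN 1 2)))))) :=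
  HoldsN.of_red (k := 16) (m := 16) (leaf ok4 (G99 _ rfl) (G883 _ rfl) (G294 _ rfl) (by decide +kernel))
theorem l877 : HoldsN X4 (Trg.left (Trg.left (Trg.left (Trg.right (Trg.left (chamber 1 1)))))) (Trg.right (Trg.right (Trg.right (Trg.left (Trg.right (chamberN 1 2)))))) :=
  HoldsN.of_red (k := 16) (m := 16) (leaf ok4 (G70 _ rfl) (G907 _ rfl) (G297 _ rfl) (by decide +kernel))
theorem l878 : HoldsN X4 (Trg.right (Trg.left (Trg.left (Trg.right (Trg.left (chamber 1 1)))))) (Trg.right (Trg.right (Trg.left (Trg.right (chamberN 1 2))))) :=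
  HoldsN.of_red (k := 16) (m := 16) (leaf ok4 (G133 _ rfl) (G823 _ rfl) (G292 _ rfl) (by decide +kernel))
theorem l879 : HoldsN X4 (Trg.left (Trg.right (Trg.left (Trg.right (Trg.left (chamber 1 1)))))) (Trg.left (Trg.left (Trg.right (Trg.right (Trg.left (Trg.right (chamberN 1 2))))))) :=
  HoldsN.of_red (k := 16) (m := 16) (leaf ok4 (G131 _ rfl) (G906 _ rfl) (G211 _ rfl) (by decide +kernel))

end Vale.Agent.Lib.P154N.D4
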