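import Vale.Agent.Lib.P154N.D4.Data
import Vale.Agent.Lib.P154N.Red

/-!
# Leaves of the tree of triangles
-/

namespace Vale.Agent.Lib.P154N.D4

open Vale.Agent.Lib.P154K Vale.Agent.Lib.P154Neg

theorem l90 : HoldsN X2 (Trg.right (Trg.left (Trg.left (Trg.left (Trg.left (Trg.right (chamberN 1 2))))))) (Trg.right (Trg.right (Trg.left (Trg.left (Trg.right (Trg.right (chamberN 1 2))))))) :=
  HoldsN.of_red (k := 16) (m := 16) (leaf ok2 (G748 _ rfl) (G369 _ rfl) (G389 _ rfl) (by decide +kernel))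
theorem l91 : HoldsN X2 (Trg.right (Trg.left (Trg.left (Trg.left (Trg.right (chamberN 1 2)))))) (Trg.left (Trg.left (Trg.left (Trg.right (Trg.right (chamberN 1 2)))))) :=
  HoldsN.of_red (k := 16) (m := 16) (leaf ok2 (G716 _ rfl) (G421 _ rfl) (G401 _ rfl) (by decide +kernel))
theorem l92 : HoldsN X2 (Trg.right (Trg.left (Trg.left (Trg.left (Trg.right (chamberN 1 2)))))) (Trg.left (Trg.right (Trg.left (Trg.left (Trg.right (Trg.right (chamberN 1 2))))))) :=
  HoldsN.of_red (k := 16) (m := 16) (leaf ok2 (G770 _ rfl) (G370 _ rfl) (G400 _ rfl) (by decide +kernel))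
theorem l93 : HoldsN X2 (Trg.right (Trg.left (Trg.left (Trg.left (Trg.right (chamberN 1 2)))))) (Trg.right (Trg.right (Trg.left (Trg.left (Trg.right (Trg.right (chamberN 1 2))))))) :=
  HoldsN.of_red (k := 16) (m := 16) (leaf ok2 (G716 _ rfl) (G419 _ rfl) (G401 _ rfl) (by decide +kernel))
theorem l94 : HoldsN X2 (Trg.right (Trg.left (Trg.left (Trg.right (chamberN 1 2))))) (Trg.left (Trg.left (Trg.right (Trg.right (chamberN 1 2))))) :=
  HoldsN.of_red (k := 16) (m := 16) (leaf ok2 (G736 _ rfl) (G311 _ rfl) (G373 _ rfl) (by decide +kernel))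
theorem l95 : HoldsN X2 (Trg.left (Trg.left (Trg.right (chamberN 1 2)))) (Trg.right (Trg.left (Trg.right (Trg.right (chamberN 1 2))))) :=
  HoldsN.of_red (k := 16) (m := 16) (leaf ok2 (G610 _ rfl) (G435 _ rfl) (G375 _ rfl) (by decide +kernel))
theorem l96 : HoldsN X2 (Trg.left (Trg.left (Trg.right (Trg.left (Trg.right (chamberN 1 2)))))) (Trg.left (Trg.left (Trg.left (Trg.right (Trg.right (chamberN 1 2)))))) :=
  HoldsN.of_red (k := 16) (m := 16) (leaf ok2 (G772 _ rfl) (G390 _ rfl) (G346 _ rfl) (by decide +kernel))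
theorem l97 : HoldsN X2 (Trg.left (Trg.left (Trg.right (Trg.left (Trg.right (chamberN 1 2)))))) (Trg.left (Trg.right (Trg.left (Trg.left (Trg.right (Trg.right (chamberN 1 2))))))) :=
  HoldsN.of_red (k := 16) (m := 16) (leaf ok2 (G835 _ rfl) (G308 _ rfl) (G344 _ rfl) (by decide +kernel))
theorem l98 : HoldsN X2 (Trg.left (Trg.left (Trg.right (Trg.left (Trg.right (chamberN 1 2)))))) (Trg.right (Trg.right (Trg.left (Trg.left (Trg.right (Trg.right (chamberN 1 2))))))) :=
  HoldsN.of_red (k := 16) (m := 16) (leaf ok2 (G772 _ rfl) (G369 _ rfl) (G346 _ rfl) (by decide +kernel))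
theorem l99 : HoldsN X2 (Trg.left (Trg.right (Trg.left (Trg.right (Trg.left (Trg.right (chamberN 1 2))))))) (Trg.left (Trg.left (Trg.right (Trg.right (chamberN 1 2))))) :=
  HoldsN.of_red (k := 16) (m := 16) (leaf ok2 (G799 _ rfl) (G312 _ rfl) (G309 _ rfl) (by decide +kernel))

end Vale.Agent.Lib.P154N.D4
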