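import Vale.Agent.Lib.P154N.D4.Data
import Vale.Agent.Lib.P154N.Red

/-!
# Leaves of the tree of triangles
-/

namespace Vale.Agent.Lib.P154N.D4

open Vale.Agent.Lib.P154K Vale.Agent.Lib.P154Neg

theorem l910 : HoldsN X4 (Trg.right (Trg.left (Trg.left (Trg.left (chamber 1 1))))) (Trg.left (Trg.left (Trg.right (Trg.right (chamberN 1 2))))) :=
  HoldsN.of_red (k := 16) (m := 16) (leaf ok4 (G106 _ rfl) (G710 _ rfl) (G605 _ rfl) (by decide +kernel))
theorem l911 : HoldsN X4 (Trg.right (Trg.left (Trg.left (Trg.left (chamber 1 1))))) (Trg.right (Trg.left (Trg.right (Trg.right (chamberN 1 2))))) :=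
  HoldsN.of_red (k := 16) (m := 16) (leaf ok4 (G179 _ rfl) (G608 _ rfl) (G606 _ rfl) (by decide +kernel))
theorem l912 : HoldsN X4 (Trg.left (Trg.left (Trg.left (Trg.left (chamber 1 1))))) (Trg.right (Trg.right (Trg.right (chamberN 1 2)))) :=
  HoldsN.of_red (k := 16) (m := 16) (leaf ok4 (G122 _ rfl) (G706 _ rfl) (G449 _ rfl) (by decide +kernel))
theorem l913 : HoldsN X4 (Trg.left (Trg.left (Trg.right (Trg.left (Trg.left (Trg.left (chamber 1 1))))))) (Trg.left (Trg.left (Trg.right (Trg.right (Trg.right (chamberN 1 2)))))) :=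
  HoldsN.of_red (k := 16) (m := 16) (leaf ok4 (G111 _ rfl) (G753 _ rfl) (G687 _ rfl) (by decide +kernel))
theorem l914 : HoldsN X4 (Trg.right (Trg.left (Trg.right (Trg.left (Trg.left (Trg.left (chamber 1 1))))))) (Trg.left (Trg.left (Trg.right (Trg.right (Trg.right (chamberN 1 2)))))) :=
  HoldsN.of_red (k := 16) (m := 16) (leaf ok4 (G75 _ rfl) (G756 _ rfl) (G747 _ rfl) (by decide +kernel))
theorem l915 : HoldsN X4 (Trg.left (Trg.right (Trg.left (Trg.left (Trg.left (chamber 1 1)))))) (Trg.right (Trg.left (Trg.right (Trg.right (Trg.right (chamberN 1 2)))))) :=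
  HoldsN.of_red (k := 16) (m := 16) (leaf ok4 (G55 _ rfl) (G809 _ rfl) (G695 _ rfl) (by decide +kernel))
theorem l916 : HoldsN X4 (Trg.left (Trg.left (Trg.right (Trg.left (Trg.left (Trg.left (chamber 1 1))))))) (Trg.right (Trg.right (Trg.right (Trg.right (chamberN 1 2))))) :=
  HoldsN.of_red (k := 16) (m := 16) (leaf ok4 (G111 _ rfl) (G754 _ rfl) (G605 _ rfl) (by decide +kernel))
theorem l917 : HoldsN X4 (Trg.right (Trg.left (Trg.right (Trg.left (Trg.left (Trg.left (chamber 1 1))))))) (Trg.right (Trg.right (Trg.right (Trg.right (chamberN 1 2))))) :=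
  HoldsN.of_red (k := 16) (m := 16) (leaf ok4 (G75 _ rfl) (G758 _ rfl) (G658 _ rfl) (by decide +kernel))
theorem l918 : HoldsN X4 (Trg.right (Trg.right (Trg.left (Trg.left (Trg.left (chamber 1 1)))))) (Trg.right (Trg.right (Trg.right (chamberN 1 2)))) :=
  HoldsN.of_red (k := 16) (m := 16) (leaf ok4 (G97 _ rfl) (G706 _ rfl) (G615 _ rfl) (by decide +kernel))
theorem l919 : HoldsN X4 (Trg.right (Trg.left (Trg.left (chamber 1 1)))) (Trg.left (Trg.right (Trg.right (chamberN 1 2)))) :=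
  HoldsN.of_red (k := 16) (m := 16) (leaf ok4 (G266 _ rfl) (G608 _ rfl) (G446 _ rfl) (by decide +kernel))

end Vale.Agent.Lib.P154N.D4
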