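import Vale.Agent.Lib.P154N.D4.Data
import Vale.Agent.Lib.P154N.Red

/-!
# Leaves of the tree of triangles
-/

namespace Vale.Agent.Lib.P154N.D4

open Vale.Agent.Lib.P154K Vale.Agent.Lib.P154Neg

theorem l920 : HoldsN X4 (Trg.right (Trg.left (Trg.left (chamber 1 1)))) (Trg.right (Trg.right (Trg.right (chamberN 1 2)))) :=
  HoldsN.of_red (k := 16) (m := 16) (leaf ok4 (G179 _ rfl) (G614 _ rfl) (G450 _ rfl) (by decide +kernel))
theorem l921 : HoldsN X4 (Trg.left (Trg.left (Trg.left (Trg.left (Trg.right (Trg.left (chamber 1 1))))))) (Trg.left (Trg.left (Trg.right (Trg.right (chamberN 1 2))))) :=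
  HoldsN.of_red (k := 16) (m := 16) (leaf ok4 (G260 _ rfl) (G774 _ rfl) (G377 _ rfl) (by decide +kernel))
theorem l922 : HoldsN X4 (Trg.right (Trg.left (Trg.left (Trg.left (Trg.right (Trg.left (chamber 1 1))))))) (Trg.left (Trg.left (Trg.right (Trg.right (chamberN 1 2))))) :=
  HoldsN.of_red (k := 16) (m := 16) (leaf ok4 (G172 _ rfl) (G778 _ rfl) (G442 _ rfl) (by decide +kernel))
theorem l923 : HoldsN X4 (Trg.right (Trg.left (Trg.left (Trg.right (Trg.left (chamber 1 1)))))) (Trg.left (Trg.left (Trg.left (Trg.right (Trg.right (chamberN 1 2)))))) :=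
  HoldsN.of_red (k := 16) (m := 16) (leaf ok4 (G303 _ rfl) (G718 _ rfl) (G437 _ rfl) (by decide +kernel))
theorem l924 : HoldsN X4 (Trg.right (Trg.left (Trg.left (Trg.right (Trg.left (chamber 1 1)))))) (Trg.left (Trg.right (Trg.left (Trg.left (Trg.right (Trg.right (chamberN 1 2))))))) :=
  HoldsN.of_red (k := 16) (m := 16) (leaf ok4 (G290 _ rfl) (G772 _ rfl) (G373 _ rfl) (by decide +kernel))
theorem l925 : HoldsN X4 (Trg.right (Trg.left (Trg.left (Trg.right (Trg.left (chamber 1 1)))))) (Trg.right (Trg.right (Trg.left (Trg.left (Trg.right (Trg.right (chamberN 1 2))))))) :=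
  HoldsN.of_red (k := 16) (m := 16) (leaf ok4 (G303 _ rfl) (G718 _ rfl) (G421 _ rfl) (by decide +kernel))
theorem l926 : HoldsN X4 (Trg.left (Trg.right (Trg.left (Trg.right (Trg.left (chamber 1 1)))))) (Trg.left (Trg.left (Trg.right (Trg.right (chamberN 1 2))))) :=
  HoldsN.of_red (k := 16) (m := 16) (leaf ok4 (G239 _ rfl) (G778 _ rfl) (G317 _ rfl) (by decide +kernel))
theorem l927 : HoldsN X4 (Trg.left (Trg.right (Trg.right (Trg.left (Trg.right (Trg.left (chamber 1 1))))))) (Trg.left (Trg.left (Trg.right (Trg.right (chamberN 1 2))))) :=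
  HoldsN.of_red (k := 16) (m := 16) (leaf ok4 (G171 _ rfl) (G799 _ rfl) (G411 _ rfl) (by decide +kernel))
theorem l928 : HoldsN X4 (Trg.right (Trg.right (Trg.right (Trg.left (Trg.right (Trg.left (chamber 1 1))))))) (Trg.left (Trg.left (Trg.right (Trg.right (chamberN 1 2))))) :=
  HoldsN.of_red (k := 16) (m := 16) (leaf ok4 (G239 _ rfl) (G778 _ rfl) (G376 _ rfl) (by decide +kernel))
theorem l929 : HoldsN X4 (Trg.left (Trg.right (Trg.left (chamber 1 1)))) (Trg.right (Trg.left (Trg.right (Trg.right (chamberN 1 2))))) :=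
  HoldsN.of_red (k := 16) (m := 16) (leaf ok4 (G241 _ rfl) (G614 _ rfl) (G443 _ rfl) (by decide +kernel))

end Vale.Agent.Lib.P154N.D4
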