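import Vale.Agent.Lib.P154N.D4.Data
import Vale.Agent.Lib.P154N.Red

/-!
# Leaves of the tree of triangles
-/

namespace Vale.Agent.Lib.P154N.D4

open Vale.Agent.Lib.P154K Vale.Agent.Lib.P154Neg

theorem l930 : HoldsN X4 (Trg.left (Trg.left (Trg.right (Trg.right (Trg.left (chamber 1 1)))))) (Trg.left (Trg.left (Trg.right (Trg.right (chamberN 1 2))))) :=
  HoldsN.of_red (k := 16) (m := 16) (leaf ok4 (G128 _ rfl) (G778 _ rfl) (G516 _ rfl) (by decide +kernel))
theorem l931 : HoldsN X4 (Trg.left (Trg.right (Trg.left (Trg.right (Trg.right (Trg.left (chamber 1 1))))))) (Trg.left (Trg.left (Trg.right (Trg.right (chamberN 1 2))))) :=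
  HoldsN.of_red (k := 16) (m := 16) (leaf ok4 (G104 _ rfl) (G794 _ rfl) (G629 _ rfl) (by decide +kernel))
theorem l932 : HoldsN X4 (Trg.right (Trg.right (Trg.left (Trg.right (Trg.right (Trg.left (chamber 1 1))))))) (Trg.left (Trg.left (Trg.right (Trg.right (chamberN 1 2))))) :=
  HoldsN.of_red (k := 16) (m := 16) (leaf ok4 (G128 _ rfl) (G778 _ rfl) (G597 _ rfl) (by decide +kernel))
theorem l933 : HoldsN X4 (Trg.left (Trg.right (Trg.right (Trg.left (chamber 1 1))))) (Trg.right (Trg.left (Trg.right (Trg.right (chamberN 1 2))))) :=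
  HoldsN.of_red (k := 16) (m := 16) (leaf ok4 (G179 _ rfl) (G610 _ rfl) (G564 _ rfl) (by decide +kernel))
theorem l934 : HoldsN X4 (Trg.left (Trg.right (Trg.right (Trg.right (Trg.left (chamber 1 1)))))) (Trg.left (Trg.left (Trg.right (Trg.right (chamberN 1 2))))) :=
  HoldsN.of_red (k := 16) (m := 16) (leaf ok4 (G215 _ rfl) (G720 _ rfl) (G444 _ rfl) (by decide +kernel))
theorem l935 : HoldsN X4 (Trg.right (Trg.right (Trg.right (Trg.right (Trg.left (chamber 1 1)))))) (Trg.left (Trg.left (Trg.right (Trg.right (chamberN 1 2))))) :=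
  HoldsN.of_red (k := 16) (m := 16) (leaf ok4 (G172 _ rfl) (G778 _ rfl) (G481 _ rfl) (by decide +kernel))
theorem l936 : HoldsN X4 (Trg.right (Trg.right (Trg.right (Trg.left (chamber 1 1))))) (Trg.right (Trg.left (Trg.right (Trg.right (chamberN 1 2))))) :=
  HoldsN.of_red (k := 16) (m := 16) (leaf ok4 (G241 _ rfl) (G610 _ rfl) (G512 _ rfl) (by decide +kernel))
theorem l937 : HoldsN X4 (Trg.left (Trg.left (Trg.left (Trg.right (Trg.left (chamber 1 1)))))) (Trg.left (Trg.right (Trg.right (Trg.right (chamberN 1 2))))) :=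
  HoldsN.of_red (k := 16) (m := 16) (leaf ok4 (G87 _ rfl) (G796 _ rfl) (G429 _ rfl) (by decide +kernel))
theorem l938 : HoldsN X4 (Trg.left (Trg.left (Trg.left (Trg.right (Trg.left (chamber 1 1)))))) (Trg.right (Trg.right (Trg.right (Trg.right (chamberN 1 2))))) :=
  HoldsN.of_red (k := 16) (m := 16) (leaf ok4 (G121 _ rfl) (G795 _ rfl) (G380 _ rfl) (by decide +kernel))
theorem l939 : HoldsN X4 (Trg.right (Trg.left (Trg.left (Trg.right (Trg.left (chamber 1 1)))))) (Trg.right (Trg.right (Trg.right (chamberN 1 2)))) :=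
  HoldsN.of_red (k := 16) (m := 16) (leaf ok4 (G159 _ rfl) (G756 _ rfl) (G378 _ rfl) (by decide +kernel))

end Vale.Agent.Lib.P154N.D4
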