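import Vale.Agent.Lib.P154N.D4.Data
import Vale.Agent.Lib.P154N.Red

/-!
# Leaves of the tree of triangles
-/

namespace Vale.Agent.Lib.P154N.D4

open Vale.Agent.Lib.P154K Vale.Agent.Lib.P154Neg

theorem l940 : HoldsN X4 (Trg.right (Trg.left (Trg.right (Trg.left (chamber 1 1))))) (Trg.left (Trg.right (Trg.right (Trg.right (chamberN 1 2))))) :=
  HoldsN.of_red (k := 16) (m := 16) (leaf ok4 (G87 _ rfl) (G815 _ rfl) (G385 _ rfl) (by decide +kernel))
theorem l941 : HoldsN X4 (Trg.right (Trg.left (Trg.right (Trg.left (chamber 1 1))))) (Trg.right (Trg.right (Trg.right (Trg.right (chamberN 1 2))))) :=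
  HoldsN.of_red (k := 16) (m := 16) (leaf ok4 (G121 _ rfl) (G813 _ rfl) (G322 _ rfl) (by decide +kernel))
theorem l942 : HoldsN X4 (Trg.left (Trg.left (Trg.right (Trg.right (Trg.left (chamber 1 1)))))) (Trg.left (Trg.left (Trg.right (Trg.right (Trg.right (chamberN 1 2)))))) :=
  HoldsN.of_red (k := 16) (m := 16) (leaf ok4 (G96 _ rfl) (G779 _ rfl) (G648 _ rfl) (by decide +kernel))
theorem l943 : HoldsN X4 (Trg.left (Trg.right (Trg.left (Trg.right (Trg.right (Trg.left (chamber 1 1))))))) (Trg.left (Trg.left (Trg.right (Trg.right (Trg.right (chamberN 1 2)))))) :=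
  HoldsN.of_red (k := 16) (m := 16) (leaf ok4 (G74 _ rfl) (G794 _ rfl) (G733 _ rfl) (by decide +kernel))
theorem l944 : HoldsN X4 (Trg.right (Trg.right (Trg.left (Trg.right (Trg.right (Trg.left (chamber 1 1))))))) (Trg.left (Trg.left (Trg.right (Trg.right (Trg.right (chamberN 1 2)))))) :=
  HoldsN.of_red (k := 16) (m := 16) (leaf ok4 (G96 _ rfl) (G778 _ rfl) (G686 _ rfl) (by decide +kernel))
theorem l945 : HoldsN X4 (Trg.left (Trg.right (Trg.right (Trg.left (chamber 1 1))))) (Trg.right (Trg.left (Trg.right (Trg.right (Trg.right (chamberN 1 2)))))) :=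
  HoldsN.of_red (k := 16) (m := 16) (leaf ok4 (G55 _ rfl) (G838 _ rfl) (G653 _ rfl) (by decide +kernel))
theorem l946 : HoldsN X4 (Trg.left (Trg.left (Trg.right (Trg.right (Trg.left (chamber 1 1)))))) (Trg.right (Trg.right (Trg.right (Trg.right (chamberN 1 2))))) :=
  HoldsN.of_red (k := 16) (m := 16) (leaf ok4 (G96 _ rfl) (G779 _ rfl) (G518 _ rfl) (by decide +kernel))
theorem l947 : HoldsN X4 (Trg.left (Trg.right (Trg.left (Trg.right (Trg.right (Trg.left (chamber 1 1))))))) (Trg.left (Trg.right (Trg.right (Trg.right (Trg.right (chamberN 1 2)))))) :=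
  HoldsN.of_red (k := 16) (m := 16) (leaf ok4 (G73 _ rfl) (G851 _ rfl) (G639 _ rfl) (by decide +kernel))
theorem l948 : HoldsN X4 (Trg.left (Trg.right (Trg.left (Trg.right (Trg.right (Trg.left (chamber 1 1))))))) (Trg.right (Trg.right (Trg.right (Trg.right (Trg.right (chamberN 1 2)))))) :=
  HoldsN.of_red (k := 16) (m := 16) (leaf ok4 (G74 _ rfl) (G794 _ rfl) (G676 _ rfl) (by decide +kernel))
theorem l949 : HoldsN X4 (Trg.right (Trg.right (Trg.left (Trg.right (Trg.right (Trg.left (chamber 1 1))))))) (Trg.right (Trg.right (Trg.right (Trg.right (chamberN 1 2))))) :=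
  HoldsN.of_red (k := 16) (m := 16) (leaf ok4 (G96 _ rfl) (G778 _ rfl) (G601 _ rfl) (by decide +kernel))

end Vale.Agent.Lib.P154N.D4
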