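import Vale.Agent.Lib.P154N.D4.Data
import Vale.Agent.Lib.P154N.Red

/-!
# Leaves of the tree of triangles
-/

namespace Vale.Agent.Lib.P154N.D4

open Vale.Agent.Lib.P154K Vale.Agent.Lib.P154Neg

theorem l950 : HoldsN X4 (Trg.left (Trg.right (Trg.right (Trg.right (Trg.left (chamber 1 1)))))) (Trg.left (Trg.right (Trg.right (Trg.right (chamberN 1 2))))) :=
  HoldsN.of_red (k := 16) (m := 16) (leaf ok4 (G122 _ rfl) (G753 _ rfl) (G484 _ rfl) (by decide +kernel))
theorem l951 : HoldsN X4 (Trg.left (Trg.right (Trg.right (Trg.right (Trg.left (chamber 1 1)))))) (Trg.right (Trg.right (Trg.right (Trg.right (chamberN 1 2))))) :=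
  HoldsN.of_red (k := 16) (m := 16) (leaf ok4 (G159 _ rfl) (G752 _ rfl) (G444 _ rfl) (by decide +kernel))
theorem l952 : HoldsN X4 (Trg.right (Trg.right (Trg.right (Trg.right (Trg.left (chamber 1 1)))))) (Trg.left (Trg.left (Trg.right (Trg.right (Trg.right (chamberN 1 2)))))) :=
  HoldsN.of_red (k := 16) (m := 16) (leaf ok4 (G120 _ rfl) (G779 _ rfl) (G557 _ rfl) (by decide +kernel))
theorem l953 : HoldsN X4 (Trg.right (Trg.right (Trg.right (Trg.right (Trg.left (chamber 1 1)))))) (Trg.right (Trg.left (Trg.right (Trg.right (Trg.right (chamberN 1 2)))))) :=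
  HoldsN.of_red (k := 16) (m := 16) (leaf ok4 (G85 _ rfl) (G838 _ rfl) (G561 _ rfl) (by decide +kernel))
theorem l954 : HoldsN X4 (Trg.right (Trg.right (Trg.right (Trg.right (Trg.left (chamber 1 1)))))) (Trg.right (Trg.right (Trg.right (Trg.right (chamberN 1 2))))) :=
  HoldsN.of_red (k := 16) (m := 16) (leaf ok4 (G120 _ rfl) (G779 _ rfl) (G481 _ rfl) (by decide +kernel))
theorem l955 : HoldsN X4 (Trg.left (Trg.left (Trg.right (chamber 1 1)))) (Trg.left (Trg.left (Trg.left (Trg.left (chamberN 1 2))))) :=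
  HoldsN.of_red (k := 16) (m := 16) (leaf ok4 (G100 _ rfl) (G416 _ rfl) (G801 _ rfl) (by decide +kernel))
theorem l956 : HoldsN X4 (Trg.left (Trg.left (Trg.left (Trg.left (Trg.right (chamber 1 1)))))) (Trg.left (Trg.right (Trg.left (Trg.left (Trg.left (chamberN 1 2)))))) :=
  HoldsN.of_red (k := 16) (m := 16) (leaf ok4 (G37 _ rfl) (G651 _ rfl) (G869 _ rfl) (by decide +kernel))
theorem l957 : HoldsN X4 (Trg.left (Trg.left (Trg.left (Trg.left (Trg.right (chamber 1 1)))))) (Trg.right (Trg.right (Trg.left (Trg.left (Trg.left (chamberN 1 2)))))) :=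
  HoldsN.of_red (k := 16) (m := 16) (leaf ok4 (G66 _ rfl) (G649 _ rfl) (G813 _ rfl) (by decide +kernel))
theorem l958 : HoldsN X4 (Trg.right (Trg.left (Trg.left (Trg.left (Trg.right (chamber 1 1)))))) (Trg.right (Trg.left (Trg.left (Trg.left (chamberN 1 2))))) :=
  HoldsN.of_red (k := 16) (m := 16) (leaf ok4 (G62 _ rfl) (G611 _ rfl) (G814 _ rfl) (by decide +kernel))
theorem l959 : HoldsN X4 (Trg.right (Trg.left (Trg.left (Trg.right (chamber 1 1))))) (Trg.left (Trg.right (Trg.left (Trg.left (Trg.left (chamberN 1 2)))))) :=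
  HoldsN.of_red (k := 16) (m := 16) (leaf ok4 (G37 _ rfl) (G695 _ rfl) (G860 _ rfl) (by decide +kernel))

end Vale.Agent.Lib.P154N.D4
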