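import Vale.Agent.Lib.P154N.D4.Data
import Vale.Agent.Lib.P154N.Red

/-!
# Leaves of the tree of triangles
-/

namespace Vale.Agent.Lib.P154N.D4

open Vale.Agent.Lib.P154K Vale.Agent.Lib.P154Neg

theorem l960 : HoldsN X4 (Trg.right (Trg.left (Trg.left (Trg.right (chamber 1 1))))) (Trg.right (Trg.right (Trg.left (Trg.left (Trg.left (chamberN 1 2)))))) :=
  HoldsN.of_red (k := 16) (m := 16) (leaf ok4 (G66 _ rfl) (G691 _ rfl) (G801 _ rfl) (by decide +kernel))
theorem l961 : HoldsN X4 (Trg.left (Trg.right (Trg.left (Trg.right (chamber 1 1))))) (Trg.left (Trg.left (Trg.left (Trg.left (chamberN 1 2))))) :=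
  HoldsN.of_red (k := 16) (m := 16) (leaf ok4 (G78 _ rfl) (G328 _ rfl) (G870 _ rfl) (by decide +kernel))
theorem l962 : HoldsN X4 (Trg.left (Trg.right (Trg.left (Trg.right (chamber 1 1))))) (Trg.left (Trg.right (Trg.left (Trg.left (Trg.left (chamberN 1 2)))))) :=
  HoldsN.of_red (k := 16) (m := 16) (leaf ok4 (G27 _ rfl) (G617 _ rfl) (G929 _ rfl) (by decide +kernel))
theorem l963 : HoldsN X4 (Trg.left (Trg.right (Trg.left (Trg.right (chamber 1 1))))) (Trg.right (Trg.right (Trg.left (Trg.left (Trg.left (chamberN 1 2)))))) :=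
  HoldsN.of_red (k := 16) (m := 16) (leaf ok4 (G49 _ rfl) (G609 _ rfl) (G870 _ rfl) (by decide +kernel))
theorem l964 : HoldsN X4 (Trg.right (Trg.right (Trg.left (Trg.right (chamber 1 1))))) (Trg.left (Trg.left (Trg.left (Trg.left (chamberN 1 2))))) :=
  HoldsN.of_red (k := 16) (m := 16) (leaf ok4 (G100 _ rfl) (G386 _ rfl) (G821 _ rfl) (by decide +kernel))
theorem l965 : HoldsN X4 (Trg.left (Trg.right (Trg.right (Trg.left (Trg.right (chamber 1 1)))))) (Trg.right (Trg.left (Trg.left (Trg.left (chamberN 1 2))))) :=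
  HoldsN.of_red (k := 16) (m := 16) (leaf ok4 (G51 _ rfl) (G607 _ rfl) (G827 _ rfl) (by decide +kernel))
theorem l966 : HoldsN X4 (Trg.right (Trg.right (Trg.right (Trg.left (Trg.right (chamber 1 1)))))) (Trg.right (Trg.left (Trg.left (Trg.left (chamberN 1 2))))) :=
  HoldsN.of_red (k := 16) (m := 16) (leaf ok4 (G38 _ rfl) (G617 _ rfl) (G850 _ rfl) (by decide +kernel))
theorem l967 : HoldsN X4 (Trg.left (Trg.left (Trg.left (Trg.left (Trg.right (chamber 1 1)))))) (Trg.right (Trg.left (Trg.left (chamberN 1 2)))) :=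
  HoldsN.of_red (k := 16) (m := 16) (leaf ok4 (G129 _ rfl) (G414 _ rfl) (G620 _ rfl) (by decide +kernel))
theorem l968 : HoldsN X4 (Trg.right (Trg.left (Trg.left (Trg.left (Trg.right (chamber 1 1)))))) (Trg.right (Trg.left (Trg.left (chamberN 1 2)))) :=
  HoldsN.of_red (k := 16) (m := 16) (leaf ok4 (G187 _ rfl) (G428 _ rfl) (G616 _ rfl) (by decide +kernel))
theorem l969 : HoldsN X4 (Trg.right (Trg.left (Trg.left (Trg.right (chamber 1 1))))) (Trg.right (Trg.left (Trg.left (chamberN 1 2)))) :=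
  HoldsN.of_red (k := 16) (m := 16) (leaf ok4 (G129 _ rfl) (G417 _ rfl) (G620 _ rfl) (by decide +kernel))

end Vale.Agent.Lib.P154N.D4
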