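import Vale.Agent.Lib.P154N.D4.Data
import Vale.Agent.Lib.P154N.Red

/-!
# Leaves of the tree of triangles
-/

namespace Vale.Agent.Lib.P154N.D4

open Vale.Agent.Lib.P154K Vale.Agent.Lib.P154Neg

theorem l970 : HoldsN X4 (Trg.left (Trg.right (Trg.left (Trg.right (chamber 1 1))))) (Trg.right (Trg.left (Trg.left (chamberN 1 2)))) :=
  HoldsN.of_red (k := 16) (m := 16) (leaf ok4 (G107 _ rfl) (G329 _ rfl) (G623 _ rfl) (by decide +kernel))
theorem l971 : HoldsN X4 (Trg.left (Trg.right (Trg.right (Trg.left (Trg.right (chamber 1 1)))))) (Trg.right (Trg.left (Trg.left (chamberN 1 2)))) :=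
  HoldsN.of_red (k := 16) (m := 16) (leaf ok4 (G160 _ rfl) (G384 _ rfl) (G619 _ rfl) (by decide +kernel))
theorem l972 : HoldsN X4 (Trg.right (Trg.right (Trg.right (Trg.left (Trg.right (chamber 1 1)))))) (Trg.right (Trg.left (Trg.left (chamberN 1 2)))) :=
  HoldsN.of_red (k := 16) (m := 16) (leaf ok4 (G129 _ rfl) (G387 _ rfl) (G620 _ rfl) (by decide +kernel))
theorem l973 : HoldsN X4 (Trg.left (Trg.left (Trg.left (Trg.left (Trg.right (chamber 1 1)))))) (Trg.left (Trg.right (Trg.left (chamberN 1 2)))) :=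
  HoldsN.of_red (k := 16) (m := 16) (leaf ok4 (G71 _ rfl) (G268 _ rfl) (G847 _ rfl) (by decide +kernel))
theorem l974 : HoldsN X4 (Trg.right (Trg.left (Trg.left (Trg.left (Trg.right (chamber 1 1)))))) (Trg.left (Trg.right (Trg.left (chamberN 1 2)))) :=
  HoldsN.of_red (k := 16) (m := 16) (leaf ok4 (G113 _ rfl) (G298 _ rfl) (G825 _ rfl) (by decide +kernel))
theorem l975 : HoldsN X4 (Trg.right (Trg.left (Trg.left (Trg.right (chamber 1 1))))) (Trg.left (Trg.right (Trg.left (chamberN 1 2)))) :=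
  HoldsN.of_red (k := 16) (m := 16) (leaf ok4 (G71 _ rfl) (G271 _ rfl) (G847 _ rfl) (by decide +kernel))
theorem l976 : HoldsN X4 (Trg.left (Trg.left (Trg.right (chamber 1 1)))) (Trg.left (Trg.right (Trg.right (Trg.left (chamberN 1 2))))) :=
  HoldsN.of_red (k := 16) (m := 16) (leaf ok4 (G39 _ rfl) (G530 _ rfl) (G884 _ rfl) (by decide +kernel))
theorem l977 : HoldsN X4 (Trg.left (Trg.left (Trg.left (Trg.left (Trg.right (chamber 1 1)))))) (Trg.right (Trg.right (Trg.right (Trg.left (chamberN 1 2))))) :=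
  HoldsN.of_red (k := 16) (m := 16) (leaf ok4 (G71 _ rfl) (G412 _ rfl) (G846 _ rfl) (by decide +kernel))
theorem l978 : HoldsN X4 (Trg.right (Trg.left (Trg.left (Trg.left (Trg.right (chamber 1 1)))))) (Trg.right (Trg.right (Trg.right (Trg.left (chamberN 1 2))))) :=
  HoldsN.of_red (k := 16) (m := 16) (leaf ok4 (G113 _ rfl) (G427 _ rfl) (G824 _ rfl) (by decide +kernel))
theorem l979 : HoldsN X4 (Trg.right (Trg.left (Trg.left (Trg.right (chamber 1 1))))) (Trg.right (Trg.right (Trg.right (Trg.left (chamberN 1 2))))) :=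
  HoldsN.of_red (k := 16) (m := 16) (leaf ok4 (G71 _ rfl) (G415 _ rfl) (G846 _ rfl) (by decide +kernel))

end Vale.Agent.Lib.P154N.D4
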