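import Vale.Agent.Lib.P154N.D4.Data
import Vale.Agent.Lib.P154N.Red

/-!
# Leaves of the tree of triangles
-/

namespace Vale.Agent.Lib.P154N.D4

open Vale.Agent.Lib.P154K Vale.Agent.Lib.P154Neg

theorem l980 : HoldsN X4 (Trg.left (Trg.right (Trg.left (Trg.right (chamber 1 1))))) (Trg.left (Trg.right (Trg.left (chamberN 1 2)))) :=
  HoldsN.of_red (k := 16) (m := 16) (leaf ok4 (G59 _ rfl) (G150 _ rfl) (G887 _ rfl) (by decide +kernel))
theorem l981 : HoldsN X4 (Trg.left (Trg.right (Trg.left (Trg.right (chamber 1 1))))) (Trg.left (Trg.right (Trg.right (Trg.left (chamberN 1 2))))) :=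
  HoldsN.of_red (k := 16) (m := 16) (leaf ok4 (G27 _ rfl) (G455 _ rfl) (G943 _ rfl) (by decide +kernel))
theorem l982 : HoldsN X4 (Trg.left (Trg.right (Trg.left (Trg.right (chamber 1 1))))) (Trg.right (Trg.right (Trg.right (Trg.left (chamberN 1 2))))) :=
  HoldsN.of_red (k := 16) (m := 16) (leaf ok4 (G59 _ rfl) (G323 _ rfl) (G887 _ rfl) (by decide +kernel))
theorem l983 : HoldsN X4 (Trg.left (Trg.right (Trg.right (Trg.left (Trg.right (chamber 1 1)))))) (Trg.left (Trg.right (Trg.left (chamberN 1 2)))) :=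
  HoldsN.of_red (k := 16) (m := 16) (leaf ok4 (G100 _ rfl) (G217 _ rfl) (G827 _ rfl) (by decide +kernel))
theorem l984 : HoldsN X4 (Trg.right (Trg.right (Trg.right (Trg.left (Trg.right (chamber 1 1)))))) (Trg.left (Trg.right (Trg.left (chamberN 1 2)))) :=
  HoldsN.of_red (k := 16) (m := 16) (leaf ok4 (G71 _ rfl) (G219 _ rfl) (G863 _ rfl) (by decide +kernel))
theorem l985 : HoldsN X4 (Trg.right (Trg.right (Trg.left (Trg.right (chamber 1 1))))) (Trg.left (Trg.right (Trg.right (Trg.left (chamberN 1 2))))) :=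
  HoldsN.of_red (k := 16) (m := 16) (leaf ok4 (G39 _ rfl) (G487 _ rfl) (G884 _ rfl) (by decide +kernel))
theorem l986 : HoldsN X4 (Trg.left (Trg.right (Trg.right (Trg.left (Trg.right (chamber 1 1)))))) (Trg.right (Trg.right (Trg.right (Trg.left (chamberN 1 2))))) :=
  HoldsN.of_red (k := 16) (m := 16) (leaf ok4 (G100 _ rfl) (G378 _ rfl) (G827 _ rfl) (by decide +kernel))
theorem l987 : HoldsN X4 (Trg.right (Trg.right (Trg.right (Trg.left (Trg.right (chamber 1 1)))))) (Trg.right (Trg.right (Trg.right (Trg.left (chamberN 1 2))))) :=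
  HoldsN.of_red (k := 16) (m := 16) (leaf ok4 (G71 _ rfl) (G381 _ rfl) (G862 _ rfl) (by decide +kernel))
theorem l988 : HoldsN X4 (Trg.left (Trg.left (Trg.left (Trg.left (Trg.right (chamber 1 1)))))) (Trg.left (Trg.left (Trg.right (chamberN 1 2)))) :=
  HoldsN.of_red (k := 16) (m := 16) (leaf ok4 (G20 _ rfl) (G816 _ rfl) (G787 _ rfl) (by decide +kernel))
theorem l989 : HoldsN X4 (Trg.right (Trg.left (Trg.left (Trg.left (Trg.right (chamber 1 1)))))) (Trg.left (Trg.left (Trg.right (chamberN 1 2)))) :=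
  HoldsN.of_red (k := 16) (m := 16) (leaf ok4 (G34 _ rfl) (G723 _ rfl) (G783 _ rfl) (by decide +kernel))

end Vale.Agent.Lib.P154N.D4
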